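import Crest.Agent.R134.Basic

/-!
# Row 134: the absorption estimate (task R134-AbsCore)

Notation: `p i = pre b d i` (unitary), `ζ j = star (p j) * ζ * p j`, `w = p L`.

PLAN.  `Der τ x x₀ D`: `∀ ε > 0, ∀ᶠ η in 𝓝 0, n2 (x η - x₀ - η • D) ≤ ε * |η|` (define it; product rule
when the first factor is bounded; sums; `star`).
* `n2_ex_sub`: from the power series, `n2 (a^n - b^n) ≤ n M^(n-1) n2 (a - b)`; (or: for
  `f s = exp (s a) exp ((1-s) b)`, `f' = exp (s a) (a - b) exp ((1-s) b)` and the mean value inequality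
  applied to `s ↦ τ (star y * f s)`, giving constant 1 for skew-adjoint `a, b`).
* `η ↦ ex (η • t)` has derivative `I • t` at `0` in norm (`hasDerivAt_exp_smul_const`), so `Der`.
* `Der (σ j · (p i)) (p i) ((∑ l < i with β l = β j, I • p l ζ_j (p l)⋆) * p i)` by induction on `i`.
  As `ζ = p j * ζ_j * star (p j)`: `Der (σ j · ζ) ζ (h_j ζ - ζ h_j)`, `h_j = ∑_{l < j, β l = β j} I • p l ζ_j (p l)⋆`.
* `𝒦 = {x | ∀ j, n2 (σ j η x - x) → 0}` is a ⋆-subalgebra (`σ j η` is isometric for the norm and `n2`)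
  containing `b i, d i, ζ`.  If `Der (σ j · x) x (D j)`, `D j ∈ 𝒦` for all `j`, then for
  `T η = ((List.range L).map (σ · η)).prod`: `Der (T · x) x (∑ j < L, D j)` (induction on `L`;
  `σσ'x - x - η(D + D') = σ(σ'x - x - ηD') + η(σ D' - D') + (σ x - x - ηD)`).
* So `Der (T · w) w (L • I • ζ w + I • (off-diagonal sum) * w)` (the diagonal terms `l = j` give `ζ`),
  `Der (T · ζ) ζ [h, ζ]` with `n2 [h, ζ] ≤ 2π B₁`, `Der (T · (b i)) (b i) (I • (∑_{β j = β i} ζ_j) b i)`.
* With `η = 1/(N L)`, `E = ex (N⁻¹ • ζ)`, `T = T η`: by induction on `s`,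
  `n2 (T^s w - E^s w) ≤ s * (n2 (T w - E w) + N * n2 (T E - E))` for `s ≤ N` (write
  `T^(s+1) w - E^(s+1) w = T (T^s w - E^s w) + (T E^s - E^s) T w + E^s (T w - E w)`), and
  `n2 (T E - E) ≤ exp(π/N) N⁻¹ n2 (T ζ - ζ)`.  `E^N = ex ζ` (`ex_nsmul`).  `Θ = T^N`, `N` large.
-/

set_option autoImplicit false

namespace Crest.Agent.R134

open Crest.Agent.R95 Filter Topology
open scoped ComplexConjugate

universe u v

variable {A : Type u} [CStarAlgebra A] {τ : Tr A}

/-- prefixes of the word `b 0 * d 0 * b 1 * d 1 * ⋯` -/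
def pre (b d : ℕ → A) : ℕ → A
  | 0 => 1
  | i + 1 => pre b d i * b i * d i

theorem pre_unitary {b d : ℕ → A} (hb : ∀ i, b i ∈ unitary A) (hd : ∀ i, d i ∈ unitary A) (i : ℕ) :
    pre b d i ∈ unitary A := by
  induction i with
  | zero => exact one_mem _
  | succ i ih => exact mul_mem (mul_mem ih (hb i)) (hd i)

theorem aut_rsmul (θ : A ≃⋆ₐ[ℂ] A) (r : ℝ) (x : A) : θ (r • x) = r • θ x := by
  rw [← Complex.coe_smul, map_smul, Complex.coe_smul]

theorem n2_rsmul (r : ℝ) (x : A) : τ.n2 (r • x) = |r| * τ.n2 x := by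
  rw [← Complex.coe_smul, τ.n2_smul, Complex.norm_real, Real.norm_eq_abs]

theorem hasDerivAt_ex (t : A) :
    HasDerivAt (fun η : ℝ => ex ((η : ℂ) • t)) (Complex.I • t) 0 := by
  have h := hasDerivAt_exp_smul_const (𝕂 := ℝ) (Complex.I • t) (0 : ℝ)
  simp only [zero_smul, NormedSpace.exp_zero, one_mul] at h
  refine h.congr_of_eventuallyEq (Eventually.of_forall fun η => ?_)
  simp only [ex]
  rw [smul_comm, Complex.coe_smul]

theorem n2_pow_sub_ac {u v : A} (hu : u ∈ unitary A) (hv : v ∈ unitary A) (n : ℕ) :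
    τ.n2 (u ^ n - v ^ n) ≤ n * τ.n2 (u - v) := by
  induction n with
  | zero => simp [τ.n2_zero]
  | succ n ih =>
    rw [pow_succ, pow_succ]
    refine (n2_mul_sub_le _ _ _ _).trans ?_
    rw [τ.norm_unitary hu, τ.norm_unitary (pow_mem hv n)]
    push_cast
    linarith

theorem tendsto_n2_slope {f : ℝ → A} {D : A} (hf : HasDerivAt f D 0) (h0 : f 0 = 0) {c : ℝ}
    (hc : 0 < c) :
    Tendsto (fun N : ℕ => (N : ℝ) * τ.n2 (f (c / N))) atTop (𝓝 (c * τ.n2 D)) := by
  rw [hasDerivAt_iff_tendsto_slope_zero] at hf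
  have h1 : Tendsto (fun N : ℕ => c / (N : ℝ)) atTop (𝓝[≠] 0) := by
    refine tendsto_nhdsWithin_iff.2 ⟨tendsto_const_div_atTop_nhds_zero_nat c, ?_⟩
    filter_upwards [eventually_gt_atTop 0] with N hN
    have : (0 : ℝ) < N := by exact_mod_cast hN
    exact (div_pos hc this).ne'
  have h2 := ((τ.continuous_n2.tendsto D).comp (hf.comp h1)).const_mul c
  refine h2.congr' ?_
  filter_upwards [eventually_gt_atTop 0] with N hN
  have : (0 : ℝ) < N := by exact_mod_cast hN
  simp only [Function.comp, h0, sub_zero, zero_add]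
  rw [n2_rsmul, abs_of_pos (by positivity)]
  field_simp

theorem isSelfAdjoint_rsmul {t : A} (ht : IsSelfAdjoint t) (r : ℝ) :
    IsSelfAdjoint ((r : ℂ) • t) := by
  rw [IsSelfAdjoint, star_smul, ht.star_eq]
  simp

theorem ex_div_pow (t : A) {N : ℕ} (hN : 0 < N) :
    ex (((1 / (N : ℝ) : ℝ) : ℂ) • t) ^ N = ex t := by
  rw [← ex_nsmul, smul_smul]
  have : (N : ℂ) ≠ 0 := by exact_mod_cast hN.ne'
  congr 1
  push_cast
  rw [mul_one_div_cancel this, one_smul]

theorem n2_ex_sub' {s t : A} (hs : IsSelfAdjoint s) (ht : IsSelfAdjoint t) :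
    τ.n2 (ex s - ex t) ≤ τ.n2 (s - t) := by
  have h := tendsto_n2_slope (τ := τ) ((hasDerivAt_ex s).sub (hasDerivAt_ex t))
    (by simp [ex_zero]) one_pos
  rw [one_mul, ← smul_sub, τ.n2_smul, Complex.norm_I, one_mul] at h
  refine ge_of_tendsto h ?_
  filter_upwards [eventually_gt_atTop 0] with N hN
  rw [← ex_div_pow s hN, ← ex_div_pow t hN]
  exact n2_pow_sub_ac (ex_unitary (isSelfAdjoint_rsmul hs _)) (ex_unitary (isSelfAdjoint_rsmul ht _)) N

theorem n2_ex_sub {s t : A} {M : ℝ} (hs : IsSelfAdjoint s) (ht : IsSelfAdjoint t) (hsM : ‖s‖ ≤ M)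
    (_htM : ‖t‖ ≤ M) : τ.n2 (ex s - ex t) ≤ Real.exp M * τ.n2 (s - t) := by
  refine (n2_ex_sub' hs ht).trans (le_mul_of_one_le_left (τ.n2_nonneg _) ?_)
  exact Real.one_le_exp ((norm_nonneg _).trans hsM)

theorem tendsto_aut_comp {l : Filter ℝ} {θ : ℝ → (A ≃⋆ₐ[ℂ] A)} {g : ℝ → A} {y z : A}
    (hg : Tendsto g l (𝓝 y)) (hy : Tendsto (fun η => θ η y) l (𝓝 z)) :
    Tendsto (fun η => θ η (g η)) l (𝓝 z) := by
  have h1 : Tendsto (fun η => θ η (g η - y)) l (𝓝 0) := by
    rw [tendsto_zero_iff_norm_tendsto_zero]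
    simp only [norm_aut]
    exact tendsto_iff_norm_sub_tendsto_zero.1 hg
  have h2 := h1.add hy
  rw [zero_add] at h2
  exact h2.congr fun η => by rw [← map_add, sub_add_cancel]

theorem hasDerivAt_aut_comp {θ : ℝ → (A ≃⋆ₐ[ℂ] A)} {f : ℝ → A} {x D D' : A}
    (h : HasDerivAt (fun η => θ η x) D 0) (hf : HasDerivAt f D' 0) (hf0 : f 0 = x)
    (hD' : Tendsto (fun η => θ η D') (𝓝 0) (𝓝 D')) :
    HasDerivAt (fun η => θ η (f η)) (D + D') 0 := by
  rw [hasDerivAt_iff_tendsto_slope_zero] at h hf ⊢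
  have h1 := tendsto_aut_comp (θ := θ) hf (hD'.mono_left nhdsWithin_le_nhds)
  refine (h.add h1).congr fun η => ?_
  simp only [zero_add, hf0]
  rw [aut_rsmul, map_sub, ← smul_add]
  congr 1
  abel

/-- the composition of the first `n` shears -/
noncomputable def cmp (σ : ℕ → ℝ → (A ≃⋆ₐ[ℂ] A)) : ℕ → ℝ → (A ≃⋆ₐ[ℂ] A)
  | 0 => fun _ => 1
  | n + 1 => fun η => cmp σ n η * σ n η

theorem cmp_mem {S : Set A} {σ : ℕ → ℝ → (A ≃⋆ₐ[ℂ] A)} (hσ : ∀ j η, σ j η ∈ TPF τ S) (n : ℕ)
    (η : ℝ) : cmp σ n η ∈ TPF τ S := by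
  induction n with
  | zero => exact one_mem _
  | succ n ih => exact mul_mem ih (hσ n η)

/-- the elements moved continuously -/
def Ct (σ : ℕ → ℝ → (A ≃⋆ₐ[ℂ] A)) (x : A) : Prop :=
  ∀ j, Tendsto (fun η => σ j η x) (𝓝 0) (𝓝 x)

section Ct

variable {σ : ℕ → ℝ → (A ≃⋆ₐ[ℂ] A)} {x y : A}

theorem Ct.mul (hx : Ct σ x) (hy : Ct σ y) : Ct σ (x * y) := fun j => by
  simpa only [map_mul] using (hx j).mul (hy j)

theorem Ct.add (hx : Ct σ x) (hy : Ct σ y) : Ct σ (x + y) := fun j => by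
  simpa only [map_add] using (hx j).add (hy j)

theorem Ct.star (hx : Ct σ x) : Ct σ (star x) := fun j => by
  simpa only [map_star] using (hx j).star

theorem Ct.smul (c : ℂ) (hx : Ct σ x) : Ct σ (c • x) := fun j => by
  simpa only [map_smul] using (hx j).const_smul c

theorem Ct.zero : Ct σ (0 : A) := fun j => by
  simpa only [map_zero] using tendsto_const_nhds

theorem Ct.sum {ι : Type*} (s : Finset ι) {f : ι → A} (h : ∀ i ∈ s, Ct σ (f i)) :
    Ct σ (∑ i ∈ s, f i) := fun j => by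
  simpa only [map_sum] using tendsto_finsetSum s fun i hi => h i hi j

theorem Ct.of_deriv {D : ℕ → A} (h : ∀ j, HasDerivAt (fun η => σ j η x) (D j) 0)
    (h0 : ∀ j, σ j 0 x = x) : Ct σ x := fun j => by
  have := (h j).continuousAt.tendsto
  rwa [h0 j] at this

theorem Ct.cmp (hx : Ct σ x) (n : ℕ) : Tendsto (fun η => cmp σ n η x) (𝓝 0) (𝓝 x) := by
  induction n with
  | zero => exact tendsto_const_nhds
  | succ n ih => exact tendsto_aut_comp (θ := R134.cmp σ n) (hx n) ih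

theorem cmp_zero (h0 : ∀ j, σ j 0 x = x) (n : ℕ) : cmp σ n 0 x = x := by
  induction n with
  | zero => rfl
  | succ n ih =>
    show cmp σ n 0 (σ n 0 x) = x
    rw [h0, ih]

theorem hasDerivAt_cmp {D : ℕ → A} (h : ∀ j, HasDerivAt (fun η => σ j η x) (D j) 0)
    (h0 : ∀ j, σ j 0 x = x) (hD : ∀ j, Ct σ (D j)) (n : ℕ) :
    HasDerivAt (fun η => cmp σ n η x) (∑ j ∈ Finset.range n, D j) 0 := by
  induction n with
  | zero => simpa [cmp] using hasDerivAt_const (0 : ℝ) x
  | succ n ih =>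
    rw [Finset.sum_range_succ]
    exact hasDerivAt_aut_comp (θ := cmp σ n) ih (h n) (h0 n) ((hD n).cmp n)

end Ct

theorem n2_aut_pow {S : Set A} {T : A ≃⋆ₐ[ℂ] A} (hT : T ∈ TPF τ S) (x : A) (n : ℕ) :
    τ.n2 ((T ^ n) x - x) ≤ n * τ.n2 (T x - x) := by
  induction n with
  | zero => simp [τ.n2_zero]
  | succ n ih =>
    rw [pow_succ', StarAlgEquiv.mul_apply]
    refine (τ.n2_triangle _ (T x) _).trans ?_
    rw [tpf_n2_sub hT]
    push_cast
    linarith

theorem n2_aut_pow_mul {S : Set A} {T : A ≃⋆ₐ[ℂ] A} (hT : T ∈ TPF τ S) {w E : A}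
    (hw : w ∈ unitary A) (hE : E ∈ unitary A) (N : ℕ) (n : ℕ) (hn : n ≤ N) :
    τ.n2 ((T ^ n) w - E ^ n * w) ≤ n * (τ.n2 (T w - E * w) + N * τ.n2 (T E - E)) := by
  induction n with
  | zero => simp [τ.n2_zero]
  | succ n ih =>
    have ih := ih (by omega)
    rw [pow_succ', StarAlgEquiv.mul_apply]
    refine (τ.n2_triangle _ (T (E ^ n * w)) _).trans ?_
    rw [tpf_n2_sub hT, map_mul, pow_succ, mul_assoc]
    have h1 := n2_mul_sub_le (τ := τ) (T (E ^ n)) (E ^ n) (T w) (E * w)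
    rw [τ.norm_unitary (aut_unitary T hw), τ.norm_unitary (pow_mem hE n), map_pow] at h1
    have h2 := n2_pow_sub_ac (τ := τ) (aut_unitary T hE) hE n
    have h3 : (n : ℝ) * τ.n2 (T E - E) ≤ N * τ.n2 (T E - E) :=
      mul_le_mul_of_nonneg_right (by exact_mod_cast (by omega : n ≤ N)) (τ.n2_nonneg _)
    rw [map_pow]
    push_cast
    linarith

theorem abs_core {S : Set A} {b d : ℕ → A} (β : ℕ → ℕ) (hb : ∀ i, b i ∈ unitary A)
    (hd : ∀ i, d i ∈ unitary A) {ζ : A} (hζ : IsSelfAdjoint ζ) (hζ' : ‖ζ‖ ≤ Real.pi) {L : ℕ}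
    (hL : 0 < L) (σ : ℕ → ℝ → (A ≃⋆ₐ[ℂ] A)) (hσ : ∀ j η, σ j η ∈ TPF τ S)
    (hσb : ∀ j η i, σ j η (b i) = if β i = β j then
      ex ((η : ℂ) • (star (pre b d j) * ζ * pre b d j)) * b i else b i)
    (hσd : ∀ j η i, σ j η (d i) = d i)
    (hσζ : ∀ j η, σ j η (star (pre b d j) * ζ * pre b d j) = star (pre b d j) * ζ * pre b d j)
    {B₁ B₂ : ℝ}
    (h1 : ∀ T : Finset (ℕ × ℕ), (∀ q ∈ T, q.1 < L ∧ q.2 < L ∧ q.1 ≠ q.2 ∧ β q.1 = β q.2) →
      τ.n2 (∑ q ∈ T, pre b d q.1 * (star (pre b d q.2) * ζ * pre b d q.2) * star (pre b d q.1))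
        ≤ B₁)
    (h2 : ∀ T : Finset ℕ, (∀ j ∈ T, j < L) →
      τ.n2 (∑ j ∈ T, star (pre b d j) * ζ * pre b d j) ≤ B₂)
    {ε : ℝ} (hε : 0 < ε) :
    ∃ Θ ∈ TPF τ S,
      τ.n2 (Θ (pre b d L) - ex ζ * pre b d L) ≤ (1 + 2 * Real.pi) * B₁ / L + ε ∧
      ∀ i < L, τ.n2 (Θ (b i) - b i) ≤ B₂ / L + ε := by
  classical
  set p := pre b d with hp
  have hpu : ∀ i, p i ∈ unitary A := pre_unitary hb hd
  set z : ℕ → A := fun j => star (p j) * ζ * p j with hz
  have hζz : ∀ j, p j * z j * star (p j) = ζ := fun j => by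
    simp only [hz, ← mul_assoc]
    rw [Unitary.mul_star_self_of_mem (hpu j), one_mul, mul_assoc,
      Unitary.mul_star_self_of_mem (hpu j), mul_one]
  -- derivatives
  set Db : ℕ → ℕ → A := fun i j => if β i = β j then (Complex.I • z j) * b i else 0 with hDb
  set h : ℕ → ℕ → A := fun i j =>
    ∑ l ∈ Finset.range i, if β l = β j then Complex.I • (p l * z j * star (p l)) else 0 with hh
  have db : ∀ i j, HasDerivAt (fun η => σ j η (b i)) (Db i j) 0 := fun i j => by
    simp only [hσb, hDb]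
    split_ifs with hij
    · exact (hasDerivAt_ex _).mul_const _
    · exact hasDerivAt_const _ _
  have b0 : ∀ i j, σ j 0 (b i) = b i := fun i j => by
    rw [hσb]; split_ifs <;> simp [ex_zero]
  have p0 : ∀ i j, σ j 0 (p i) = p i := fun i j => by
    induction i with
    | zero => exact map_one _
    | succ i ih =>
      show σ j 0 (p i * b i * d i) = p i * b i * d i
      rw [map_mul, map_mul, ih, b0, hσd]
  have dp : ∀ i j, HasDerivAt (fun η => σ j η (p i)) (h i j * p i) 0 := fun i j => by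
    induction i with
    | zero =>
      have : ∀ η, σ j η (p 0) = 1 := fun η => map_one _
      simp only [this, hh, Finset.range_zero, Finset.sum_empty, zero_mul]
      exact hasDerivAt_const _ _
    | succ i ih =>
      have e : ∀ η, σ j η (p (i + 1)) = σ j η (p i) * σ j η (b i) * d i := fun η => by
        show σ j η (p i * b i * d i) = _
        rw [map_mul, map_mul, hσd]
      simp only [e]
      have := (ih.fun_mul (db i j)).mul_const (d i)
      rw [b0, p0] at this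
      convert this using 1
      show h (i + 1) j * (p i * b i * d i) = _
      simp only [hh, hDb, Finset.sum_range_succ, add_mul]
      congr 1
      · simp only [mul_assoc]
      · split_ifs
        · simp only [smul_mul_assoc, mul_smul_comm, mul_assoc]
          rw [← mul_assoc (star (p i)), Unitary.star_mul_self_of_mem (hpu i), one_mul]
        · simp
  have eζ : ∀ j η, σ j η ζ = σ j η (p j) * z j * star (σ j η (p j)) := fun j η => by
    conv_lhs => rw [← hζz j]
    rw [map_mul, map_mul, map_star, hσζ]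
  have ζ0 : ∀ j, σ j 0 ζ = ζ := fun j => by rw [eζ, p0, hζz]
  have dζ : ∀ j, HasDerivAt (fun η => σ j η ζ) (h j j * ζ + ζ * star (h j j)) 0 := fun j => by
    simp only [eζ]
    have := ((dp j j).mul_const (z j)).fun_mul (dp j j).star
    rw [p0] at this
    convert this using 1
    rw [star_mul, ← hζz j]
    simp only [mul_assoc]
  -- continuity
  have cb : ∀ i, Ct σ (b i) := fun i => .of_deriv (db i) (b0 i)
  have cp : ∀ i, Ct σ (p i) := fun i => .of_deriv (dp i) (p0 i)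
  have cζ : Ct σ ζ := .of_deriv dζ ζ0
  have cz : ∀ j, Ct σ (z j) := fun j => ((cp j).star.mul cζ).mul (cp j)
  have ch : ∀ i j, Ct σ (h i j) := fun i j => Ct.sum _ fun l _ => by
    split_ifs
    · exact .smul _ (((cp l).mul (cz j)).mul (cp l).star)
    · exact .zero
  have cDb : ∀ i j, Ct σ (Db i j) := fun i j => by
    simp only [hDb]
    split_ifs
    · exact ((cz j).smul _).mul (cb i)
    · exact .zero
  have Tb := fun i => hasDerivAt_cmp (db i) (b0 i) (cDb i) L
  have Tw := hasDerivAt_cmp (dp L) (p0 L) (fun j => (ch L j).mul (cp L)) L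
  have Tζ := hasDerivAt_cmp dζ ζ0 (fun j => ((ch j j).mul cζ).add (cζ.mul (ch j j).star)) L
  -- sizes of the derivatives
  have sb : ∀ i, τ.n2 (∑ j ∈ Finset.range L, Db i j) ≤ B₂ := fun i => by
    have : ∑ j ∈ Finset.range L, Db i j =
        (Complex.I • ∑ j ∈ (Finset.range L).filter (fun j => β i = β j), z j) * b i := by
      rw [Finset.sum_filter, Finset.smul_sum, Finset.sum_mul]
      refine Finset.sum_congr rfl fun j _ => ?_
      simp only [hDb]
      split_ifs <;> simp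
    rw [this, τ.n2_mul_unitary (hb i), τ.n2_smul, Complex.norm_I, one_mul]
    exact h2 _ fun j hj => Finset.mem_range.1 (Finset.mem_filter.1 hj).1
  have sζ : τ.n2 (∑ j ∈ Finset.range L, (h j j * ζ + ζ * star (h j j))) ≤ 2 * Real.pi * B₁ := by
    set H := ∑ j ∈ Finset.range L, h j j with hH
    have e : ∑ j ∈ Finset.range L, (h j j * ζ + ζ * star (h j j)) = H * ζ + ζ * star H := by
      rw [Finset.sum_add_distrib, hH, star_sum, Finset.sum_mul, Finset.mul_sum]
    have hHB : τ.n2 H ≤ B₁ := by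
      have : H = Complex.I • ∑ q ∈ (Finset.range L ×ˢ Finset.range L).filter
          (fun q => q.1 < q.2 ∧ β q.1 = β q.2), p q.1 * z q.2 * star (p q.1) := by
        rw [Finset.sum_filter, Finset.sum_product_right, Finset.smul_sum]
        refine Finset.sum_congr rfl fun j hj => ?_
        rw [Finset.smul_sum]
        simp only [hh]
        have hj' := (Finset.mem_range.1 hj).le
        rw [← Finset.sum_subset (Finset.range_mono hj')]
        · refine Finset.sum_congr rfl fun l hl => ?_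
          have := Finset.mem_range.1 hl
          by_cases hβ : β l = β j <;> simp [hβ, this]
        · intro l _ hl
          have : ¬ l < j := fun h => hl (Finset.mem_range.2 h)
          simp [this]
      rw [this, τ.n2_smul, Complex.norm_I, one_mul]
      refine h1 _ fun q hq => ?_
      obtain ⟨hq1, hq2, hq3⟩ := Finset.mem_filter.1 hq
      obtain ⟨hq4, hq5⟩ := Finset.mem_product.1 hq1
      exact ⟨Finset.mem_range.1 hq4, Finset.mem_range.1 hq5, hq2.ne, hq3⟩
    rw [e]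
    have a1 := τ.n2_mul_le_right H ζ
    have a2 := τ.n2_mul_le_left ζ (star H)
    rw [τ.n2_star] at a2
    have a3 := τ.n2_add_le (H * ζ) (ζ * star H)
    have a4 : τ.n2 H * ‖ζ‖ ≤ B₁ * Real.pi :=
      mul_le_mul hHB hζ' (norm_nonneg _) ((τ.n2_nonneg _).trans hHB)
    nlinarith
  have sw : τ.n2 (∑ j ∈ Finset.range L, h L j * p L - (L : ℝ) • (Complex.I • ζ) * p L) ≤ B₁ := by
    have : ∑ j ∈ Finset.range L, h L j * p L - (L : ℝ) • (Complex.I • ζ) * p L =
        (Complex.I • ∑ q ∈ (Finset.range L ×ˢ Finset.range L).filter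
          (fun q => q.1 ≠ q.2 ∧ β q.1 = β q.2), p q.1 * z q.2 * star (p q.1)) * p L := by
      rw [← Finset.sum_mul, ← sub_mul]
      congr 1
      rw [Finset.sum_filter, Finset.sum_product_right, Finset.smul_sum, sub_eq_iff_eq_add]
      have : (L : ℝ) • (Complex.I • ζ) = ∑ j ∈ Finset.range L, Complex.I • ζ := by
        rw [Finset.sum_const, Finset.card_range, Nat.cast_smul_eq_nsmul]
      rw [this, ← Finset.sum_add_distrib]
      refine Finset.sum_congr rfl fun j hj => ?_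
      simp only [hh]
      rw [Finset.smul_sum, ← Finset.add_sum_erase _ _ hj, ← Finset.add_sum_erase _ _ hj]
      simp only [if_true, ne_eq, not_true, false_and, if_false, smul_zero, zero_add, hζz]
      rw [add_comm]
      congr 1
      refine Finset.sum_congr rfl fun l hl => ?_
      have := Finset.ne_of_mem_erase hl
      by_cases hβ : β l = β j <;> simp [hβ, this]
    rw [this, τ.n2_mul_unitary (hpu L), τ.n2_smul, Complex.norm_I, one_mul]
    refine h1 _ fun q hq => ?_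
    obtain ⟨hq1, hq2, hq3⟩ := Finset.mem_filter.1 hq
    obtain ⟨hq4, hq5⟩ := Finset.mem_product.1 hq1
    exact ⟨Finset.mem_range.1 hq4, Finset.mem_range.1 hq5, hq2, hq3⟩
  -- limits
  have hL' : (0 : ℝ) < L := by exact_mod_cast hL
  have hc : (0 : ℝ) < 1 / L := by positivity
  have dE : HasDerivAt (fun η : ℝ => ex (((η * L : ℝ) : ℂ) • ζ) * p L)
      ((L : ℝ) • (Complex.I • ζ) * p L) 0 := by
    have h3 := hasDerivAt_ex ((L : ℂ) • ζ)
    have h4 := h3.mul_const (p L)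
    convert h4 using 1
    · funext η
      rw [smul_smul]; push_cast; rfl
    · rw [smul_comm, ← Complex.coe_smul]; simp
  have l1 := tendsto_n2_slope (τ := τ) (Tw.sub dE)
    (by simp [cmp_zero (p0 L), ex_zero]) hc
  have l2 := tendsto_n2_slope (τ := τ) (Tζ.sub_const ζ) (by simp [cmp_zero ζ0]) hc
  have l3 := fun i => tendsto_n2_slope (τ := τ) ((Tb i).sub_const (b i))
    (by simp [cmp_zero (b0 i)]) hc
  have e1 := (l1.add l2).eventually (eventually_le_nhds (b := (1 + 2 * Real.pi) * B₁ / L + ε) (by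
    have : 1 / (L : ℝ) * τ.n2 (∑ j ∈ Finset.range L, h L j * p L -
        (L : ℝ) • (Complex.I • ζ) * p L) ≤ 1 / L * B₁ := mul_le_mul_of_nonneg_left sw hc.le
    have : 1 / (L : ℝ) * τ.n2 (∑ j ∈ Finset.range L, (h j j * ζ + ζ * star (h j j))) ≤
        1 / L * (2 * Real.pi * B₁) := mul_le_mul_of_nonneg_left sζ hc.le
    have : (1 + 2 * Real.pi) * B₁ / L = 1 / L * B₁ + 1 / L * (2 * Real.pi * B₁) := by ring
    linarith))
  have e3 : ∀ᶠ N : ℕ in atTop, ∀ i ∈ Finset.range L,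
      (N : ℝ) * τ.n2 (cmp σ L (1 / L / N) (b i) - b i) ≤ B₂ / L + ε := by
    rw [Filter.eventually_all_finset]
    intro i _
    refine (l3 i).eventually (eventually_le_nhds ?_)
    have : 1 / (L : ℝ) * τ.n2 (∑ j ∈ Finset.range L, Db i j) ≤ 1 / L * B₂ :=
      mul_le_mul_of_nonneg_left (sb i) hc.le
    have : B₂ / L = 1 / L * B₂ := by ring
    linarith
  obtain ⟨N, hN1, hN3, hN⟩ := (e1.and (e3.and (eventually_gt_atTop 0))).exists
  have hN' : (0 : ℝ) < N := by exact_mod_cast hN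
  set T := cmp σ L (1 / L / N) with hT
  have hTm : T ∈ TPF τ S := cmp_mem hσ L _
  refine ⟨T ^ N, pow_mem hTm N, ?_, fun i hi => (n2_aut_pow hTm _ N).trans
    (hN3 i (Finset.mem_range.2 hi))⟩
  have hη : (1 / (L : ℝ) / N * L) = 1 / N := by field_simp
  simp only [Pi.sub_apply, hη] at hN1
  have hE := ex_unitary (isSelfAdjoint_rsmul hζ (1 / N))
  have k1 := n2_aut_pow_mul hTm (hpu L) hE N N le_rfl
  rw [ex_div_pow ζ hN] at k1
  have k2 : τ.n2 (T (ex (((1 / (N : ℝ) : ℝ) : ℂ) • ζ)) - ex (((1 / (N : ℝ) : ℝ) : ℂ) • ζ)) ≤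
      1 / N * τ.n2 (T ζ - ζ) := by
    rw [aut_ex, map_smul]
    have hTζ : IsSelfAdjoint (T ζ) := by rw [IsSelfAdjoint, ← map_star, hζ.star_eq]
    refine (n2_ex_sub' (isSelfAdjoint_rsmul hTζ _) (isSelfAdjoint_rsmul hζ _)).trans ?_
    rw [← smul_sub, Complex.coe_smul, n2_rsmul, abs_of_pos (by positivity)]
  have k3 : (N : ℝ) * (N * τ.n2 (T (ex (((1 / (N : ℝ) : ℝ) : ℂ) • ζ)) -
      ex (((1 / (N : ℝ) : ℝ) : ℂ) • ζ))) ≤ N * τ.n2 (T ζ - ζ) := by
    refine mul_le_mul_of_nonneg_left ?_ hN'.le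
    calc _ ≤ (N : ℝ) * (1 / N * τ.n2 (T ζ - ζ)) := mul_le_mul_of_nonneg_left k2 hN'.le
      _ = _ := by field_simp
  rw [mul_add] at k1
  linarith

end Crest.Agent.R134
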