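import Crest.Agent.R134.Ext

/-!
# Row 134: shears `u ↦ r u r'` (task R134-Shear)

PLANS.
* `St.eq`: strong induction on the length; inside, prove for `L = L₁ ++ L₂` with `Adm τ L₁`, by
  induction on `L₂` (moving letters from `L₂` to `L₁`).  `L₂ = []`: move `a` to the front
  (traciality), it merges with the first letter, which `Adm` does not constrain: both sides are `0`
  (or `L₁ = []`).  `L₂ = (x, ε) :: L₂'`, `L₁ = L₁' ++ [(y, δ)]`: if `δ = ε` just move; else split
  `x = (x - τ x • 1) + τ x • 1`; the first part is admissible, in the second `u^δ u^ε = 1` and the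
  word gets shorter (`y` merges with the first letter of `L₂'`, or with `a`).
* `St.mul`: `wd (r u r') L` is `wd u L' * s` with `s ∈ {r', star r}`, where the letters of `L'` are
  `(r' or star r) * x * (r or star r')`; between opposite signs this is a unitary conjugate of `x`, so
  centred.  Move `s` to the front.  (`Crest.Agent.R95.Corr` has `conv`, `conv_eq`, `conv_mem` for a similar
  rewriting, feel free to copy.)
* `shear`: `ext_iso` with `G = Submonoid.closure ({(a, a) | a ∈ 𝒜} ∪ {(u, u'), (star u, star u')})`,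
  `u' = r u r'`; every element of `G` is `(wd u L * a, wd u' L * a)` (induction by left
  multiplication with generators); `Gen τ (𝒜 ∪ {u'})` as `u = star r * u' * star r'`
  (`gen_of_subset`).
* `Sys.shear`: `𝒜 = W τ (P ∪ u '' {i}ᶜ)`, `TPF_mono`.
-/

set_option autoImplicit false

namespace Crest.Agent.R134

open Crest.Agent.R95 Filter Topology
open scoped ComplexConjugate

universe u v

variable {A : Type u} [CStarAlgebra A] {τ : Tr A} {𝒜 𝒜' : StarSubalgebra ℂ A} {u u' r r' : A}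

theorem St.mono (h : St τ 𝒜 u) (h' : 𝒜' ≤ 𝒜) : St τ 𝒜' u :=
  fun L hL h1 h2 => h L hL (fun p hp => h' (h1 p hp)) h2

/-- `u^{±1}` -/
def sg (u : A) (ε : Bool) : A := if ε then u else star u

theorem wd_cons' (u : A) (p : A × Bool) (L : List (A × Bool)) :
    wd u (p :: L) = p.1 * sg u p.2 * wd u L := by
  simp [wd, sg]

theorem wd_append' (u : A) (L L' : List (A × Bool)) : wd u (L ++ L') = wd u L * wd u L' := by
  simp [wd]

theorem wd_nil' (u : A) : wd u [] = 1 := rfl

theorem sg_mul_sg (hu : u ∈ unitary A) {δ ε : Bool} (h : δ ≠ ε) : sg u δ * sg u ε = 1 := by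
  cases δ <;> cases ε <;> first | exact absurd rfl h |
    simp [sg, Unitary.star_mul_self_of_mem hu, Unitary.mul_star_self_of_mem hu]

theorem adm_head {x : A} {ε : Bool} {L : List (A × Bool)} (h : Adm τ ((x, ε) :: L)) (y : A) :
    Adm τ ((y, ε) :: L) := by
  cases L with
  | nil => simp [Adm]
  | cons p L =>
    unfold Adm at h ⊢
    rw [List.isChain_cons_cons] at h ⊢
    exact h

theorem adm_concat {L : List (A × Bool)} {p q : A × Bool} (h : Adm τ (L ++ [p]))
    (h' : p.2 ≠ q.2 → τ.φ q.1 = 0) : Adm τ (L ++ [p] ++ [q]) := by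
  unfold Adm at h ⊢
  rw [List.append_assoc, List.singleton_append, List.isChain_append_cons_cons]
  exact ⟨h, h', List.isChain_singleton _⟩

theorem St.zero (h : St τ 𝒜 u) {L : List (A × Bool)} (h0 : L ≠ []) (hL : ∀ p ∈ L, p.1 ∈ 𝒜)
    (hA : Adm τ L) {a : A} (ha : a ∈ 𝒜) : τ.φ (wd u L * a) = 0 := by
  obtain ⟨⟨x, ε⟩, L, rfl⟩ := List.exists_cons_of_ne_nil h0
  have := h ((a * x, ε) :: L) (by simp) (by
    intro p hp
    rcases List.mem_cons.1 hp with rfl | hp
    · exact mul_mem ha (hL (x, ε) (by simp))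
    · exact hL p (by simp [hp])) (adm_head hA _)
  rw [τ.comm, ← this, wd_cons', wd_cons']
  simp only [mul_assoc]

theorem merge {y a : A} (hy : y ∈ 𝒜) (ha : a ∈ 𝒜) {L : List (A × Bool)} (hL : ∀ p ∈ L, p.1 ∈ 𝒜) :
    ∃ (L' : List (A × Bool)) (a' : A), (∀ p ∈ L', p.1 ∈ 𝒜) ∧ a' ∈ 𝒜 ∧ L'.length = L.length ∧
      ∀ u : A, y * (wd u L * a) = wd u L' * a' := by
  cases L with
  | nil => exact ⟨[], y * a, hL, mul_mem hy ha, rfl, fun u => by simp [wd_nil']⟩
  | cons q L =>
    refine ⟨(y * q.1, q.2) :: L, a, fun p hp => ?_, ha, rfl, fun u => ?_⟩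
    · rcases List.mem_cons.1 hp with rfl | hp
      · exact mul_mem hy (hL q (by simp))
      · exact hL p (by simp [hp])
    · rw [wd_cons', wd_cons']
      simp only [mul_assoc]

theorem St.eq (h : St τ 𝒜 u) (h' : St τ 𝒜 u') (hu : u ∈ unitary A) (hu' : u' ∈ unitary A)
    (L : List (A × Bool)) (hL : ∀ p ∈ L, p.1 ∈ 𝒜) {a : A} (ha : a ∈ 𝒜) :
    τ.φ (wd u L * a) = τ.φ (wd u' L * a) := by
  induction hn : L.length using Nat.strong_induction_on generalizing L a with
  | _ n ih =>
    suffices key : ∀ L₂ L₁ : List (A × Bool), (L₁ ++ L₂).length = n →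
        (∀ p ∈ L₁ ++ L₂, p.1 ∈ 𝒜) → Adm τ L₁ →
        τ.φ (wd u (L₁ ++ L₂) * a) = τ.φ (wd u' (L₁ ++ L₂) * a) from
      key L [] hn hL (by simp [Adm])
    intro L₂
    induction L₂ with
    | nil =>
      intro L₁ _ h1 h2
      rw [List.append_nil] at h1 ⊢
      by_cases h0 : L₁ = []
      · rw [h0]; rfl
      · rw [h.zero h0 h1 h2 ha, h'.zero h0 h1 h2 ha]
    | cons q L₂ ih₂ =>
      intro L₁ hl h1 h2
      obtain ⟨x, ε⟩ := q
      rcases L₁.eq_nil_or_concat' with rfl | ⟨L₁, ⟨y, δ⟩, rfl⟩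
      · exact ih₂ [(x, ε)] hl h1 (by simp [Adm])
      by_cases hδ : δ = ε
      · have := ih₂ (L₁ ++ [(y, δ)] ++ [(x, ε)]) (by simpa using hl) (by simpa using h1)
          (adm_concat h2 fun h => absurd hδ h)
        simpa using this
      have hx : x ∈ 𝒜 := h1 (x, ε) (by simp)
      have hy : y ∈ 𝒜 := h1 (y, δ) (by simp)
      have h3 := ih₂ (L₁ ++ [(y, δ)] ++ [(x - τ.φ x • 1, ε)]) (by simpa using hl) (by
          intro p hp
          simp only [List.mem_append, List.mem_singleton] at hp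
          rcases hp with ((hp | rfl) | rfl) | hp
          · exact h1 p (by simp [hp])
          · exact hy
          · exact sub_mem hx (SMulMemClass.smul_mem _ (one_mem _))
          · exact h1 p (by simp [hp]))
        (adm_concat h2 fun _ => by simp [τ.one])
      obtain ⟨L', a', h4, h5, h6, h7⟩ := merge hy ha (L := L₂) fun p hp => h1 p (by simp [hp])
      have h8 := ih (L₁ ++ L').length (by simp at hl ⊢; omega) (L₁ ++ L') (by
        intro p hp
        rcases List.mem_append.1 hp with hp | hp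
        · exact h1 p (by simp [hp])
        · exact h4 p hp) h5 rfl
      have e : ∀ u : A, u ∈ unitary A → wd u (L₁ ++ [(y, δ)] ++ (x, ε) :: L₂) * a =
          wd u (L₁ ++ [(y, δ)] ++ [(x - τ.φ x • 1, ε)] ++ L₂) * a +
            τ.φ x • (wd u (L₁ ++ L') * a') := by
        intro u hu
        simp only [wd_append', wd_cons', wd_nil', mul_one, mul_assoc]
        rw [← h7, sub_mul, smul_mul_assoc, one_mul, mul_sub, mul_smul_comm, ← mul_assoc (sg u δ) (sg u ε),
          sg_mul_sg hu hδ, one_mul, mul_sub, mul_sub, mul_smul_comm, mul_smul_comm, sub_add_cancel]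
      rw [e u hu, e u' hu', map_add, map_add, map_smul, map_smul, h3, h8]

/-- rewriting a word in `r u r'` as a word in `u` -/
def cv (lf rt : Bool → A) : A → List (A × Bool) → List (A × Bool)
  | _, [] => []
  | z, p :: L => (z * p.1 * lf p.2, p.2) :: cv lf rt (rt p.2) L

/-- the last coefficient -/
def ls (rt : Bool → A) : A → List (A × Bool) → A
  | z, [] => z
  | _, p :: L => ls rt (rt p.2) L

theorem cv_eq {lf rt : Bool → A} (h : ∀ ε, sg u' ε = lf ε * sg u ε * rt ε) (L : List (A × Bool))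
    (z : A) : z * wd u' L = wd u (cv lf rt z L) * ls rt z L := by
  induction L generalizing z with
  | nil => simp [wd_nil', cv, ls]
  | cons p L ih =>
    rw [wd_cons', h, cv, ls, wd_cons']
    simp only [mul_assoc]
    rw [ih]

theorem cv_mem {lf rt : Bool → A} (hl : ∀ ε, lf ε ∈ 𝒜) (hr : ∀ ε, rt ε ∈ 𝒜)
    {L : List (A × Bool)} (hL : ∀ p ∈ L, p.1 ∈ 𝒜) {z : A} (hz : z ∈ 𝒜) :
    (∀ p ∈ cv lf rt z L, p.1 ∈ 𝒜) ∧ ls rt z L ∈ 𝒜 := by
  induction L generalizing z with
  | nil => simpa [cv, ls] using hz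
  | cons p L ih =>
    have := ih (fun q hq => hL q (by simp [hq])) (hr p.2)
    refine ⟨fun q hq => ?_, this.2⟩
    rcases List.mem_cons.1 hq with rfl | hq
    exacts [mul_mem (mul_mem hz (hL p (by simp))) (hl _), this.1 q hq]

theorem cv_adm {lf rt : Bool → A}
    (h : ∀ δ ε, δ ≠ ε → ∀ x, τ.φ x = 0 → τ.φ (rt δ * x * lf ε) = 0) {L : List (A × Bool)}
    (hL : Adm τ L) (z : A) : Adm τ (cv lf rt z L) := by
  induction L generalizing z with
  | nil => simp [cv, Adm]
  | cons p L ih =>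
    cases L with
    | nil => simp [cv, Adm]
    | cons p' L =>
      unfold Adm at hL ih ⊢
      rw [List.isChain_cons_cons] at hL
      have := ih hL.2 (rt p.2)
      rw [cv] at this
      rw [cv, cv, List.isChain_cons_cons]
      exact ⟨fun h' => h _ _ h' _ (hL.1 h'), this⟩

theorem St.mul (h : St τ 𝒜 u) (hr : r ∈ 𝒜) (hr' : r' ∈ 𝒜) (ur : r ∈ unitary A)
    (ur' : r' ∈ unitary A) : St τ 𝒜 (r * u * r') := by
  intro L h0 hL hA
  let lf : Bool → A := fun ε => if ε then r else star r'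
  let rt : Bool → A := fun ε => if ε then r' else star r
  have hm := cv_mem (lf := lf) (rt := rt) (by rintro (_ | _); exacts [star_mem hr', hr])
    (by rintro (_ | _); exacts [star_mem hr, hr']) hL (one_mem 𝒜)
  rw [← one_mul (wd _ L), cv_eq (u := u) (lf := lf) (rt := rt) (by
    rintro (_ | _) <;> simp [sg, lf, rt, mul_assoc])]
  refine h.zero ?_ hm.1 (cv_adm ?_ hA _) hm.2
  · obtain ⟨p, L, rfl⟩ := List.exists_cons_of_ne_nil h0
    simp [cv]
  · rintro (_ | _) (_ | _) hne x hx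
    · exact absurd rfl hne
    · show τ.φ (star r * x * r) = 0
      rwa [τ.comm, ← mul_assoc, Unitary.mul_star_self_of_mem ur, one_mul]
    · show τ.φ (r' * x * star r') = 0
      rwa [τ.comm, ← mul_assoc, Unitary.star_mul_self_of_mem ur', one_mul]
    · exact absurd rfl hne

theorem shear (hτ : VN τ) (hu : u ∈ unitary A) (h : St τ 𝒜 u) (hg : Gen τ ((𝒜 : Set A) ∪ {u}))
    (hr : r ∈ 𝒜) (hr' : r' ∈ 𝒜) (ur : r ∈ unitary A) (ur' : r' ∈ unitary A) :
    ∃ θ ∈ TPF τ (𝒜 : Set A), θ u = r * u * r' := by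
  have h' := h.mul hr hr' ur ur'
  have hu' : r * u * r' ∈ unitary A := mul_mem (mul_mem ur hu) ur'
  have hg' : Gen τ ((𝒜 : Set A) ∪ {r * u * r'}) := by
    refine gen_of_subset hg ?_
    rintro x (hx | rfl)
    · exact mem_W (Or.inl hx)
    · have e : x = star r * (r * x * r') * star r' := by
        simp only [mul_assoc]
        rw [Unitary.mul_star_self_of_mem ur', mul_one, ← mul_assoc,
          Unitary.star_mul_self_of_mem ur, one_mul]
      have := mul_mem (mul_mem (mem_W (τ := τ) (S := (𝒜 : Set A) ∪ {r * x * r'})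
        (Or.inl (star_mem hr))) (mem_W (Or.inr rfl))) (mem_W (Or.inl (star_mem hr')))
      rwa [← e] at this
  generalize r * u * r' = u' at h' hu' hg' ⊢
  let S : Set (A × A) := {g | (∃ a ∈ 𝒜, g = (a, a)) ∨ ∃ ε, g = (sg u ε, sg u' ε)}
  have h1 : ∀ a ∈ 𝒜, (a, a) ∈ Submonoid.closure S := fun a ha =>
    Submonoid.subset_closure (Or.inl ⟨a, ha, rfl⟩)
  have h2 : (u, u') ∈ Submonoid.closure S := Submonoid.subset_closure (Or.inr ⟨true, rfl⟩)
  obtain ⟨θ, hθ, hθ'⟩ := ext_iso hτ hτ (Submonoid.closure S) (by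
      intro g hg
      induction hg using Submonoid.closure_induction with
      | mem g hg =>
        refine Submonoid.subset_closure ?_
        rcases hg with ⟨a, ha, rfl⟩ | ⟨ε, rfl⟩
        · exact Or.inl ⟨star a, star_mem ha, rfl⟩
        · exact Or.inr ⟨!ε, by cases ε <;> simp [sg, Prod.ext_iff]⟩
      | one => rw [star_one]; exact one_mem _
      | mul x y _ _ hx hy => rw [star_mul]; exact mul_mem hy hx)
    (by
      intro g hg
      suffices ∃ (L : List (A × Bool)) (a : A), (∀ p ∈ L, p.1 ∈ 𝒜) ∧ a ∈ 𝒜 ∧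
          g.1 = wd u L * a ∧ g.2 = wd u' L * a by
        obtain ⟨L, a, hL, ha, e1, e2⟩ := this
        rw [e1, e2, h.eq h' hu hu' L hL ha]
      induction hg using Submonoid.closure_induction_left with
      | one => exact ⟨[], 1, by simp, one_mem _, by simp [wd_nil'], by simp [wd_nil']⟩
      | mul_left x hx y _ hy =>
        obtain ⟨L, a, hL, ha, e1, e2⟩ := hy
        rcases hx with ⟨b, hb, rfl⟩ | ⟨ε, rfl⟩
        · obtain ⟨L', a', h4, h5, -, h7⟩ := merge hb ha hL
          exact ⟨L', a', h4, h5, by rw [← h7, ← e1]; rfl, by rw [← h7, ← e2]; rfl⟩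
        · refine ⟨(1, ε) :: L, a, fun p hp => ?_, ha, ?_, ?_⟩
          · rcases List.mem_cons.1 hp with rfl | hp
            exacts [one_mem _, hL p hp]
          · rw [wd_cons', one_mul, mul_assoc, ← e1]; rfl
          · rw [wd_cons', one_mul, mul_assoc, ← e2]; rfl)
    (gen_of_subset hg (by
      rintro x (hx | rfl)
      · exact mem_W ⟨_, h1 x hx, rfl⟩
      · exact mem_W ⟨_, h2, rfl⟩))
    (gen_of_subset hg' (by
      rintro x (hx | rfl)
      · exact mem_W ⟨_, h1 x hx, rfl⟩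
      · exact mem_W ⟨_, h2, rfl⟩))
  exact ⟨θ, ⟨hθ, fun a ha => hθ' _ (h1 a ha)⟩, hθ' _ h2⟩

theorem Sys.shear (hτ : VN τ) {I : Type*} {P : Set A} {u : I → A} (h : Sys τ P u) (i : I)
    (hr : r ∈ W τ (P ∪ u '' {i}ᶜ)) (hr' : r' ∈ W τ (P ∪ u '' {i}ᶜ)) (ur : r ∈ unitary A)
    (ur' : r' ∈ unitary A) : ∃ θ ∈ TPF τ (P ∪ u '' {i}ᶜ), θ (u i) = r * u i * r' := by
  obtain ⟨θ, hθ, h'⟩ := R134.shear hτ (h.uni i) (h.st i) (gen_of_subset h.gen (by
    rintro x (hx | ⟨j, rfl⟩)
    · exact mem_W (Or.inl (mem_W (Or.inl hx)))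
    · by_cases hj : j = i
      · exact mem_W (Or.inr (by rw [hj]; rfl))
      · exact mem_W (Or.inl (mem_W (Or.inr ⟨j, hj, rfl⟩))))) hr hr' ur ur'
  exact ⟨θ, TPF_mono (subset_W _) hθ, h'⟩

end Crest.Agent.R134
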