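import Crest.Agent.R134.AbsCore
import Crest.Agent.R134.Shear

/-!
# Row 134: absorption (task R134-Absorb)

PLANS.
* `n2_sum_orth`: expand (`Tr.n2_add_sq`, induction on the finset).
* `absorb`: `L = m R`, letters `b' i = u (b ⟨i % m, _⟩)`, `d i = u c ^ (2 ^ i)`, `β i = i % m`,
  `p i = pre b' d i ∈ adjoin (u '' (range b ∪ {c}))`, `w = p L`.
  - `κ j` = `Sys.shear` at `z` with `(star (p j), p j)`; `κ j ζ = star (p j) * ζ * p j` by `tpf_conj_W`;
    `μ j η` = `Sys.shear` at `b (β j)` with `(ex (η • ζ), 1)` (`ex_mem`, `W_mono`); it fixes `ζ`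
    (`tpf_fix_W`, `TPF_mono`).  `σ j η = κ j * μ j η * (κ j)⁻¹` satisfies the hypotheses of `abs_core`
    (`aut_ex`) with `S = P ∪ u '' (range b ∪ {z})ᶜ`.
  - gauge: for `‖λ‖ = 1`, `Sys.shear` at `c` with `(λ • 1, 1)` maps `p i` to `λ ^ (2 ^ i - 1) • p i`, so
    `τ (p i * star (p j) * p k * star (p l)) = 0` unless `2^i + 2^k = 2^j + 2^l`, which forces
    `(i = j ∧ k = l) ∨ (i = l ∧ k = j)` (`sidon`).  With `Log.orth` the elements `g ζ g⋆`,
    `g = p l * star (p j)`, `l ≠ j` are pairwise orthogonal (`τ ((g ζ g⋆)⋆ g' ζ g'⋆) = τ (h⋆ ζ h ζ)`,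
    `h = star g * g'`), as are the `star (p j) ζ p j`.  There are at most `L R` pairs `(l, j)` with
    `l % m = j % m` (inject by `(l / m, j)`): `B₁ = π √(L R)`, `B₂ = π √L`, `B₁ / L = π / √m`,
    `(1 + 2π) π < 24`.
  - finally `θ = ρ * Θ` with `ρ` = `Sys.shear` at `z` with `(1, star w)`: `ρ (u z * w) = u z`.
* `absorb_seq`: induction on `Z`; for a new `z'` take `θ * σ` with `σ` from `absorb` for a `δ'` so small
  (`tpf_cont` with `S = {u c}` and the family `u ∘ b`; finitely many conditions) that the strict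
  inequalities for `θ` persist; `θ` fixes `u z'`.
-/

set_option autoImplicit false

namespace Crest.Agent.R134

open Crest.Agent.R95 Filter Topology
open scoped ComplexConjugate

universe u v

variable {A : Type u} [CStarAlgebra A] {τ : Tr A} {I : Type*} {P : Set A} {u : I → A}

theorem sidon {i j k l : ℕ} (h : 2 ^ i + 2 ^ k = 2 ^ j + 2 ^ l) :
    (i = j ∧ k = l) ∨ (i = l ∧ k = j) := by
  have key : ∀ {i j k l : ℕ}, 2 ^ i + 2 ^ k = 2 ^ j + 2 ^ l → k ≤ i → l ≤ j → i = j ∧ k = l := by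
    intro i j k l h hk hl
    have aux : ∀ {i j k l : ℕ}, 2 ^ i + 2 ^ k = 2 ^ j + 2 ^ l → k ≤ i → ¬ i < j := by
      intro i j k l h hk hij
      have h1 : 2 ^ k ≤ 2 ^ i := Nat.pow_le_pow_right (by norm_num) hk
      have h2 : 2 ^ (i + 1) ≤ 2 ^ j := Nat.pow_le_pow_right (by norm_num) hij
      have h3 : 0 < 2 ^ l := by positivity
      rw [pow_succ] at h2
      omega
    have hij : i = j := le_antisymm (not_lt.1 (aux h.symm hl)) (not_lt.1 (aux h hk))
    subst hij
    exact ⟨rfl, Nat.pow_right_injective (le_refl 2) (by simpa using h)⟩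
  rcases le_total k i with h1 | h1 <;> rcases le_total l j with h2 | h2
  · exact Or.inl (key h h1 h2)
  · exact Or.inr (key (by omega) h1 h2)
  · exact Or.inr (key (i := k) (k := i) (by omega) h1 h2).symm
  · exact Or.inl (key (i := k) (k := i) (j := l) (l := j) (by omega) h1 h2).symm

theorem n2_sum_orth {ι : Type*} (T : Finset ι) (x : ι → A) {M : ℝ} (hM : 0 ≤ M)
    (h : ∀ i ∈ T, τ.n2 (x i) ≤ M)
    (ho : ∀ i ∈ T, ∀ j ∈ T, i ≠ j → τ.φ (star (x i) * x j) = 0) :
    τ.n2 (∑ i ∈ T, x i) ≤ M * √(T.card : ℝ) := by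
  classical
  have key : τ.n2 (∑ i ∈ T, x i) ^ 2 ≤ M ^ 2 * T.card := by
    induction T using Finset.induction_on with
    | empty => simp [τ.n2_zero]
    | insert a T ha ih =>
      rw [Finset.sum_insert ha, τ.n2_add_sq, Finset.card_insert_of_notMem ha]
      have h1 := ih (fun i hi => h i (Finset.mem_insert_of_mem hi))
        (fun i hi j hj => ho i (Finset.mem_insert_of_mem hi) j (Finset.mem_insert_of_mem hj))
      have h2 : τ.φ (star (x a) * ∑ i ∈ T, x i) = 0 := by
        rw [Finset.mul_sum, map_sum]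
        exact Finset.sum_eq_zero fun j hj => ho a (Finset.mem_insert_self _ _) j
          (Finset.mem_insert_of_mem hj) fun e => ha (e ▸ hj)
      have h3 : τ.n2 (x a) ^ 2 ≤ M ^ 2 :=
        pow_le_pow_left₀ (τ.n2_nonneg _) (h a (Finset.mem_insert_self _ _)) 2
      rw [h2]
      push_cast
      simp only [Complex.zero_re, mul_zero, add_zero]
      linarith
  refine (Real.le_sqrt (τ.n2_nonneg _) (by positivity)).2 key |>.trans (le_of_eq ?_)
  rw [Real.sqrt_mul (by positivity), Real.sqrt_sq hM]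

theorem gauge_zero {t : ℂ} {a b : ℕ} (hab : a ≠ b)
    (h : ∀ l : ℂ, ‖l‖ = 1 → t = l ^ a * conj l ^ b * t) : t = 0 := by
  set s : ℝ := Real.pi / ((a : ℝ) - b) with hs
  have hab' : ((a : ℝ) - b) ≠ 0 := sub_ne_zero.2 (by exact_mod_cast hab)
  have h1 := h (Complex.exp (s * Complex.I)) (Complex.norm_exp_ofReal_mul_I s)
  have h2 : Complex.exp (s * Complex.I) ^ a * conj (Complex.exp (s * Complex.I)) ^ b = -1 := by
    rw [← Complex.exp_conj, ← Complex.exp_nat_mul, ← Complex.exp_nat_mul, ← Complex.exp_add,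
      ← Complex.exp_pi_mul_I]
    congr 1
    have : (s : ℂ) * ((a : ℂ) - b) = Real.pi := by
      have : s * ((a : ℝ) - b) = Real.pi := by rw [hs]; field_simp
      exact_mod_cast this
    rw [← this]
    simp only [map_mul, Complex.conj_ofReal, Complex.conj_I]
    ring
  rw [h2] at h1
  linear_combination h1 / 2

theorem smul_one_unitary {l : ℂ} (hl : ‖l‖ = 1) : l • (1 : A) ∈ unitary A := by
  have h1 : conj l * l = 1 := by
    rw [mul_comm, Complex.mul_conj, Complex.normSq_eq_norm_sq, hl]; simp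
  refine ⟨?_, ?_⟩
  · simp [smul_smul, h1, mul_comm l]
  · simp [smul_smul, h1]

theorem conj_orth {𝒜 : StarSubalgebra ℂ A} {z ζ g g' : A} (hζ : Log τ 𝒜 z ζ) (hg : star g * g' ∈ 𝒜)
    (h0 : τ.φ (star g * g') = 0) : τ.φ (star (g * ζ * star g) * (g' * ζ * star g')) = 0 := by
  have h := hζ.orth _ hg h0
  have e1 : star (g * ζ * star g) * (g' * ζ * star g') = (g * ζ * (star g * g') * ζ) * star g' := by
    simp only [star_mul, star_star, hζ.sa.star_eq, mul_assoc]
  have e2 : star g' * (g * ζ * (star g * g') * ζ) = star (star g * g') * ζ * (star g * g') * ζ := by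
    simp only [star_mul, star_star, mul_assoc]
  rw [e1, τ.comm, e2, h]

theorem n2_conj_le {𝒜 : StarSubalgebra ℂ A} {z ζ g : A} (hζ : Log τ 𝒜 z ζ) (hg : g ∈ unitary A) :
    τ.n2 (g * ζ * star g) ≤ Real.pi := by
  rw [τ.n2_mul_unitary (Unitary.star_mem hg), τ.n2_unitary_mul hg]
  exact (τ.n2_le_norm _).trans hζ.norm_le

theorem absorb (hτ : VN τ) (h : Sys τ P u) {m : ℕ} (hm : 0 < m) {b : Fin m → I}
    (hb : Function.Injective b) {c z : I} (hc : ∀ β, b β ≠ c) (hz : ∀ β, b β ≠ z) (hcz : c ≠ z)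
    {ζ : A} (hζ : Log τ (W τ (P ∪ u '' {z}ᶜ)) (u z) ζ) {δ : ℝ} (hδ : 0 < δ) :
    ∃ θ ∈ TPF τ (P ∪ u '' (Set.range b ∪ {z})ᶜ), (∀ β, τ.n2 (θ (u (b β)) - u (b β)) < δ) ∧
      ∃ w ∈ StarAlgebra.adjoin ℂ (u '' (Set.range b ∪ {c})), w ∈ unitary A ∧
        τ.n2 (θ w - u z) < 25 / √(m : ℝ) := by
  classical
  set f : ℕ → Fin m := fun i => ⟨i % m, Nat.mod_lt _ hm⟩ with hf
  set b' : ℕ → A := fun i => u (b (f i)) with hb'
  set d : ℕ → A := fun i => u c ^ (2 ^ i) with hd
  have ub : ∀ i, b' i ∈ unitary A := fun i => h.uni _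
  have ud : ∀ i, d i ∈ unitary A := fun i => pow_mem (h.uni c) _
  have up : ∀ i, pre b' d i ∈ unitary A := pre_unitary ub ud
  set N := StarAlgebra.adjoin ℂ (u '' (Set.range b ∪ {c})) with hN
  have pN : ∀ i, pre b' d i ∈ N := by
    intro i
    induction i with
    | zero => exact one_mem _
    | succ i ih =>
      refine mul_mem (mul_mem ih ?_) (pow_mem ?_ _)
      · exact StarAlgebra.subset_adjoin ℂ _ ⟨_, Or.inl ⟨_, rfl⟩, rfl⟩
      · exact StarAlgebra.subset_adjoin ℂ _ ⟨_, Or.inr rfl, rfl⟩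
  have NW : N ≤ W τ (P ∪ u '' {z}ᶜ) := by
    refine (adjoin_le_W _).trans (W_mono ?_)
    rintro _ ⟨i, hi, rfl⟩
    refine Or.inr ⟨i, ?_, rfl⟩
    rcases hi with ⟨β, rfl⟩ | rfl
    · exact hz β
    · exact hcz
  set S := P ∪ u '' (Set.range b ∪ {z})ᶜ with hS
  have Sz : S ⊆ P ∪ u '' {z}ᶜ :=
    Set.union_subset_union_right _ (Set.image_mono (Set.compl_subset_compl.2 Set.subset_union_right))
  have Sb : ∀ β, S ⊆ P ∪ u '' {b β}ᶜ := fun β =>
    Set.union_subset_union_right _ (Set.image_mono (Set.compl_subset_compl.2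
      (Set.singleton_subset_iff.2 (Or.inl ⟨β, rfl⟩))))
  -- the shears
  have hκ : ∀ j, ∃ θ ∈ TPF τ (P ∪ u '' {z}ᶜ), θ (u z) = star (pre b' d j) * u z * pre b' d j :=
    fun j => h.shear hτ z (star_mem (NW (pN j))) (NW (pN j)) (Unitary.star_mem (up j)) (up j)
  choose κ κm κz using hκ
  have κζ : ∀ j, κ j ζ = star (pre b' d j) * ζ * pre b' d j := fun j =>
    tpf_conj_W hτ.faithful (κm j) (up j) (T := {u z}) (by rintro _ rfl; exact κz j) hζ.mem
  have zb : ∀ β, ({u z} : Set A) ⊆ P ∪ u '' {b β}ᶜ := fun β => by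
    rintro _ rfl
    exact Or.inr ⟨z, (hz β).symm, rfl⟩
  have hμ : ∀ (j : ℕ) (η : ℝ), ∃ θ ∈ TPF τ (P ∪ u '' {b (f j)}ᶜ),
      θ (u (b (f j))) = ex ((η : ℂ) • ζ) * u (b (f j)) * 1 := fun j η =>
    h.shear hτ _ (ex_mem (isClosed_W _) (SMulMemClass.smul_mem _ (W_mono (zb _) hζ.mem))) (one_mem _)
      (ex_unitary (isSelfAdjoint_rsmul hζ.sa η)) (one_mem _)
  choose μ μm μb using hμ
  have μζ : ∀ j η, μ j η ζ = ζ := fun j η =>
    tpf_fix_W hτ.faithful (TPF_mono (zb _) (μm j η)) hζ.mem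
  have κb : ∀ j β, κ j (u (b β)) = u (b β) := fun j β => (κm j).2 _ (Or.inr ⟨_, hz β, rfl⟩)
  have κb' : ∀ j β, (κ j)⁻¹ (u (b β)) = u (b β) := fun j β =>
    (inv_mem (κm j)).2 _ (Or.inr ⟨_, hz β, rfl⟩)
  have κc : ∀ j, κ j (u c) = u c := fun j => (κm j).2 _ (Or.inr ⟨_, hcz, rfl⟩)
  have κc' : ∀ j, (κ j)⁻¹ (u c) = u c := fun j => (inv_mem (κm j)).2 _ (Or.inr ⟨_, hcz, rfl⟩)
  have μc : ∀ j η, μ j η (u c) = u c := fun j η => (μm j η).2 _ (Or.inr ⟨_, (hc _).symm, rfl⟩)
  -- the gauge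
  have gauge : ∀ i j k l, 2 ^ i + 2 ^ k ≠ 2 ^ j + 2 ^ l →
      τ.φ (pre b' d i * star (pre b' d j) * pre b' d k * star (pre b' d l)) = 0 := by
    intro i j k l hne
    have p1 : ∀ n, 1 ≤ 2 ^ n := fun n => Nat.one_le_two_pow
    refine gauge_zero (a := (2 ^ i - 1) + (2 ^ k - 1)) (b := (2 ^ j - 1) + (2 ^ l - 1))
      (by have := p1 i; have := p1 j; have := p1 k; have := p1 l; omega) fun lam hl => ?_
    obtain ⟨γ, γm, γc⟩ := h.shear hτ c (SMulMemClass.smul_mem lam (one_mem _)) (one_mem _)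
      (smul_one_unitary hl) (one_mem _)
    have γp : ∀ n, γ (pre b' d n) = lam ^ (2 ^ n - 1) • pre b' d n := by
      intro n
      induction n with
      | zero => simp [pre]
      | succ n ih =>
        have e1 : γ (b' n) = b' n := γm.2 _ (Or.inr ⟨_, hc _, rfl⟩)
        have e2 : γ (d n) = lam ^ (2 ^ n) • d n := by
          simp only [hd]
          rw [map_pow, γc, mul_one, smul_mul_assoc, one_mul, smul_pow]
        have e3 : 2 ^ (n + 1) - 1 = (2 ^ n - 1) + 2 ^ n := by have := p1 n; rw [pow_succ]; omega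
        rw [pre, map_mul, map_mul, ih, e1, e2, e3, pow_add]
        simp only [smul_mul_assoc, mul_smul_comm, smul_smul]
        rw [mul_comm (lam ^ 2 ^ n)]
    conv_lhs => rw [← γm.1]
    simp only [map_mul, map_star, γp, star_smul, smul_mul_assoc, mul_smul_comm, smul_smul, map_smul,
      smul_eq_mul, star_pow, RCLike.star_def]
    ring
  -- parameters
  obtain ⟨R, hR⟩ := exists_nat_gt ((2 * Real.pi / δ) ^ 2)
  have hR0 : 0 < R := by
    have : (0 : ℝ) < R := lt_of_le_of_lt (by positivity) hR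
    exact_mod_cast this
  have hm' : (0 : ℝ) < m := by exact_mod_cast hm
  have hR' : (0 : ℝ) < R := by exact_mod_cast hR0
  have hsm : 0 < √(m : ℝ) := Real.sqrt_pos.2 hm'
  obtain ⟨Θ, Θm, Θw, Θb⟩ := abs_core (τ := τ) (S := S) (fun i => i % m) ub ud hζ.sa hζ.norm_le
    (L := m * R) (Nat.mul_pos hm hR0) (fun j η => κ j * μ j η * (κ j)⁻¹)
    (fun j η => mul_mem (mul_mem (TPF_mono Sz (κm j)) (TPF_mono (Sb _) (μm j η)))
      (inv_mem (TPF_mono Sz (κm j))))
    (fun j η i => by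
      simp only [StarAlgEquiv.mul_apply, hb']
      rw [κb']
      split_ifs with hij
      · have : f i = f j := Fin.ext hij
        rw [this, μb, mul_one, map_mul, aut_ex, map_smul, κζ, κb]
      · have : b (f i) ≠ b (f j) := fun e => hij (congrArg Fin.val (hb e))
        rw [(μm j η).2 _ (Or.inr ⟨_, this, rfl⟩), κb])
    (fun j η i => by
      simp only [StarAlgEquiv.mul_apply, hd, map_pow]
      rw [κc', μc, κc])
    (fun j η => by
      simp only [StarAlgEquiv.mul_apply]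
      rw [← κζ, StarAlgEquiv.aut_inv, StarAlgEquiv.symm_apply_apply, μζ])
    (B₁ := Real.pi * √((m * R : ℕ) * R : ℝ)) (B₂ := Real.pi * √((m * R : ℕ) : ℝ))
    (fun T hT => by
      have e : ∀ q : ℕ × ℕ, pre b' d q.1 * (star (pre b' d q.2) * ζ * pre b' d q.2) * star (pre b' d q.1) =
          (pre b' d q.1 * star (pre b' d q.2)) * ζ * star (pre b' d q.1 * star (pre b' d q.2)) := by
        intro q; simp only [star_mul, star_star, mul_assoc]
      simp only [e]
      refine (n2_sum_orth T _ Real.pi_pos.le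
        (fun q _ => n2_conj_le hζ (mul_mem (up _) (Unitary.star_mem (up _)))) ?_).trans ?_
      · intro q hq q' hq' hne
        have e2 : star (pre b' d q.1 * star (pre b' d q.2)) * (pre b' d q'.1 * star (pre b' d q'.2)) =
            pre b' d q.2 * star (pre b' d q.1) * pre b' d q'.1 * star (pre b' d q'.2) := by
          simp only [star_mul, star_star, mul_assoc]
        refine conj_orth hζ ?_ ?_
        · rw [e2]
          exact NW (mul_mem (mul_mem (mul_mem (pN _) (star_mem (pN _))) (pN _)) (star_mem (pN _)))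
        · rw [e2]
          refine gauge _ _ _ _ fun e3 => ?_
          rcases sidon e3 with ⟨h1, -⟩ | ⟨h1, h2⟩
          · exact (hT q hq).2.2.1 h1.symm
          · exact hne (Prod.ext h2.symm h1)
      · refine mul_le_mul_of_nonneg_left (Real.sqrt_le_sqrt ?_) Real.pi_pos.le
        have : T.card ≤ (Finset.range R ×ˢ Finset.range (m * R)).card := by
          refine Finset.card_le_card_of_injOn (fun q => (q.1 / m, q.2)) (fun q hq => ?_) ?_
          · obtain ⟨h1, h2, -, -⟩ := hT q hq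
            simp only [Finset.coe_product, Finset.coe_range, Set.mem_prod, Set.mem_Iio]
            exact ⟨Nat.div_lt_of_lt_mul h1, h2⟩
          · intro q hq q' hq' e3
            simp only [Prod.mk.injEq] at e3
            have h1 := (hT q hq).2.2.2
            have h2 := (hT q' hq').2.2.2
            refine Prod.ext ?_ e3.2
            rw [← Nat.div_add_mod q.1 m, ← Nat.div_add_mod q'.1 m, e3.1]
            rw [h1, h2, e3.2]
        rw [Finset.card_product, Finset.card_range, Finset.card_range, mul_comm] at this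
        exact_mod_cast this)
    (fun T hT => by
      have e : ∀ j : ℕ, star (pre b' d j) * ζ * pre b' d j =
          star (pre b' d j) * ζ * star (star (pre b' d j)) := by
        intro j; rw [star_star]
      simp only [e]
      refine (n2_sum_orth T _ Real.pi_pos.le
        (fun q _ => n2_conj_le hζ (Unitary.star_mem (up _))) ?_).trans ?_
      · intro j _ j' _ hne
        refine conj_orth hζ ?_ ?_
        · rw [star_star]
          exact NW (mul_mem (pN _) (star_mem (pN _)))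
        · have := gauge j j' 0 0 fun e3 => hne (Nat.pow_right_injective (le_refl 2) (by simpa using e3))
          simpa [pre] using this
      · refine mul_le_mul_of_nonneg_left (Real.sqrt_le_sqrt ?_) Real.pi_pos.le
        have : T.card ≤ (Finset.range (m * R)).card :=
          Finset.card_le_card fun j hj => Finset.mem_range.2 (hT j hj)
        rw [Finset.card_range] at this
        exact_mod_cast this)
    (ε := min (δ / 2) (1 / √(m : ℝ))) (lt_min (half_pos hδ) (by positivity))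
  set w := pre b' d (m * R) with hw
  obtain ⟨ρ, ρm, ρz⟩ := h.shear hτ z (one_mem _) (star_mem (NW (pN (m * R)))) (one_mem _)
    (Unitary.star_mem (up (m * R)))
  have ρw : ρ w = w := tpf_fix_W hτ.faithful ρm (NW (pN _))
  refine ⟨ρ * Θ, mul_mem (TPF_mono Sz ρm) Θm, fun β => ?_, w, pN _, up _, ?_⟩
  · have h1 := Θb β (lt_of_lt_of_le β.2 (Nat.le_mul_of_pos_right _ hR0))
    have h2 : f β = β := Fin.ext (Nat.mod_eq_of_lt β.2)
    simp only [hb', h2] at h1
    have h3 : ρ (u (b β)) = u (b β) := ρm.2 _ (Or.inr ⟨_, hz β, rfl⟩)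
    rw [StarAlgEquiv.mul_apply]
    conv_lhs => rw [← h3, tpf_n2_sub ρm, h3]
    refine h1.trans_lt ?_
    have h4 : Real.pi * √((m * R : ℕ) : ℝ) / (m * R : ℕ) < δ / 2 := by
      have hL : (0 : ℝ) < (m * R : ℕ) := by positivity
      have hs : 0 < √((m * R : ℕ) : ℝ) := Real.sqrt_pos.2 hL
      have h5 : 2 * Real.pi / δ < √((m * R : ℕ) : ℝ) := by
        refine Real.lt_sqrt_of_sq_lt (hR.trans_le ?_)
        exact_mod_cast Nat.le_mul_of_pos_left _ hm
      rw [div_lt_iff₀ hδ] at h5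
      rw [div_lt_iff₀ hL]
      have h6 := Real.mul_self_sqrt hL.le
      nlinarith
    linarith [min_le_left (δ / 2) (1 / √(m : ℝ))]
  · have h3 : ρ (u z * w) = u z := by
      rw [map_mul, ρz, ρw, one_mul, mul_assoc, Unitary.star_mul_self_of_mem (up _), mul_one]
    rw [StarAlgEquiv.mul_apply]
    conv_lhs => rw [← h3, tpf_n2_sub ρm]
    rw [hζ.exp_eq] at Θw
    refine Θw.trans_lt ?_
    have h4 : √((m * R : ℕ) * R : ℝ) = √(m : ℝ) * R := by
      push_cast
      rw [mul_assoc, Real.sqrt_mul hm'.le, Real.sqrt_mul_self hR'.le]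
    have h5 : (1 + 2 * Real.pi) * (Real.pi * √((m * R : ℕ) * R : ℝ)) / (m * R : ℕ) =
        (1 + 2 * Real.pi) * Real.pi / √(m : ℝ) := by
      rw [h4]
      push_cast
      have h6 := Real.mul_self_sqrt hm'.le
      field_simp
      nlinarith
    have h7 : (1 + 2 * Real.pi) * Real.pi < 24 := by
      have := Real.pi_lt_d2
      have := Real.pi_pos
      nlinarith
    have h8 : (1 + 2 * Real.pi) * Real.pi / √(m : ℝ) < 24 / √(m : ℝ) :=
      div_lt_div_of_pos_right h7 hsm
    have h9 : 25 / √(m : ℝ) = 24 / √(m : ℝ) + 1 / √(m : ℝ) := by ring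
    rw [h5]
    linarith [min_le_right (δ / 2) (1 / √(m : ℝ))]

theorem absorb_seq (hτ : VN τ) (h : Sys τ P u) {m : ℕ} (hm : 0 < m) {b : Fin m → I}
    (hb : Function.Injective b) {c : I} (hc : ∀ β, b β ≠ c) (Z : Finset I) (hZb : ∀ β, b β ∉ Z)
    (hZc : c ∉ Z) (hζ : ∀ z ∈ Z, ∃ ζ, Log τ (W τ (P ∪ u '' {z}ᶜ)) (u z) ζ) {δ : ℝ} (hδ : 0 < δ) :
    ∃ θ ∈ TPF τ (P ∪ u '' (Set.range b ∪ Z)ᶜ), (∀ β, τ.n2 (θ (u (b β)) - u (b β)) < δ) ∧
      ∀ z ∈ Z, ∃ w ∈ StarAlgebra.adjoin ℂ (u '' (Set.range b ∪ {c})), w ∈ unitary A ∧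
        τ.n2 (θ w - u z) < 25 / √(m : ℝ) := by
  classical
  induction Z using Finset.induction_on generalizing δ with
  | empty =>
    refine ⟨1, one_mem _, fun β => ?_, by simp⟩
    simpa [τ.n2_zero] using hδ
  | insert z' Z hz' ih =>
    obtain ⟨θ, θm, θb, θw⟩ := ih (fun β hβ => hZb β (Finset.mem_insert_of_mem hβ))
      (fun hc' => hZc (Finset.mem_insert_of_mem hc'))
      (fun z hz => hζ z (Finset.mem_insert_of_mem hz)) (half_pos hδ)
    choose! w wN wu ww using θw
    have hev : ∀ᶠ δ' in 𝓝[>] (0 : ℝ), ∀ z ∈ Z, ∀ σ ∈ TPF τ {u c},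
        (∀ β, τ.n2 (σ (u (b β)) - u (b β)) < δ') →
          τ.n2 (σ (w z) - w z) < 25 / √(m : ℝ) - τ.n2 (θ (w z) - u z) := by
      rw [Filter.eventually_all_finset]
      intro z hz
      have hw : w z ∈ W τ ({u c} ∪ Set.range (fun β => u (b β))) := by
        refine W_mono ?_ (adjoin_le_W _ (wN z hz))
        rintro _ ⟨i, ⟨β, rfl⟩ | rfl, rfl⟩
        · exact Or.inr ⟨β, rfl⟩
        · exact Or.inl rfl
      obtain ⟨δ₀, hδ₀, h0⟩ := tpf_cont hw (sub_pos.2 (ww z hz))
      filter_upwards [Ioo_mem_nhdsGT hδ₀] with δ' hδ' σ hσ hσb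
      exact h0 σ hσ fun β => (hσb β).trans hδ'.2
    obtain ⟨δ', h1, h2⟩ := (hev.and (Ioo_mem_nhdsGT (half_pos hδ))).exists
    obtain ⟨ζ, hζ'⟩ := hζ z' (Finset.mem_insert_self _ _)
    have hbz : ∀ β, b β ≠ z' := fun β e => hZb β (e ▸ Finset.mem_insert_self _ _)
    have hcz : c ≠ z' := fun e => hZc (e ▸ Finset.mem_insert_self _ _)
    obtain ⟨σ, σm, σb, w', w'N, w'u, w'w⟩ := absorb hτ h hm hb hc hbz hcz hζ' h2.1
    have σc : σ ∈ TPF τ {u c} := by
      refine TPF_mono ?_ σm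
      rintro _ rfl
      refine Or.inr ⟨c, ?_, rfl⟩
      rintro (⟨β, hβ⟩ | hβ)
      · exact hc β hβ
      · exact hcz hβ
    refine ⟨θ * σ, mul_mem (TPF_mono ?_ θm) (TPF_mono ?_ σm), fun β => ?_, fun z hz => ?_⟩
    · refine Set.union_subset_union_right _ (Set.image_mono (Set.compl_subset_compl.2
        (Set.union_subset_union_right _ ?_)))
      simp
    · refine Set.union_subset_union_right _ (Set.image_mono (Set.compl_subset_compl.2
        (Set.union_subset_union_right _ ?_)))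
      simp
    · have := τ.n2_triangle (θ (σ (u (b β)))) (θ (u (b β))) (u (b β))
      rw [tpf_n2_sub θm] at this
      rw [StarAlgEquiv.mul_apply]
      linarith [σb β, θb β, h2.2]
    · rcases Finset.mem_insert.1 hz with rfl | hz
      · refine ⟨w', w'N, w'u, ?_⟩
        have : θ (u z) = u z := by
          refine θm.2 _ (Or.inr ⟨z, ?_, rfl⟩)
          rintro (⟨β, hβ⟩ | hβ)
          · exact hbz β hβ
          · exact hz' hβ
        rw [StarAlgEquiv.mul_apply]
        conv_lhs => rw [← this, tpf_n2_sub θm]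
        exact w'w
      · refine ⟨w z, wN z hz, wu z hz, ?_⟩
        have := τ.n2_triangle (θ (σ (w z))) (θ (w z)) (u z)
        rw [tpf_n2_sub θm] at this
        rw [StarAlgEquiv.mul_apply]
        linarith [h1 z hz σ σc σb]

end Crest.Agent.R134
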