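import Crest.Agent.R134.Trig

/-!
# Row 134: Borel functional calculus for a uniform variable (task R134-Arcs)

PLANS.  Let `μ = volume.restrict (Ioc (-π) π)`.  Relation `BL τ t g y`: there are continuous
`g n : ℝ → ℂ`, uniformly bounded, with `g n x → g x` for `μ`-a.e. `x` and `n2 (fc (g n) t - y) → 0`.
* existence: for any such sequence `fc (g n) t` is bounded (`norm_fc_le`) and `‖·‖₂`-Cauchy
  (`Unif.n2_sq`, dominated convergence: `∫ ‖g n - g‖² → 0`), so it has a limit (`hτ.top`), which lies in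
  `W τ {t}` (`fc_mem`, `mem_clo_of_tendsto`, `clo_W`).
* `BL` is stable under products, sums, `star`; continuous bounded-on-`[-π,π]` functions (truncate, or
  only ask for the bound on `[-π, π]`); `τ y = (2π)⁻¹ ∫ g` (dominated convergence); hence
  `BL g y`, `g = 0` a.e. give `y = 0` (faithfulness), i.e. uniqueness.
* `Unif.arcs`: `p a` = indicator of `Ioc (-π + 2π a/k) (-π + 2π (a+1)/k)`, approximated by
  `x ↦ max 0 (min 1 (n * (x - α))) * max 0 (min 1 (n * (β - x)))`;
  `τ (p a * fc h t) = (2π)⁻¹ ∫_{arc} h`; for the last claim use `trig_approx` with `T = 2π/k` and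
  `n2 (p * fc h t) ^ 2 = τ (p * fc ‖h‖² t)` (`commute_W_sa`).
* `Semi.sign`: `X = fc G (lg X)`, `V n = X * cfc (fun s => (√(|s| + 1/(n+1)))⁻¹) (X * X)
  = fc (fun y => G y / √(G y ^ 2 + 1/(n+1))) (lg X)`, converging to `sign ∘ G`, whose square is `1` off
  `{0}`.  `X * X` commutes with `p`, so does the `cfc` (`Commute.cfc_real`), so `V n * p = q * V n`; pass to
  the limit (`Tr.Faithful.eq_of_tendsto`).  `W τ {lg X} ≤ W τ {X}` by `lg_mem`, `W_le_W`.
-/

set_option autoImplicit false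

namespace Crest.Agent.R134

open Crest.Agent.R95 Filter Topology MeasureTheory
open scoped ComplexConjugate

universe u v

variable {A : Type u} [CStarAlgebra A] {τ : Tr A} {X t : A}

/-- the interval `(-π, π]` -/
abbrev Jp : Set ℝ := Set.uIoc (-Real.pi) Real.pi

theorem neg_pi_le : -Real.pi ≤ Real.pi := by linarith [Real.pi_pos]

theorem mem_Jp {x : ℝ} : x ∈ Jp ↔ -Real.pi < x ∧ x ≤ Real.pi := by
  rw [Jp, Set.uIoc_of_le neg_pi_le, Set.mem_Ioc]

theorem abs_le_of_mem_Jp {x : ℝ} (hx : x ∈ Jp) : |x| ≤ Real.pi :=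
  abs_le.2 ⟨(mem_Jp.1 hx).1.le, (mem_Jp.1 hx).2⟩

/-- bounded almost everywhere approximation by continuous functions -/
structure Ap (G : ℕ → ℝ → ℂ) (g : ℝ → ℂ) : Prop where
  cont : ∀ n, Continuous (G n)
  bdd : ∃ C, 0 ≤ C ∧ ∀ n x, |x| ≤ Real.pi → ‖G n x‖ ≤ C
  lim : ∀ᵐ x, x ∈ Jp → Tendsto (fun n => G n x) atTop (𝓝 (g x))

/-- `y` is the Borel function `g` of `t` -/
def BL (τ : Tr A) (t : A) (g : ℝ → ℂ) (y : A) : Prop :=
  ∃ G, Ap G g ∧ Tendsto (fun n => τ.n2 (fc (G n) t - y)) atTop (𝓝 0)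

variable {G : ℕ → ℝ → ℂ} {g g' : ℝ → ℂ} {y y' : A}

theorem Ap.tendsto_integral (h : Ap G g) :
    Tendsto (fun n => ∫ x in (-Real.pi)..Real.pi, G n x) atTop
      (𝓝 (∫ x in (-Real.pi)..Real.pi, g x)) := by
  obtain ⟨C, -, hC⟩ := h.bdd
  exact intervalIntegral.tendsto_integral_filter_of_dominated_convergence (fun _ => C)
    (Eventually.of_forall fun n => (h.cont n).aestronglyMeasurable)
    (Eventually.of_forall fun n => Eventually.of_forall fun x hx => hC n x (abs_le_of_mem_Jp hx))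
    intervalIntegrable_const h.lim

theorem Ap.exists_lim (hτ : VN τ) (ht : Unif τ t) (h : Ap G g) :
    ∃ y, Tendsto (fun n => τ.n2 (fc (G n) t - y)) atTop (𝓝 0) := by
  obtain ⟨C, hC0, hC⟩ := h.bdd
  have h1 : Tendsto (fun q : ℕ × ℕ => ∫ x in (-Real.pi)..Real.pi, ‖G q.1 x - G q.2 x‖ ^ 2)
      (atTop ×ˢ atTop) (𝓝 (∫ _ in (-Real.pi)..Real.pi, (0 : ℝ))) := by
    refine intervalIntegral.tendsto_integral_filter_of_dominated_convergence (fun _ => (C + C) ^ 2)
      (Eventually.of_forall fun q => Continuous.aestronglyMeasurable ?_)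
      (Eventually.of_forall fun q => Eventually.of_forall fun x hx => ?_)
      intervalIntegrable_const ?_
    · exact ((h.cont _).sub (h.cont _)).norm.pow 2
    · rw [norm_pow, norm_norm]
      exact pow_le_pow_left₀ (norm_nonneg _) ((norm_sub_le _ _).trans
        (add_le_add (hC _ x (abs_le_of_mem_Jp hx)) (hC _ x (abs_le_of_mem_Jp hx)))) 2
    · filter_upwards [h.lim] with x hx hx'
      have := (((hx hx').comp tendsto_fst).sub ((hx hx').comp tendsto_snd)).norm.pow 2
      simpa using this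
  have h2 : Tendsto (fun q : ℕ × ℕ => τ.n2 (fc (G q.1) t - fc (G q.2) t) ^ 2)
      (atTop ×ˢ atTop) (𝓝 0) := by
    have := h1.const_mul (1 / (2 * Real.pi))
    simp only [intervalIntegral.integral_zero, mul_zero] at this
    refine this.congr fun q => ?_
    rw [← fc_sub (h.cont _) (h.cont _)]
    exact (ht.n2_sq ((h.cont _).sub (h.cont _))).symm
  obtain ⟨y, -, -, hy⟩ := hτ.top (fun n => fc (G n) t) C (fun _ => trivial)
    (fun n => norm_fc_le hC0 fun x hx => hC n x (hx.trans ht.norm_le)) (fun ε hε => by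
      have := h2.eventually (gt_mem_nhds (pow_pos hε 2))
      rw [prod_atTop_atTop_eq, eventually_atTop] at this
      obtain ⟨⟨a, b⟩, hab⟩ := this
      refine ⟨max a b, fun m hm n hn => ?_⟩
      exact lt_of_pow_lt_pow_left₀ 2 hε.le
        (hab (m, n) ⟨(le_max_left _ _).trans hm, (le_max_right _ _).trans hn⟩))
  exact ⟨y, hy⟩

theorem BL.mem (h : BL τ t g y) : y ∈ W τ {t} := by
  obtain ⟨G, -, h⟩ := h
  exact clo_W _ (mem_clo_of_tendsto (fun n => fc_mem (isClosed_W _) _ (mem_W rfl)) h)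

theorem BL.congr (h : BL τ t g y) (h' : ∀ᵐ x, x ∈ Jp → g x = g' x) : BL τ t g' y := by
  obtain ⟨G, hG, h⟩ := h
  refine ⟨G, ⟨hG.cont, hG.bdd, ?_⟩, h⟩
  filter_upwards [hG.lim, h'] with x h1 h2 hx
  rw [← h2 hx]
  exact h1 hx

theorem BL.congr' (h : BL τ t g y) (h' : ∀ x ∈ Jp, g x = g' x) : BL τ t g' y :=
  h.congr (Eventually.of_forall h')

theorem BL.of_cont (τ : Tr A) (t : A) (hg : Continuous g) : BL τ t g (fc g t) := by
  obtain ⟨C, hC⟩ := (isCompact_Icc (a := -Real.pi) (b := Real.pi)).exists_bound_of_continuousOn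
    hg.continuousOn
  refine ⟨fun _ => g, ⟨fun _ => hg, ⟨max C 0, le_max_right _ _, fun _ x hx =>
    (hC x (abs_le.1 hx)).trans (le_max_left _ _)⟩,
    Eventually.of_forall fun _ _ => tendsto_const_nhds⟩, ?_⟩
  simp [τ.n2_zero]

theorem BL.phi (ht : Unif τ t) (h : BL τ t g y) :
    τ.φ y = (1 / (2 * Real.pi) : ℝ) • ∫ x in (-Real.pi)..Real.pi, g x := by
  obtain ⟨G, hG, h⟩ := h
  refine tendsto_nhds_unique (tendsto_phi h) ?_
  simp only [ht.law _ (hG.cont _)]
  exact hG.tendsto_integral.const_smul _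

theorem BL.mul (ht : Unif τ t) (h : BL τ t g y) (h' : BL τ t g' y') :
    BL τ t (fun x => g x * g' x) (y * y') := by
  obtain ⟨G, hG, h⟩ := h
  obtain ⟨G', hG', h'⟩ := h'
  obtain ⟨C, hC0, hC⟩ := hG.bdd
  obtain ⟨C', hC0', hC'⟩ := hG'.bdd
  refine ⟨fun n x => G n x * G' n x, ⟨fun n => (hG.cont n).mul (hG'.cont n),
    ⟨C * C', mul_nonneg hC0 hC0', fun n x hx => ?_⟩, ?_⟩, ?_⟩
  · rw [norm_mul]
    exact mul_le_mul (hC n x hx) (hC' n x hx) (norm_nonneg _) hC0
  · filter_upwards [hG.lim, hG'.lim] with x h1 h2 hx using (h1 hx).mul (h2 hx)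
  · simp only [fc_mul (hG.cont _) (hG'.cont _)]
    exact tendsto_n2_mul (C := C)
      (fun n => norm_fc_le hC0 fun x hx => hC n x (hx.trans ht.norm_le)) h h'

theorem BL.add (h : BL τ t g y) (h' : BL τ t g' y') : BL τ t (fun x => g x + g' x) (y + y') := by
  obtain ⟨G, hG, h⟩ := h
  obtain ⟨G', hG', h'⟩ := h'
  obtain ⟨C, hC0, hC⟩ := hG.bdd
  obtain ⟨C', hC0', hC'⟩ := hG'.bdd
  refine ⟨fun n x => G n x + G' n x, ⟨fun n => (hG.cont n).add (hG'.cont n),
    ⟨C + C', add_nonneg hC0 hC0', fun n x hx =>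
      (norm_add_le _ _).trans (add_le_add (hC n x hx) (hC' n x hx))⟩, ?_⟩, ?_⟩
  · filter_upwards [hG.lim, hG'.lim] with x h1 h2 hx using (h1 hx).add (h2 hx)
  · have := h.add h'
    rw [add_zero] at this
    refine squeeze_zero (fun _ => τ.n2_nonneg _) (fun n => ?_) this
    rw [fc_add (hG.cont _) (hG'.cont _), add_sub_add_comm]
    exact τ.n2_add_le _ _

theorem BL.star (h : BL τ t g y) : BL τ t (fun x => conj (g x)) (star y) := by
  obtain ⟨G, hG, h⟩ := h
  obtain ⟨C, hC0, hC⟩ := hG.bdd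
  refine ⟨fun n x => conj (G n x), ⟨fun n => Complex.continuous_conj.comp (hG.cont n),
    ⟨C, hC0, fun n x hx => by rw [Complex.norm_conj]; exact hC n x hx⟩, ?_⟩, ?_⟩
  · filter_upwards [hG.lim] with x h1 hx using
      (Complex.continuous_conj.tendsto _).comp (h1 hx)
  · simp only [fc_star]
    exact tendsto_n2_star h

theorem BL.const (ht : Unif τ t) (c : ℂ) : BL τ t (fun _ => c) (c • (1 : A)) := by
  rw [← fc_const ht.sa]
  exact .of_cont τ t continuous_const

theorem BL.sub (ht : Unif τ t) (h : BL τ t g y) (h' : BL τ t g' y') :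
    BL τ t (fun x => g x - g' x) (y - y') := by
  have := h.add ((BL.const ht (-1)).mul ht h')
  simpa [sub_eq_add_neg] using this

theorem BL.sum (ht : Unif τ t) {ι : Type*} (s : Finset ι) {g : ι → ℝ → ℂ} {y : ι → A}
    (h : ∀ i, BL τ t (g i) (y i)) : BL τ t (fun x => ∑ i ∈ s, g i x) (∑ i ∈ s, y i) := by
  classical
  induction s using Finset.induction_on with
  | empty => simpa using BL.const ht 0
  | insert i s hi ih => simpa only [Finset.sum_insert hi] using (h i).add ih

theorem BL.n2_sq (ht : Unif τ t) (h : BL τ t g y) :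
    τ.n2 y ^ 2 = 1 / (2 * Real.pi) * ∫ x in (-Real.pi)..Real.pi, ‖g x‖ ^ 2 := by
  have := (h.star.mul ht h).phi ht
  simp only [Complex.conj_mul', ← Complex.ofReal_pow] at this
  rw [τ.phi_star_mul_self, intervalIntegral.integral_ofReal, Complex.real_smul,
    ← Complex.ofReal_mul] at this
  exact Complex.ofReal_injective this

theorem BL.unique (hτ : VN τ) (ht : Unif τ t) (h : BL τ t g y) (h' : BL τ t g y') : y = y' := by
  have := (h.sub ht h').n2_sq ht
  simp only [sub_self, norm_zero, ne_eq, OfNat.ofNat_ne_zero, not_false_eq_true, zero_pow,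
    intervalIntegral.integral_zero, mul_zero] at this
  exact sub_eq_zero.1 (hτ.faithful _ (pow_eq_zero_iff two_ne_zero |>.1 this))

theorem bl_step (hτ : VN τ) (ht : Unif τ t) (α : ℝ) :
    ∃ q, BL τ t (fun x => if α < x then 1 else 0) q := by
  have h : Ap (fun n x => ((max 0 (min 1 ((n : ℝ) * (x - α))) : ℝ) : ℂ))
      (fun x => if α < x then 1 else 0) := by
    refine ⟨fun n => by fun_prop, ⟨1, zero_le_one, fun n x _ => ?_⟩,
      Eventually.of_forall fun x _ => ?_⟩
    · rw [Complex.norm_real, Real.norm_eq_abs, abs_of_nonneg (le_max_left _ _)]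
      exact max_le zero_le_one (min_le_left _ _)
    · split_ifs with hx
      · refine tendsto_const_nhds.congr' ?_
        filter_upwards [(tendsto_natCast_atTop_atTop.atTop_mul_const
          (sub_pos.2 hx)).eventually_ge_atTop 1] with n hn
        rw [min_eq_left hn, max_eq_right zero_le_one, Complex.ofReal_one]
      · refine tendsto_const_nhds.congr fun n => ?_
        rw [max_eq_left ((min_le_right _ _).trans (mul_nonpos_of_nonneg_of_nonpos n.cast_nonneg
          (sub_nonpos.2 (not_lt.1 hx)))), Complex.ofReal_zero]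
  exact (h.exists_lim hτ ht).imp fun q hq => ⟨_, h, hq⟩

/-- indicator of an arc -/
noncomputable def ind (α β x : ℝ) : ℂ := if α < x ∧ x ≤ β then 1 else 0

theorem ind_eq {α β : ℝ} (h : α ≤ β) (x : ℝ) :
    ind α β x = (if α < x then 1 else 0) - (if β < x then 1 else 0) := by
  unfold ind
  by_cases h1 : α < x <;> by_cases h2 : β < x
  · simp [h1, h2]
  · simp [h1, h2, not_lt.1 h2]
  · exact absurd (h.trans_lt h2) h1
  · simp [h1, h2]

theorem bl_arc (hτ : VN τ) (ht : Unif τ t) {α β : ℝ} (h : α ≤ β) : ∃ p, BL τ t (ind α β) p := by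
  obtain ⟨q, hq⟩ := bl_step hτ ht α
  obtain ⟨q', hq'⟩ := bl_step hτ ht β
  exact ⟨_, (hq.sub ht hq').congr' fun x _ => (ind_eq h x).symm⟩

theorem integral_ind {E : Type*} [NormedAddCommGroup E] [NormedSpace ℝ E] {α β : ℝ}
    (h1 : -Real.pi ≤ α) (h2 : α ≤ β) (h3 : β ≤ Real.pi) {f f' : ℝ → E}
    (h : ∀ x, f' x = if α < x ∧ x ≤ β then f x else 0) :
    ∫ x in (-Real.pi)..Real.pi, f' x = ∫ x in α..β, f x := by
  have e : f' = (Set.Ioc α β).indicator f := by
    funext x
    rw [h x, Set.indicator_apply]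
    rfl
  rw [e, intervalIntegral.integral_of_le neg_pi_le, intervalIntegral.integral_of_le h2,
    integral_indicator measurableSet_Ioc, Measure.restrict_restrict measurableSet_Ioc,
    Set.inter_eq_left.2 (Set.Ioc_subset_Ioc h1 h3)]

theorem ex_pow_eq_fc (ht : IsSelfAdjoint t) (k : ℕ) :
    ex t ^ k = fc (fun x => Complex.exp (Complex.I * k * x)) t := by
  rw [ex_eq_fc ht, ← fc_pow ht (by fun_prop)]
  congr 1
  funext x
  rw [← Complex.exp_nat_mul]
  ring_nf

theorem fc_exp_mem (ht : IsSelfAdjoint t) (k : ℕ) (n : ℤ) :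
    fc (fun x => Complex.exp (Complex.I * k * n * x)) t ∈ StarAlgebra.adjoin ℂ {ex t ^ k} := by
  have key : ∀ m : ℕ, fc (fun x => Complex.exp (Complex.I * k * m * x)) t ∈
      StarAlgebra.adjoin ℂ {ex t ^ k} := fun m => by
    have := pow_mem (StarAlgebra.self_mem_adjoin_singleton ℂ (ex t ^ k)) m
    rw [← pow_mul, ex_pow_eq_fc ht (k * m)] at this
    simpa only [Nat.cast_mul, mul_assoc] using this
  obtain ⟨m, rfl | rfl⟩ := n.eq_nat_or_neg
  · simpa using key m
  · have := star_mem (key m)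
    rw [← fc_star] at this
    convert this using 3 with x
    rw [← Complex.exp_conj]
    simp

theorem Unif.arcs (hτ : VN τ) (h : Unif τ t) (k : ℕ) (hk : 0 < k) :
    ∃ p : Fin k → A, PU τ p ∧ (∀ a, p a ∈ W τ {t}) ∧
      (∀ a n, τ.φ (p a * (ex t ^ k) ^ (n + 1)) = 0) ∧
      ∀ a, ∀ ε > 0, ∃ y ∈ StarAlgebra.adjoin ℂ {ex t ^ k}, τ.n2 (p a * ex t - p a * y) < ε := by
  have hk' : (0 : ℝ) < k := by exact_mod_cast hk
  have hπ := Real.pi_pos
  set T : ℝ := 2 * Real.pi / k with hT
  have hT0 : 0 < T := by positivity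
  have hkT : (k : ℝ) * T = 2 * Real.pi := by rw [hT]; field_simp
  set α : ℕ → ℝ := fun a => -Real.pi + a * T with hα
  have hαs : ∀ a, α (a + 1) = α a + T := fun a => by simp only [hα]; push_cast; ring
  have hmono : ∀ {a b : ℕ}, a ≤ b → α a ≤ α b := fun {a b} hab => by
    simp only [hα]
    gcongr
  have hα0 : α 0 = -Real.pi := by simp [hα]
  have hαk : α k = Real.pi := by simp only [hα]; linarith
  have h1 : ∀ a : Fin k, -Real.pi ≤ α a := fun a => hα0 ▸ hmono (Nat.zero_le _)
  have h2 : ∀ a : ℕ, α a ≤ α (a + 1) := fun a => hmono (Nat.le_succ _)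
  have h3 : ∀ a : Fin k, α (a + 1) ≤ Real.pi := fun a => hαk ▸ hmono a.2
  choose p hp using fun a : Fin k => bl_arc hτ h (h2 a)
  have hint : ∀ (a : Fin k) {f : ℝ → ℂ}, Continuous f →
      τ.φ (p a * fc f t) = (1 / (2 * Real.pi) : ℝ) • ∫ x in α a..α (a + 1), f x :=
    fun a f hf => by
      rw [((hp a).mul h (.of_cont τ t hf)).phi h, integral_ind (h1 a) (h2 a) (h3 a) (f := f)]
      intro x
      simp [ind]
  refine ⟨p, ⟨fun a => ⟨?_, ?_⟩, fun a b hab => ?_, ?_, fun a => ?_⟩, fun a => (hp a).mem,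
    fun a n => ?_, fun a ε hε => ?_⟩
  · refine BL.unique hτ h (((hp a).mul h (hp a)).congr' fun x _ => ?_) (hp a)
    unfold ind
    split_ifs <;> simp
  · refine BL.unique hτ h ((hp a).star.congr' fun x _ => ?_) (hp a)
    unfold ind
    split_ifs <;> simp
  · rw [← zero_smul ℂ (1 : A)]
    refine BL.unique hτ h (((hp a).mul h (hp b)).congr' fun x _ => ?_) (.const h 0)
    unfold ind
    split_ifs with ha hb
    · exfalso
      rcases lt_or_gt_of_ne hab with hlt | hlt
      · have := hmono (a := a + 1) (b := b) hlt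
        linarith [ha.2, hb.1]
      · have := hmono (a := b + 1) (b := a) hlt
        linarith [ha.1, hb.2]
    all_goals simp
  · rw [← one_smul ℂ (1 : A)]
    refine BL.unique hτ h ((BL.sum h _ hp).congr' fun x hx => ?_) (.const h 1)
    rw [mem_Jp] at hx
    simp only [ind_eq (h2 _)]
    rw [Fin.sum_univ_eq_sum_range (fun a => (if α a < x then (1 : ℂ) else 0) -
      (if α (a + 1) < x then 1 else 0)) k,
      Finset.sum_range_sub' (fun a => if α a < x then (1 : ℂ) else 0), hα0, hαk, if_pos hx.1,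
      if_neg (not_lt.2 hx.2), sub_zero]
  · have := hint a (f := fun _ => 1) continuous_const
    rw [fc_one h.sa, mul_one, intervalIntegral.integral_const, hαs, add_sub_cancel_left,
      smul_smul, Complex.real_smul, mul_one] at this
    rw [this, Fintype.card_fin, ← Complex.ofReal_natCast, ← Complex.ofReal_inv, hT]
    congr 1
    field_simp
  · have hc : Complex.I * ((k * (n + 1) : ℕ) : ℂ) ≠ 0 :=
      mul_ne_zero Complex.I_ne_zero (Nat.cast_ne_zero.2 (by positivity))
    rw [← pow_mul, ex_pow_eq_fc h.sa, hint a (by fun_prop), integral_exp_mul_complex hc, hαs]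
    have e : Complex.I * ((k * (n + 1) : ℕ) : ℂ) * ((α a + T : ℝ) : ℂ) =
        Complex.I * ((k * (n + 1) : ℕ) : ℂ) * (α a : ℂ) + (n + 1 : ℕ) * (2 * Real.pi * Complex.I) := by
      have : (k : ℂ) * T = 2 * Real.pi := by exact_mod_cast hkT
      push_cast
      linear_combination Complex.I * (n + 1) * this
    rw [e, Complex.exp_add, Complex.exp_nat_mul_two_pi_mul_I, mul_one, sub_self, zero_div,
      smul_zero]
  · obtain ⟨s, c, hs⟩ := trig_approx (g := fun x => Complex.exp (Complex.I * x)) (by fun_prop)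
      (α a) hT0 (pow_pos hε 2)
    have e : ∀ (n : ℤ) (x : ℝ), 2 * Real.pi * Complex.I * n * x / T = Complex.I * k * n * x :=
      fun n x => by
        have : (k : ℂ) * T = 2 * Real.pi := by exact_mod_cast hkT
        rw [div_eq_iff (by exact_mod_cast hT0.ne'), ← this]
        ring
    simp only [e] at hs
    refine ⟨fc (fun x => ∑ n ∈ s, c n * Complex.exp (Complex.I * k * n * x)) t, ?_, ?_⟩
    · rw [fc_sum s fun n _ => by fun_prop]
      refine sum_mem fun n _ => ?_
      rw [fc_const_mul _ (by fun_prop)]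
      exact SMulMemClass.smul_mem _ (fc_exp_mem h.sa k n)
    · rw [← mul_sub, ex_eq_fc h.sa, ← fc_sub (by fun_prop) (by fun_prop)]
      refine lt_of_pow_lt_pow_left₀ 2 hε.le ?_
      rw [((hp a).mul h (.of_cont τ t (by fun_prop))).n2_sq h, integral_ind (h1 a) (h2 a) (h3 a)
        (f := fun x : ℝ => ‖Complex.exp (Complex.I * x) -
          ∑ n ∈ s, c n * Complex.exp (Complex.I * k * n * x)‖ ^ 2) (fun x => by
            unfold ind
            split_ifs <;> simp), hαs]
      refine lt_of_le_of_lt (mul_le_of_le_one_left ?_ ?_) hs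
      · exact intervalIntegral.integral_nonneg (by linarith) fun x _ => by positivity
      · rw [div_le_one (by positivity)]
        linarith [Real.pi_gt_three]

theorem Semi.sign (hτ : VN τ) (h : Semi τ X) :
    ∃ V ∈ W τ {X}, IsSelfAdjoint V ∧ V * V = 1 ∧
      ∀ p q, X * p = q * X → X * q = p * X → V * p = q * V := by
  obtain ⟨G, hG, hGF, hG0⟩ := exists_GG
  have ht := h.unif
  have hX : ∀ {F : ℝ → ℂ}, Continuous F → fc (fun y => F (G y)) (lg X) = fc F X := fun {F} hF => by
    rw [lg, fc_cfc h.sa (f := fun y => F (G y)) (by fun_prop) continuous_FF]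
    exact fc_congr fun x hx => by rw [hGF x (hx.trans h.norm_le)]
  set φ : ℕ → ℝ → ℝ := fun n s => (√(|s| + 1 / ((n : ℝ) + 1)))⁻¹ with hφ
  have hpos : ∀ (n : ℕ) (s : ℝ), 0 < √(|s| + 1 / ((n : ℝ) + 1)) := fun n s => by positivity
  have cφ : ∀ n, Continuous (φ n) := fun n =>
    Continuous.inv₀ (by fun_prop) fun s => (hpos n s).ne'
  have hap : Ap (fun n y => ((G y : ℝ) : ℂ) * (φ n (G y * G y) : ℝ))
      (fun y => ((G y : ℝ) : ℂ) * ((√|G y * G y|)⁻¹ : ℝ)) := by
    refine ⟨fun n => by fun_prop, ⟨1, zero_le_one, fun n y _ => ?_⟩, ?_⟩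
    · rw [← Complex.ofReal_mul, Complex.norm_real, Real.norm_eq_abs, abs_mul, hφ]
      dsimp only
      rw [abs_inv, abs_of_pos (hpos _ _), ← div_eq_mul_inv, div_le_one (hpos _ _)]
      refine Real.le_sqrt_of_sq_le ?_
      rw [abs_mul, sq]
      exact le_add_of_nonneg_right (by positivity)
    · filter_upwards [volume.ae_ne (0 : ℝ)] with y hy hy'
      have h0 : G y ≠ 0 := fun h0 => hy (hG0 y (abs_le_of_mem_Jp hy') h0)
      refine Tendsto.const_mul _ ((Complex.continuous_ofReal.tendsto _).comp ?_)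
      refine Tendsto.inv₀ (Tendsto.sqrt ?_) (by positivity)
      simpa using (tendsto_one_div_add_atTop_nhds_zero_nat (𝕜 := ℝ)).const_add |G y * G y|
  obtain ⟨V, hV⟩ := hap.exists_lim hτ ht
  have hB : BL τ (lg X) _ V := ⟨_, hap, hV⟩
  have hVn : ∀ n, fc (fun y => ((G y : ℝ) : ℂ) * (φ n (G y * G y) : ℝ)) (lg X) =
      X * cfc (φ n) (X * X) := fun n => by
    have e : X * X = cfc (fun x : ℝ => x * x) X := by
      rw [cfc_mul _ _ X, cfc_id' ℝ X h.sa]
    rw [hX (F := fun x => (x : ℂ) * (φ n (x * x) : ℝ)) (by fun_prop),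
      fc_mul (by fun_prop) (by fun_prop), fc_id h.sa, e, ← fc_ofReal IsSelfAdjoint.cfc,
      fc_cfc h.sa (by fun_prop) (by fun_prop)]
  refine ⟨V, W_le_W ?_ hB.mem, ?_, ?_, fun p q hp hq => ?_⟩
  · rintro _ rfl
    exact lg_mem (isClosed_W _) (mem_W rfl)
  · exact BL.unique hτ ht (hB.star.congr' fun x _ => by simp) hB
  · rw [← one_smul ℂ (1 : A)]
    refine BL.unique hτ ht ((hB.mul ht hB).congr ?_) (.const ht 1)
    filter_upwards [volume.ae_ne (0 : ℝ)] with y hy hy'
    have h0 : G y ≠ 0 := fun h0 => hy (hG0 y (abs_le_of_mem_Jp hy') h0)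
    rw [abs_mul_self, Real.sqrt_mul_self_eq_abs, ← Complex.ofReal_mul, ← Complex.ofReal_mul,
      ← Complex.ofReal_one]
    congr 1
    have := abs_mul_abs_self (G y)
    have h1 : |G y| ≠ 0 := abs_ne_zero.2 h0
    field_simp
    rw [sq_abs]
  · simp only [hVn] at hV
    have hc : Commute (X * X) p := by
      rw [Commute, SemiconjBy, mul_assoc, hp, ← mul_assoc, hq, mul_assoc]
    have h1 : Tendsto (fun n => τ.n2 (X * cfc (φ n) (X * X) * p - V * p)) atTop (𝓝 0) := by
      have := hV.mul_const ‖p‖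
      rw [zero_mul] at this
      refine squeeze_zero (fun _ => τ.n2_nonneg _) (fun n => ?_) this
      rw [← sub_mul]
      exact τ.n2_mul_le_right _ _
    have h2 := tendsto_n2_mul (x := fun _ => q) (x' := q) (C := ‖q‖) (fun _ => le_rfl)
      (by simp [τ.n2_zero]) hV
    refine hτ.faithful.eq_of_tendsto h1 (h2.congr fun n => ?_)
    rw [mul_assoc X, (hc.cfc_real (φ n)).eq, ← mul_assoc, ← mul_assoc, hp]

end Crest.Agent.R134
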