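import Crest.Agent.R134.Ext

/-!
# Row 134: matrix units and their commutant (task R134-Mat)

PLANS.  All algebraic.  `phi_mul`: for `x ∈ Cm e`, `τ (e a b * x) = τ (e a c * e c b * x) =
τ (e c b * x * e a c) = τ (e c b * e a c * x)`.  `n2_rc_le`: for `x q ∈ Cm e`,
`n2 (∑ x q * e q.1 q.2) ^ 2 = k⁻¹ ∑ n2 (x q) ^ 2`; `‖ω₀‖ ≤ 1`.  `rc_Xc`: `ω₀ * conj ω₀ = 1/2`,
`ω₀² + (conj ω₀)² = 0`.
* `vn_sub`: a limit of elements of `Cm e` commutes with the `e a b` (`Tr.Faithful.eq_of_tendsto`).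
* `mem_W_sub`: every `y ∈ adjoin (val '' S ∪ mus e)` has all `ent e a b y ∈ val '' adjoin S`
  (adjoin induction: `ent a b (y z) = ∑ c, ent a c y * ent c b z`, `ent a b s = if a = b then s else 0` for
  `s ∈ Cm e`, `ent a b (e c d)` is `0` or `1`); `x = ent a a x` for `x ∈ Cm e`, and `ent a a` is
  `‖·‖₂`-Lipschitz.
* `lift`: `ext_iso` with `G = {(x * y, θ x * y) | x : Cm e, y ∈ insert 0 (insert 1 (mus e))}`.
-/

set_option autoImplicit false
set_option linter.unusedSectionVars false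

namespace Crest.Agent.R134

open Crest.Agent.R95 Filter Topology
open scoped ComplexConjugate

universe u v

variable {A : Type u} [CStarAlgebra A] {τ : Tr A} {K : Type} [Fintype K] [DecidableEq K]
  {e : K → K → A} {x : A}

theorem e_mem_mus (a b : K) : e a b ∈ mus e := ⟨a, b, rfl⟩

theorem MU.mem_Cm (he : MU e) : x ∈ Cm e ↔ ∀ a b, e a b * x = x * e a b := by
  rw [Cm, StarSubalgebra.mem_centralizer_iff]
  constructor
  · intro h a b
    exact (h _ (e_mem_mus a b)).1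
  · rintro h _ ⟨a, b, rfl⟩
    exact ⟨h a b, by rw [he.adj]; exact h b a⟩

theorem MU.proj (he : MU e) (a : K) : IsStarProjection (e a a) := by
  refine ⟨?_, he.adj a a⟩
  change e a a * e a a = e a a
  rw [he.mul, if_pos rfl]

theorem MU.mul_same (he : MU e) (a b d : K) : e a b * e b d = e a d := by
  rw [he.mul, if_pos rfl]

theorem MU.e_mul_ent (he : MU e) (a b c d : K) (x : A) :
    e c d * ent e a b x = e c a * x * e b d := by
  rw [ent, Finset.mul_sum, Finset.sum_eq_single d]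
  · rw [← mul_assoc, ← mul_assoc, he.mul_same]
  · intro l _ hl
    rw [← mul_assoc, ← mul_assoc, he.mul, if_neg hl.symm, zero_mul, zero_mul]
  · simp

theorem MU.ent_mul_e (he : MU e) (a b c d : K) (x : A) :
    ent e a b x * e c d = e c a * x * e b d := by
  rw [ent, Finset.sum_mul, Finset.sum_eq_single c]
  · rw [mul_assoc, he.mul_same]
  · intro l _ hl
    rw [mul_assoc, he.mul, if_neg hl, mul_zero]
  · simp

theorem MU.ent_mul_ent (he : MU e) (a b c d : K) (y z : A) :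
    ent e a c y * ent e d b z = ent e a b (y * e c d * z) := by
  rw [ent, Finset.sum_mul, ent.eq_1 e a b]
  refine Finset.sum_congr rfl fun l _ => ?_
  rw [mul_assoc, he.e_mul_ent]
  simp only [mul_assoc]

theorem ent_add (a b : K) (y z : A) : ent e a b (y + z) = ent e a b y + ent e a b z := by
  simp only [ent, mul_add, add_mul, Finset.sum_add_distrib]

theorem ent_sub (a b : K) (y z : A) : ent e a b (y - z) = ent e a b y - ent e a b z := by
  simp only [ent, mul_sub, sub_mul, Finset.sum_sub_distrib]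

theorem MU.ent_mul (he : MU e) (a b : K) (y z : A) :
    ent e a b (y * z) = ∑ c, ent e a c y * ent e c b z := by
  simp only [he.ent_mul_ent]
  simp only [ent]
  rw [Finset.sum_comm]
  refine Finset.sum_congr rfl fun l _ => ?_
  rw [← Finset.sum_mul, ← Finset.mul_sum, ← Finset.sum_mul, ← Finset.mul_sum, he.sum, mul_one]

theorem MU.ent_e (he : MU e) (a b c d : K) :
    ent e a b (e c d) = if a = c ∧ d = b then 1 else 0 := by
  by_cases h1 : a = c
  · by_cases h2 : d = b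
    · subst h1 h2
      simp only [ent, he.mul_same, he.sum, and_self, if_true]
    · subst h1
      simp only [ent, he.mul_same]
      simp [he.mul, h2]
  · simp [ent, he.mul, h1]

theorem MU.ent_mem (he : MU e) (a b : K) (x : A) : ent e a b x ∈ Cm e := by
  rw [he.mem_Cm]
  intro c d
  rw [he.e_mul_ent, he.ent_mul_e]

theorem MU.ent_of_mem (he : MU e) (hx : x ∈ Cm e) (a b : K) :
    ent e a b x = if a = b then x else 0 := by
  have h := he.mem_Cm.1 hx
  have h1 : ∀ l, e l a * x * e b l = x * (e l a * e b l) := fun l => by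
    rw [h, mul_assoc]
  simp only [ent, h1, he.mul]
  split_ifs
  · rw [← Finset.mul_sum, he.sum, mul_one]
  · simp

theorem MU.sum_ent (he : MU e) (x : A) : ∑ q : K × K, ent e q.1 q.2 x * e q.1 q.2 = x := by
  simp only [he.ent_mul_e, Fintype.sum_prod_type, ← Finset.mul_sum, ← Finset.sum_mul, he.sum,
    mul_one, one_mul]

theorem MU.phi_mul (he : MU e) (hx : x ∈ Cm e) (a b : K) :
    τ.φ (e a b * x) = if a = b then (Fintype.card K : ℂ)⁻¹ * τ.φ x else 0 := by
  have h := he.mem_Cm.1 hx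
  have h1 : ∀ c, τ.φ (e a b * x) = if b = a then τ.φ (e c c * x) else 0 := fun c => by
    rw [← he.mul_same a c b, mul_assoc, τ.comm, mul_assoc, ← h, ← mul_assoc, he.mul]
    split_ifs <;> simp
  split_ifs with hab
  · subst hab
    have h2 : ∑ _c : K, τ.φ (e a a * x) = τ.φ x := by
      rw [Finset.sum_congr rfl fun c _ => h1 c]
      simp only [if_true, ← map_sum, ← Finset.sum_mul, he.sum, one_mul]
    rw [Finset.sum_const, Finset.card_univ, nsmul_eq_mul] at h2
    have h3 : (Fintype.card K : ℂ) ≠ 0 := by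
      have : Nonempty K := ⟨a⟩
      exact_mod_cast Fintype.card_ne_zero
    rw [← h2, ← mul_assoc, inv_mul_cancel₀ h3, one_mul]
  · rw [h1 a, if_neg (Ne.symm hab)]

theorem MU.star_ent (he : MU e) (a b : K) (x : A) : star (ent e a b x) = ent e b a (star x) := by
  simp only [ent, star_sum, star_mul, he.adj, mul_assoc]

theorem MU.ent_unitary (he : MU e) (a : K) (hx : x ∈ unitary A) (hc : Commute (e a a) x) :
    ent e a a x ∈ unitary A := by
  have h1 : ent e a a (e a a) = 1 := by rw [he.ent_e, if_pos ⟨rfl, rfl⟩]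
  constructor
  · rw [he.star_ent, he.ent_mul_ent, mul_assoc, hc.eq, ← mul_assoc,
      Unitary.star_mul_self_of_mem hx, one_mul, h1]
  · rw [he.star_ent, he.ent_mul_ent, ← hc.eq, mul_assoc, Unitary.mul_star_self_of_mem hx, mul_one,
      h1]

theorem MU.diag_mul_ent (he : MU e) (a : K) (hc : Commute (e a a) x) :
    e a a * ent e a a x = e a a * x := by
  rw [he.e_mul_ent, mul_assoc, ← hc.eq, ← mul_assoc, he.mul_same]

theorem MU.ent_diag_mul (he : MU e) (a b : K) (x : A) : ent e a b (e a a * x) = ent e a b x := by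
  simp only [ent, ← mul_assoc, he.mul_same]

theorem ent_mem_of {S : StarSubalgebra ℂ A} (h : ∀ a b, e a b ∈ S) (hx : x ∈ S) (a b : K) :
    ent e a b x ∈ S := by
  exact sum_mem fun l _ => mul_mem (mul_mem (h _ _) hx) (h _ _)

theorem Xc_mem_of {S : StarSubalgebra ℂ A} (h : ∀ a b, e a b ∈ S) (hx : x ∈ S) (q : K × K) :
    Xc e x q ∈ S := by
  exact SMulMemClass.smul_mem _ (add_mem (SMulMemClass.smul_mem _ (ent_mem_of h hx _ _))
    (SMulMemClass.smul_mem _ (ent_mem_of h hx _ _)))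

theorem rc_mem_of {S : StarSubalgebra ℂ A} (h : ∀ a b, e a b ∈ S) {y : K × K → A}
    (hy : ∀ q, y q ∈ S) : rc e y ∈ S := by
  exact sum_mem fun q _ => mul_mem (SMulMemClass.smul_mem _
    (add_mem (SMulMemClass.smul_mem _ (hy _)) (SMulMemClass.smul_mem _ (hy _)))) (h _ _)

theorem MU.Xc_mem (he : MU e) (x : A) (q : K × K) : Xc e x q ∈ Cm e := by
  exact SMulMemClass.smul_mem _ (add_mem (SMulMemClass.smul_mem _ (he.ent_mem _ _ _))
    (SMulMemClass.smul_mem _ (he.ent_mem _ _ _)))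

theorem MU.rc_Xc [Nonempty K] (he : MU e) (x : A) : rc e (Xc e x) = x := by
  have h0 : (0 : ℝ) < Fintype.card K := by exact_mod_cast Fintype.card_pos
  have hs : ((√(Fintype.card K : ℝ) : ℝ) : ℂ) ≠ 0 := by
    exact_mod_cast (Real.sqrt_pos.2 h0).ne'
  have h1 : conj ω₀ * ω₀ + ω₀ * conj ω₀ = 1 := by
    simp only [ω₀, map_div₀, map_add, map_one, Complex.conj_I, map_ofNat]
    linear_combination (-1 / 2 : ℂ) * Complex.I_mul_I
  have h2 : conj ω₀ * conj ω₀ + ω₀ * ω₀ = 0 := by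
    simp only [ω₀, map_div₀, map_add, map_one, Complex.conj_I, map_ofNat]
    linear_combination (1 / 2 : ℂ) * Complex.I_mul_I
  conv_rhs => rw [← he.sum_ent x]
  refine Finset.sum_congr rfl fun q _ => ?_
  congr 1
  simp only [Xc, Prod.fst_swap, Prod.snd_swap]
  rw [smul_comm (conj ω₀), smul_comm ω₀, ← smul_add, smul_smul, inv_mul_cancel₀ hs, one_smul]
  calc _ = (conj ω₀ * ω₀ + ω₀ * conj ω₀) • ent e q.1 q.2 x +
        (conj ω₀ * conj ω₀ + ω₀ * ω₀) • ent e q.2 q.1 x := by module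
    _ = _ := by rw [h1, h2, one_smul, zero_smul, add_zero]

theorem rc_sub (e : K → K → A) (y y' : K × K → A) :
    rc e y - rc e y' = rc e (fun q => y q - y' q) := by
  simp only [rc, ← Finset.sum_sub_distrib, ← sub_mul]
  refine Finset.sum_congr rfl fun q _ => ?_
  congr 1
  module

theorem map_rc (θ : A ≃⋆ₐ[ℂ] A) (hθ : ∀ a b, θ (e a b) = e a b) (y : K × K → A) :
    θ (rc e y) = rc e (fun q => θ (y q)) := by
  simp only [rc, map_sum, map_mul, map_smul, map_add, hθ]

theorem MU.n2_sum_sq (he : MU e) {z : K × K → A} (hz : ∀ q, z q ∈ Cm e) :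
    τ.n2 (∑ q : K × K, z q * e q.1 q.2) ^ 2 =
      (Fintype.card K : ℝ)⁻¹ * ∑ q : K × K, τ.n2 (z q) ^ 2 := by
  apply Complex.ofReal_injective
  rw [← τ.phi_star_mul_self, star_sum, Finset.sum_mul_sum, map_sum]
  push_cast
  rw [Finset.mul_sum]
  refine Finset.sum_congr rfl fun q _ => ?_
  have h1 : ∀ q' : K × K, τ.φ (star (z q * e q.1 q.2) * (z q' * e q'.1 q'.2)) =
      if q = q' then (Fintype.card K : ℂ)⁻¹ * τ.φ (star (z q) * z q') else 0 := fun q' => by
    have hm : star (z q) * z q' ∈ Cm e := mul_mem (star_mem (hz q)) (hz q')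
    have e1 : star (z q * e q.1 q.2) * (z q' * e q'.1 q'.2) =
        e q.2 q.1 * e q'.1 q'.2 * (star (z q) * z q') := by
      rw [star_mul, he.adj, mul_assoc, ← mul_assoc (star (z q)), ← he.mem_Cm.1 hm, ← mul_assoc]
    rw [e1, he.mul]
    by_cases h2 : q.1 = q'.1
    · rw [if_pos h2, he.phi_mul hm]
      simp only [Prod.ext_iff, h2, true_and]
    · rw [if_neg h2, if_neg fun h => h2 (congrArg Prod.fst h), zero_mul, map_zero]
  rw [map_sum]
  simp only [h1, Finset.sum_ite_eq, Finset.mem_univ, if_true, τ.phi_star_mul_self]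
  push_cast
  rfl

theorem MU.n2_rc_le [Nonempty K] (he : MU e) {y : K × K → A} (hy : ∀ q, y q ∈ Cm e) {M : ℝ}
    (hM : ∀ q, τ.n2 (y q) ≤ M) : τ.n2 (rc e y) ≤ 2 * M := by
  have h0 : (0 : ℝ) < Fintype.card K := by exact_mod_cast Fintype.card_pos
  have hs : 0 < √(Fintype.card K : ℝ) := Real.sqrt_pos.2 h0
  have hM0 : 0 ≤ M := (τ.n2_nonneg _).trans (hM (Classical.arbitrary _))
  have hω : ‖ω₀‖ ≤ 1 := by
    rw [ω₀, norm_div]
    have := norm_add_le (1 : ℂ) Complex.I
    simp only [norm_one, Complex.norm_I, Complex.norm_ofNat] at this ⊢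
    linarith
  set z : K × K → A := fun q =>
    ((√(Fintype.card K : ℝ) : ℝ) : ℂ)⁻¹ • (conj ω₀ • y q + ω₀ • y q.swap) with hz
  have hz1 : ∀ q, z q ∈ Cm e := fun q => SMulMemClass.smul_mem _
    (add_mem (SMulMemClass.smul_mem _ (hy _)) (SMulMemClass.smul_mem _ (hy _)))
  have hz2 : ∀ q, τ.n2 (z q) ^ 2 ≤ (Fintype.card K : ℝ)⁻¹ * (2 * M) ^ 2 := fun q => by
    have h1 : τ.n2 (conj ω₀ • y q + ω₀ • y q.swap) ≤ 2 * M := by
      refine (τ.n2_add_le _ _).trans ?_
      rw [τ.n2_smul, τ.n2_smul, Complex.norm_conj]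
      have a1 := mul_le_mul hω (hM q) (τ.n2_nonneg _) zero_le_one
      have a2 := mul_le_mul hω (hM q.swap) (τ.n2_nonneg _) zero_le_one
      linarith
    rw [hz]
    simp only
    rw [τ.n2_smul, norm_inv, Complex.norm_real, Real.norm_of_nonneg hs.le, mul_pow, inv_pow,
      Real.sq_sqrt h0.le]
    exact mul_le_mul_of_nonneg_left (pow_le_pow_left₀ (τ.n2_nonneg _) h1 2) (by positivity)
  refine le_of_sq_le_sq ?_ (by positivity)
  change τ.n2 (∑ q : K × K, z q * e q.1 q.2) ^ 2 ≤ _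
  rw [he.n2_sum_sq hz1]
  calc _ ≤ (Fintype.card K : ℝ)⁻¹ * ∑ _q : K × K, (Fintype.card K : ℝ)⁻¹ * (2 * M) ^ 2 :=
        mul_le_mul_of_nonneg_left (Finset.sum_le_sum fun q _ => hz2 q) (by positivity)
    _ = _ := by
        rw [Finset.sum_const, Finset.card_univ, Fintype.card_prod, nsmul_eq_mul]
        push_cast
        field_simp

theorem MU.vn_sub (he : MU e) (hτ : VN τ) : VN (sub τ (Cm e)) := by
  refine ⟨fun x hx => Subtype.ext (hτ.faithful _ hx), fun x C _ hC hc => ?_⟩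
  obtain ⟨y, -, h1, h2⟩ := hτ.top (fun n => (x n : A)) C (fun _ => trivial) hC hc
  have hy : y ∈ Cm e := by
    rw [he.mem_Cm]
    intro a b
    have h0 : Tendsto (fun _ : ℕ => τ.n2 (e a b - e a b)) atTop (𝓝 0) := by
      simp [τ.n2_zero]
    have h3 := tendsto_n2_mul (x := fun _ => e a b) (fun _ => le_rfl) h0 h2
    have h4 := tendsto_n2_mul (x := fun n => (x n : A)) (y := fun _ => e a b) hC h2 h0
    refine hτ.faithful.eq_of_tendsto h3 (h4.congr fun n => ?_)
    rw [he.mem_Cm.1 (x n).2]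
  exact ⟨⟨y, hy⟩, trivial, h1, h2⟩

theorem coe_mem_W {C : StarSubalgebra ℂ A} [IsClosed (C : Set A)] {S : Set C} {x : C}
    (hx : x ∈ W (sub τ C) S) : (x : A) ∈ W τ (Subtype.val '' S) := by
  intro ε hε
  obtain ⟨b, hb, h⟩ := hx ε hε
  exact ⟨b, map_adjoin_mem C.subtype hb, h⟩

theorem St.sub {C : StarSubalgebra ℂ A} [IsClosed (C : Set A)] {𝒜 : StarSubalgebra ℂ A} {u : C}
    (h : St τ 𝒜 (u : A)) {𝒜' : StarSubalgebra ℂ C} (h' : ∀ x ∈ 𝒜', (x : A) ∈ 𝒜) :
    St (sub τ C) 𝒜' u := by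
  intro L hL hm hA
  have e1 : ((wd u L : C) : A) = wd (u : A) (L.map fun p => ((p.1 : A), p.2)) := by
    clear hL hm hA
    induction L with
    | nil => rfl
    | cons p L ih =>
      simp only [wd, List.map_cons, List.prod_cons] at ih ⊢
      rw [← ih]
      cases p.2 <;> rfl
  rw [sub_phi, e1]
  refine h _ (by simpa using hL) (fun p hp => ?_) ?_
  · obtain ⟨p', hp', rfl⟩ := List.mem_map.1 hp
    exact h' _ (hm p' hp')
  · rw [Adm, List.isChain_map]
    exact hA

theorem MU.mem_W_sub [Nonempty K] (he : MU e) {S : Set (Cm e)} {x : Cm e}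
    (hx : (x : A) ∈ W τ (Subtype.val '' S ∪ mus e)) : x ∈ W (sub τ (Cm e)) S := by
  set D := (StarAlgebra.adjoin ℂ S).map (Cm e).subtype with hD
  have key : ∀ y ∈ StarAlgebra.adjoin ℂ (Subtype.val '' S ∪ mus e), ∀ a b, ent e a b y ∈ D := by
    intro y hy
    induction hy using StarAlgebra.adjoin_induction with
    | mem y hy =>
      intro a b
      rcases hy with ⟨s, hs, rfl⟩ | ⟨c, d, rfl⟩
      · rw [he.ent_of_mem s.2]
        split_ifs
        · exact ⟨s, StarAlgebra.subset_adjoin ℂ S hs, rfl⟩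
        · exact zero_mem _
      · rw [he.ent_e]
        split_ifs
        · exact one_mem _
        · exact zero_mem _
    | algebraMap r =>
      intro a b
      rw [he.ent_of_mem (algebraMap_mem _ r)]
      split_ifs
      · exact algebraMap_mem _ r
      · exact zero_mem _
    | add y z _ _ hy hz => intro a b; rw [ent_add]; exact add_mem (hy a b) (hz a b)
    | mul y z _ _ hy hz =>
      intro a b
      rw [he.ent_mul]
      exact sum_mem fun c _ => mul_mem (hy a c) (hz c b)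
    | star y _ hy => intro a b; rw [← he.star_ent]; exact star_mem (hy b a)
  obtain ⟨a⟩ := ‹Nonempty K›
  set C : ℝ := ∑ l, ‖e l a‖ * ‖e a l‖ with hC
  have hC0 : 0 ≤ C := Finset.sum_nonneg fun _ _ => by positivity
  have hlip : ∀ y, τ.n2 (ent e a a y) ≤ C * τ.n2 y := fun y => by
    rw [ent, hC, Finset.sum_mul]
    refine (τ.n2_sum_le _ _).trans (Finset.sum_le_sum fun l _ => ?_)
    refine (τ.n2_mul_le_right _ _).trans ?_
    have := mul_le_mul_of_nonneg_right (τ.n2_mul_le_left (e l a) y) (norm_nonneg (e a l))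
    linarith
  intro ε hε
  obtain ⟨y, hy, h⟩ := hx (ε / (C + 1)) (by positivity)
  obtain ⟨b, hb, hb'⟩ := key y hy a a
  refine ⟨b, hb, ?_⟩
  have e1 : ((x - b : Cm e) : A) = ent e a a ((x : A) - y) := by
    rw [ent_sub, ← hb', he.ent_of_mem x.2, if_pos rfl]
    rfl
  rw [sub_n2, e1]
  refine (hlip _).trans_lt ?_
  rw [lt_div_iff₀ (by positivity)] at h
  nlinarith [τ.n2_nonneg ((x : A) - y)]

theorem MU.lift (he : MU e) (hτ : VN τ) {S : Set (Cm e)} {θ : Cm e ≃⋆ₐ[ℂ] Cm e}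
    (hθ : θ ∈ TPF (sub τ (Cm e)) S) :
    ∃ Θ ∈ TPF τ (mus e), ∀ x : Cm e, Θ (x : A) = (θ x : A) := by
  let Y : Set A := insert 0 (insert 1 (mus e))
  have hYc : ∀ y ∈ Y, ∀ x : Cm e, y * x = x * y := by
    rintro y (rfl | rfl | ⟨a, b, rfl⟩) x
    · simp
    · simp
    · exact he.mem_Cm.1 x.2 a b
  have hYm : ∀ y ∈ Y, ∀ y' ∈ Y, y * y' ∈ Y := by
    rintro y hy y' hy'
    rcases hy with rfl | rfl | ⟨a, b, rfl⟩
    · rw [zero_mul]; exact Or.inl rfl
    · rwa [one_mul]
    · rcases hy' with rfl | rfl | ⟨c, d, rfl⟩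
      · rw [mul_zero]; exact Or.inl rfl
      · rw [mul_one]; exact Or.inr (Or.inr (e_mem_mus a b))
      · rw [he.mul]
        split_ifs
        · exact Or.inr (Or.inr (e_mem_mus _ _))
        · exact Or.inl rfl
  have hYs : ∀ y ∈ Y, star y ∈ Y := by
    rintro y (rfl | rfl | ⟨a, b, rfl⟩)
    · rw [star_zero]; exact Or.inl rfl
    · rw [star_one]; exact Or.inr (Or.inl rfl)
    · rw [he.adj]; exact Or.inr (Or.inr (e_mem_mus _ _))
  have hmul : ∀ y ∈ Y, ∀ (y' : A) (x x' : Cm e),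
      (x : A) * y * (x' * y') = ((x * x' : Cm e) : A) * (y * y') := fun y hy y' x x' => by
    rw [mul_assoc, ← mul_assoc y, hYc y hy, MulMemClass.coe_mul]
    simp only [mul_assoc]
  let G : Submonoid (A × A) :=
    { carrier := {g | ∃ x : Cm e, ∃ y ∈ Y, g = ((x : A) * y, (θ x : A) * y)}
      one_mem' := ⟨1, 1, Or.inr (Or.inl rfl), by simp [Prod.ext_iff]⟩
      mul_mem' := by
        rintro _ _ ⟨x, y, hy, rfl⟩ ⟨x', y', hy', rfl⟩
        refine ⟨x * x', y * y', hYm y hy y' hy', ?_⟩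
        rw [Prod.mk_mul_mk, hmul y hy, hmul y hy, map_mul] }
  have hgen : ∀ T : Set A, (∀ x : Cm e, ∀ a b, (x : A) * e a b ∈ T) → Gen τ T := by
    intro T hT x
    refine le_clo _ ?_
    rw [← he.sum_ent x]
    exact sum_mem fun q _ => StarAlgebra.subset_adjoin ℂ T (hT ⟨_, he.ent_mem q.1 q.2 x⟩ _ _)
  have hst : ∀ g ∈ G, star g ∈ G := by
    rintro _ ⟨x, y, hy, rfl⟩
    refine ⟨star x, star y, hYs y hy, ?_⟩
    rw [Prod.star_def, map_star, ← hYc _ (hYs y hy), ← hYc _ (hYs y hy)]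
    simp only [star_mul, StarMemClass.coe_star]
  have htr : ∀ g ∈ G, τ.φ g.1 = τ.φ g.2 := by
    rintro _ ⟨x, y, hy, rfl⟩
    have h0 : τ.φ (θ x : A) = τ.φ (x : A) := hθ.1 x
    rcases hy with rfl | rfl | ⟨a, b, rfl⟩
    · simp
    · simp [h0]
    · change τ.φ (_ * _) = τ.φ (_ * _)
      rw [τ.comm, τ.comm (θ x : A), he.phi_mul x.2, he.phi_mul (θ x).2, h0]
  obtain ⟨Θ, h1, h2⟩ := ext_iso hτ hτ G hst htr
    (hgen _ fun x a b => ⟨_, ⟨x, e a b, Or.inr (Or.inr (e_mem_mus a b)), rfl⟩, rfl⟩)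
    (hgen _ fun x a b => ⟨_, ⟨θ.symm x, e a b, Or.inr (Or.inr (e_mem_mus a b)), rfl⟩, by simp⟩)
  refine ⟨Θ, ⟨h1, ?_⟩, fun x => ?_⟩
  · rintro _ ⟨a, b, rfl⟩
    simpa using h2 _ ⟨1, e a b, Or.inr (Or.inr (e_mem_mus a b)), rfl⟩
  · simpa using h2 _ ⟨x, 1, Or.inr (Or.inl rfl), rfl⟩

end Crest.Agent.R134
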