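import Crest.Agent.R134.Cre
import Crest.Agent.R134.Mat
import Crest.Agent.R134.Arcs

/-!
# Row 134: amplification of creation operators, matrix units (task R134-Amp)

PLANS.  `k = card K`.
* `Cre1.amp`: `l' i j = √k • ∑ a, ι (e a i) * l * ι (e j a)`.  For `y ∈ N ⊓ Cm e`:
  `star (l' i j) * ι y * l' i' j' = k ∑_{a,a'} τ (e i a * y * e a' i') • ι (e a j * e j' a')
  = if (i, j) = (i', j') then τ y • 1 else 0` (`MU.phi_mul`).  `L (i, j) = ω₀ • l' i j + conj ω₀ • l' j i`;
  `ω₀ conj ω₀ = 1/2`, `ω₀² + (conj ω₀)² = 0`.  `l' i j + star (l' j i) = √k • ι (ent e i j x)`.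
* `Cre1.swap`: `L = √k • ∑ b, ι (p (σ b)) * l * ι (p b)`.
* `exists_MU`: fix `o : K`; for `a : K` let `σ = Equiv.swap o a`, `Y a` the element of `Cre1.swap`; it is
  semicircular (`Cre1.semi`), `Y a * p b = p (σ b) * Y a`; `V a` from `Semi.sign`; `v a = V a * p o`,
  `star (v a) * v b = if a = b then p o else 0`, `v a * star (v a) = p a`; `e a b = v a * star (v b)`.
-/

set_option autoImplicit false

namespace Crest.Agent.R134

open Crest.Agent.R95 Filter Topology
open scoped ComplexConjugate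

universe u v

variable {A : Type u} [CStarAlgebra A] {B : Type v} [CStarAlgebra B] {τ : Tr A}
  {ι : A →⋆ₐ[ℂ] B} {ω : B →ₗ[ℂ] ℂ} {N : StarSubalgebra ℂ A} {l : B} {x : A}
  {K : Type} [Fintype K] [DecidableEq K] [Nonempty K]

/-- `∑ ι (c a) * l * ι (d a)` -/
noncomputable def ampOp (ι : A →⋆ₐ[ℂ] B) (l : B) (c d : K → A) : B := ∑ a, ι (c a) * l * ι (d a)

omit [DecidableEq K] [Nonempty K] in
theorem star_ampOp (c d : K → A) :
    star (ampOp ι l c d) = ∑ a, ι (star (d a)) * star l * ι (star (c a)) := by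
  simp only [ampOp, star_sum, star_mul, map_star, mul_assoc]

omit [DecidableEq K] [Nonempty K] in
theorem Cre1.ampOp_rel (h : Cre1 τ ι ω N l x) {c c' : K → A} (d d' : K → A) (hc : ∀ a, c a ∈ N)
    (hc' : ∀ a, c' a ∈ N) {y : A} (hy : y ∈ N) :
    star (ampOp ι l c d) * ι y * ampOp ι l c' d' =
      ∑ a, ∑ a', τ.φ (star (c a) * y * c' a') • ι (star (d a) * d' a') := by
  rw [star_ampOp, ampOp, Finset.sum_mul, Finset.sum_mul]
  refine Finset.sum_congr rfl fun a _ => ?_
  rw [Finset.mul_sum]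
  refine Finset.sum_congr rfl fun a' _ => ?_
  have := h.rel _ (mul_mem (mul_mem (star_mem (hc a)) hy) (hc' a'))
  calc ι (star (d a)) * star l * ι (star (c a)) * ι y * (ι (c' a') * l * ι (d' a'))
      = ι (star (d a)) * (star l * ι (star (c a) * y * c' a') * l) * ι (d' a') := by
        simp only [map_mul, mul_assoc]
    _ = _ := by rw [this, mul_smul_comm, smul_mul_assoc, mul_one, map_mul ι (star (d a))]

omit [DecidableEq K] [Nonempty K] in
theorem Cre1.ampOp_vac (h : Cre1 τ ι ω N l x) {c : K → A} (d : K → A) (hc : ∀ a, c a ∈ N)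
    (T : B) {y : A} (hy : y ∈ N) : ω (T * star (ampOp ι l c d) * ι y) = 0 := by
  rw [star_ampOp, Finset.mul_sum, Finset.sum_mul, map_sum]
  refine Finset.sum_eq_zero fun a _ => ?_
  rw [← h.vac (T * ι (star (d a))) _ (mul_mem (star_mem (hc a)) hy)]
  simp only [map_mul, mul_assoc]

omit [DecidableEq K] [Nonempty K] in
theorem Cre1.ampOp_gen (h : Cre1 τ ι ω N l x) (c d : K → A) :
    ι (∑ a, c a * x * d a) =
      ampOp ι l c d + star (ampOp ι l (fun a => star (d a)) fun a => star (c a)) := by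
  rw [star_ampOp, ampOp, map_sum, ← Finset.sum_add_distrib]
  refine Finset.sum_congr rfl fun a _ => ?_
  rw [map_mul, map_mul, h.gen, star_star, star_star, mul_add, add_mul]

omit [DecidableEq K] in
theorem amp_sqrt_sq : (√(Fintype.card K : ℝ) : ℂ) * (√(Fintype.card K : ℝ) : ℂ) *
    (Fintype.card K : ℂ)⁻¹ = 1 := by
  rw [← Complex.ofReal_mul, Real.mul_self_sqrt (Nat.cast_nonneg _), Complex.ofReal_natCast]
  exact mul_inv_cancel₀ (Nat.cast_ne_zero.2 Fintype.card_ne_zero)

theorem amp_om1 : conj ω₀ * ω₀ + ω₀ * conj ω₀ = 1 := by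
  simp only [ω₀, map_div₀, map_add, map_one, Complex.conj_I, map_ofNat]
  linear_combination (-1 / 2 : ℂ) * Complex.I_mul_I

theorem amp_om2 : conj ω₀ * conj ω₀ + ω₀ * ω₀ = 0 := by
  simp only [ω₀, map_div₀, map_add, map_one, Complex.conj_I, map_ofNat]
  linear_combination (1 / 2 : ℂ) * Complex.I_mul_I

omit [Nonempty K] in
theorem Cre1.amp_rel (h : Cre1 τ ι ω N l x) {e : K → K → A} (he : MU e) (heN : ∀ a b, e a b ∈ N)
    {y : A} (hy : y ∈ N ⊓ Cm e) (i j i' j' : K) :
    star (ampOp ι l (fun a => e a i) fun a => e j a) * ι y *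
        ampOp ι l (fun a => e a i') (fun a => e j' a) =
      (if (i, j) = (i', j') then (Fintype.card K : ℂ)⁻¹ * τ.φ y else 0) • (1 : B) := by
  rw [h.ampOp_rel _ _ (fun a => heN a i) (fun a => heN a i') hy.1]
  have e1 : ∀ a a', τ.φ (star (e a i) * y * e a' i') =
      if a' = a then (if i = i' then (Fintype.card K : ℂ)⁻¹ * τ.φ y else 0) else 0 := by
    intro a a'
    rw [τ.comm, ← mul_assoc, he.adj, he.mul]
    by_cases h1 : i = i'
    · subst h1
      simp only [if_true]
      exact he.phi_mul hy.2 a' a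
    · simp [h1, Ne.symm h1]
  simp only [e1]
  simp only [ite_smul, zero_smul, Finset.sum_ite_eq', Finset.mem_univ, if_true, he.adj, he.mul]
  by_cases h1 : i = i' <;> by_cases h2 : j = j'
  · subst h1 h2
    simp only [if_true]
    rw [← Finset.smul_sum, ← map_sum, he.sum, map_one]
  · simp [h2]
  · simp [h1]
  · simp [h1]

theorem Cre1.amp (h : Cre1 τ ι ω N l x) {e : K → K → A} (he : MU e) (heN : ∀ a b, e a b ∈ N) :
    ∃ L : K × K → B, Cre τ ι ω (N ⊓ Cm e) L (Xc e x) := by
  set l' : K → K → B := fun i j => ampOp ι l (fun a => e a i) fun a => e j a with hl'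
  set s : ℂ := (√(Fintype.card K : ℝ) : ℂ) with hs
  have hss : star s = s := Complex.conj_ofReal _
  let L : K × K → B := fun q => s • (ω₀ • l' q.1 q.2 + conj ω₀ • l' q.2 q.1)
  have hL : ∀ q, star (L q) = s • (conj ω₀ • star (l' q.1 q.2) + ω₀ • star (l' q.2 q.1)) := by
    intro q
    simp only [L, star_smul, star_add, hss, RCLike.star_def, Complex.conj_conj]
  have key : ∀ q q', ∀ y ∈ N ⊓ Cm e,
      star (L q) * ι y * L q' = (if q = q' then τ.φ y else 0) • (1 : B) := by
    rintro ⟨i, j⟩ ⟨i', j'⟩ y hy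
    rw [hL]
    simp only [L, smul_mul_assoc, mul_smul_comm, add_mul, mul_add, hl', h.amp_rel he heN hy,
      smul_smul, ← add_smul]
    congr 1
    have h3 : ((j, i) = (j', i')) = ((i, j) = (i', j')) := by simp [and_comm]
    have h4 : ((j, i) = (i', j')) = ((i, j) = (j', i')) := by simp [and_comm]
    simp only [h3, h4]
    have k1 := amp_sqrt_sq (K := K)
    rw [← hs] at k1
    split_ifs
    · linear_combination (τ.φ y) * k1 +
        (s * s * (Fintype.card K : ℂ)⁻¹ * τ.φ y) * (amp_om1 + amp_om2)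
    · linear_combination (τ.φ y) * k1 + (s * s * (Fintype.card K : ℂ)⁻¹ * τ.φ y) * amp_om1
    · linear_combination (s * s * (Fintype.card K : ℂ)⁻¹ * τ.φ y) * amp_om2
    · ring
  refine ⟨L, fun q => ⟨fun y hy => by rw [key q q y hy, if_pos rfl], fun T y hy => ?_, ?_⟩,
    fun q q' hq y hy => by rw [key q q' y hy, if_neg hq, zero_smul]⟩
  · rw [hL]
    simp only [smul_mul_assoc, mul_smul_comm, add_mul, mul_add, map_add, map_smul, hl',
      h.ampOp_vac _ (fun a => heN a _) T hy.1, smul_zero, add_zero]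
  · have g : ∀ i j, ι (ent e i j x) = l' i j + star (l' j i) := by
      intro i j
      rw [ent, h.ampOp_gen]
      simp only [he.adj, hl']
    rw [hL, Xc, map_smul, map_add, map_smul, map_smul, g, g]
    simp only [L, smul_add, ← hs]
    abel

omit [Nonempty K] in
theorem PU.amp_mul {p : K → A} (hp : PU τ p) (a b : K) : p a * p b = if a = b then p a else 0 := by
  split_ifs with h
  · subst h; exact (hp.proj a).isIdempotentElem.eq
  · exact hp.orth a b h

theorem Cre1.swap (h : Cre1 τ ι ω N l x) {p : K → A} (hp : PU τ p) (hpN : ∀ a, p a ∈ N)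
    (σ : K ≃ K) (hσ : ∀ a, σ (σ a) = a) :
    ∃ L : B, Cre1 τ ι ω ⊥ L ((√(Fintype.card K : ℝ) : ℂ) • ∑ b, p (σ b) * x * p b) := by
  set s : ℂ := (√(Fintype.card K : ℝ) : ℂ) with hs
  have hss : star s = s := Complex.conj_ofReal _
  have hsa : ∀ a, star (p a) = p a := fun a => (hp.proj a).isSelfAdjoint.star_eq
  refine ⟨s • ampOp ι l (fun b => p (σ b)) p, fun y hy => ?_, fun T y hy => ?_, ?_⟩
  · have hyN : y ∈ N := (bot_le : ⊥ ≤ N) hy
    obtain ⟨c, rfl⟩ : ∃ c : ℂ, algebraMap ℂ A c = y := hy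
    rw [star_smul, hss, smul_mul_assoc, smul_mul_assoc, mul_smul_comm,
      h.ampOp_rel _ _ (fun a => hpN _) (fun a => hpN _) hyN]
    have e1 : ∀ a a', τ.φ (star (p (σ a)) * algebraMap ℂ A c * p (σ a')) • ι (star (p a) * p a') =
        if a' = a then (c * (Fintype.card K : ℂ)⁻¹) • ι (p a) else 0 := by
      intro a a'
      rw [hsa, hsa, Algebra.algebraMap_eq_smul_one, mul_smul_comm, mul_one, smul_mul_assoc, map_smul]
      split_ifs with h1
      · subst h1
        rw [(hp.proj _).isIdempotentElem.eq, (hp.proj _).isIdempotentElem.eq, hp.tr, smul_eq_mul]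
      · rw [hp.orth a a' (Ne.symm h1), map_zero, smul_zero]
    simp only [e1, Finset.sum_ite_eq', Finset.mem_univ, if_true]
    rw [← Finset.smul_sum, ← map_sum, hp.sum, map_one, smul_smul, smul_smul,
      Algebra.algebraMap_eq_smul_one, map_smul, τ.one]
    congr 1
    have k1 := amp_sqrt_sq (K := K)
    rw [← hs] at k1
    rw [smul_eq_mul]
    linear_combination c * k1
  · rw [star_smul, mul_smul_comm, smul_mul_assoc, map_smul,
      h.ampOp_vac _ (fun a => hpN _) T ((bot_le : ⊥ ≤ N) hy), smul_zero]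
  · rw [map_smul, h.ampOp_gen, star_smul, hss, smul_add]
    congr 3
    simp only [hsa, ampOp]
    rw [← Equiv.sum_comp σ]
    simp only [hσ]

theorem Cre1.exists_MU (hτ : VN τ) (hr : Rep τ ι ω) (h : Cre1 τ ι ω N l x) {p : K → A}
    (hp : PU τ p) (hpN : ∀ a, p a ∈ N) :
    ∃ e : K → K → A, MU e ∧ (∀ a, e a a = p a) ∧ ∀ a b, e a b ∈ W τ (Set.range p ∪ {x}) := by
  obtain ⟨o⟩ := ‹Nonempty K›
  have hsa : ∀ a, star (p a) = p a := fun a => (hp.proj a).isSelfAdjoint.star_eq
  have hpW : ∀ a, p a ∈ W τ (Set.range p ∪ {x}) := fun a => mem_W (Or.inl ⟨a, rfl⟩)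
  have key : ∀ a, ∃ V ∈ W τ (Set.range p ∪ {x}), IsSelfAdjoint V ∧ V * V = 1 ∧
      V * p o = p a * V := by
    intro a
    obtain ⟨L, hL⟩ := h.swap hp hpN (Equiv.swap o a) (Equiv.swap_apply_self o a)
    obtain ⟨V, hV, h1, h2, h3⟩ := (hL.semi hτ.faithful hr).sign hτ
    have e : ∀ b, ((√(Fintype.card K : ℝ) : ℂ) • ∑ b, p (Equiv.swap o a b) * x * p b) * p b =
        p (Equiv.swap o a b) *
          ((√(Fintype.card K : ℝ) : ℂ) • ∑ b, p (Equiv.swap o a b) * x * p b) := by
      intro b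
      rw [smul_mul_assoc, mul_smul_comm, Finset.sum_mul, Finset.mul_sum]
      congr 1
      refine Finset.sum_congr rfl fun b' _ => ?_
      rw [mul_assoc, ← mul_assoc (p _), ← mul_assoc (p _), hp.amp_mul, hp.amp_mul]
      by_cases hb : b' = b
      · subst hb; simp
      · simp [hb, Ne.symm hb]
    refine ⟨V, W_le_W ?_ hV, h1, h2, h3 _ _ (by simpa using e o) (by simpa using e a)⟩
    rintro _ rfl
    exact SMulMemClass.smul_mem _ (sum_mem fun b _ =>
      mul_mem (mul_mem (hpW _) (mem_W (Or.inr rfl))) (hpW _))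
  choose V hV h1 h2 h3 using key
  have h4 : ∀ a, p o * V a = V a * p a := fun a => by
    have := congrArg star (h3 a)
    rwa [star_mul, star_mul, hsa, hsa, (h1 a).star_eq] at this
  have h5 : ∀ a b, V a * p a * (p b * V b) = if a = b then p o else 0 := by
    intro a b
    rw [mul_assoc, ← mul_assoc (p a), hp.amp_mul]
    split_ifs with hab
    · subst hab
      rw [← h3, ← mul_assoc, h2, one_mul]
    · simp
  have h6 : ∀ a, p a * V a * (V a * p a) = p a := fun a => by
    rw [mul_assoc, ← mul_assoc (V a), h2, one_mul, (hp.proj a).isIdempotentElem.eq]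
  refine ⟨fun a b => p a * V a * (V b * p b), ⟨fun a b c d => ?_, fun a b => ?_, ?_⟩, h6,
    fun a b => mul_mem (mul_mem (hpW a) (hV a)) (mul_mem (hV b) (hpW b))⟩
  · calc p a * V a * (V b * p b) * (p c * V c * (V d * p d))
        = p a * V a * (V b * p b * (p c * V c)) * (V d * p d) := by simp only [mul_assoc]
      _ = _ := by
        rw [h5]
        split_ifs
        · rw [← h3, mul_assoc (V a), (hp.proj o).isIdempotentElem.eq]
        · simp
  · simp only [star_mul, hsa, (h1 _).star_eq, mul_assoc]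
  · simp only [h6, hp.sum]

end Crest.Agent.R134
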