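import Crest.Agent.R134.Level

/-!
# Row 134: the limit argument (task R134-Baire)

PLANS.
* `baire`: copy the recursion of `Crest.Agent.R95.Irr.exists_limit` (file R95/Dense.lean; `approx_open`
  there, or `approx_fam`), with targets `x (unpair n).1` and tolerances `1/((unpair n).2+1)`.
* `Model.step`: `R t = (t - I • 1) * Wk.res 1 t` is the inverse of `t + I • 1` for self-adjoint `t`
  (`Wk.res_mul`, `Wk.mul_res`, `Wk.res_comm`), `‖R t‖ ≤ 2`, `n2 (R s - R t) ≤ 4 n2 (s - t)`, `R t` lies in every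
  closed subalgebra containing `t` (`cfc_mem`) and conversely (`StarSubalgebra.isUnit_coe_inv_mem`).  So
  `y ∈ W τ (S ∪ range ![a, R (X i₀)])`, `S = X '' {i₀, i₁}ᶜ`, `a = hu (X i₁)` (`Semi.mem`, `Cre1.semi`).  Take
  `δ'` from `approx_fam` (`C = 2`), `θ, y'` from `Model.level`, replace `y'` by its self-adjoint part;
  `θ y' ∈ W τ (S ∪ {θ a})` (`tpf_map_W`, `X i₁ ∈ W τ {a}`), so `R (θ y')` is there too.
* `Model.exists_gen`: `U = {θ a | θ ∈ TPF τ S}`; for `v = θ a` apply `Model.step` to `θ⁻¹ y` and use `θ * σ`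
  (`map_adjoin_mem`).  Targets `X i₀`, `X i₁`.  `FH`: `Model.fh`, `FH.map`, `FH.comp`, `FH.limit`; `θ` fixes
  `hu (X i)` for `i ∉ {i₀, i₁}` (`tpf_fix_W`, `hu_mem`).
* `Model.fh`: `fh_of_st`, `Free.st`, `Cre1.free`, `Free.mono`, `Semi.unif`, `Unif.ex_pow`.
-/

set_option autoImplicit false

namespace Crest.Agent.R134

open Crest.Agent.R95 Filter Topology
open scoped ComplexConjugate

universe u v

variable {A : Type u} [CStarAlgebra A] {B : Type v} [CStarAlgebra B] {τ : Tr A}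
  {ι : A →⋆ₐ[ℂ] B} {ω : B →ₗ[ℂ] ℂ} {I : Type*} {l : I → B} {X : I → A}

theorem approx_one (S : Set A) {u p : A} (hp : p ∈ W τ (S ∪ {u})) {ε : ℝ} (hε : 0 < ε) :
    ∃ δ > 0, ∀ v ∈ unitary A, τ.n2 (v - u) < δ →
      ∃ p' ∈ StarAlgebra.adjoin ℂ (S ∪ {v}), τ.n2 (p - p') < ε := by
  have e : ∀ v : A, Set.range (fun _ : Unit => v) = {v} := fun v => Set.range_const
  obtain ⟨δ, hδ, h⟩ := approx_fam (S := S) (x := fun _ : Unit => u) (C := 1) (by rwa [e]) hε
  refine ⟨δ, hδ, fun v hv hvu => ?_⟩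
  have := h (fun _ => v) (fun _ => (τ.norm_unitary hv).le) fun _ => hvu
  rwa [e] at this

theorem baire (hτ : VN τ) (S U : Set A) (hU : ∀ v ∈ U, v ∈ unitary A) {a : A} (ha : a ∈ U)
    (step : ∀ v ∈ U, ∀ y : A, ∀ δ > 0, ∀ ε > 0, ∃ v' ∈ U, τ.n2 (v' - v) < δ ∧
      ∃ p ∈ StarAlgebra.adjoin ℂ (S ∪ {v'}), τ.n2 (y - p) < ε) (x : ℕ → A) :
    ∃ v ∈ unitary A, (∃ w : ℕ → A, (∀ n, w n ∈ U) ∧
      Tendsto (fun n => τ.n2 (w n - v)) atTop (𝓝 0)) ∧ ∀ n, x n ∈ W τ (S ∪ {v}) := by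
  set tol : ℕ → ℝ := fun n => 1 / (((Nat.unpair n).2 : ℝ) + 1) with htol'
  have htol : ∀ n, 0 < tol n := fun n => by positivity
  have step' : ∀ (n : ℕ) (q : {q : A × ℝ // q.1 ∈ U ∧ 0 < q.2}),
      ∃ q' : {q : A × ℝ // q.1 ∈ U ∧ 0 < q.2},
        τ.n2 (q'.1.1 - q.1.1) ≤ q.1.2 / 2 ∧ q'.1.2 ≤ q.1.2 / 2 ∧
        ∀ w ∈ unitary A, τ.n2 (w - q'.1.1) ≤ q'.1.2 →
          ∃ p ∈ StarAlgebra.adjoin ℂ (S ∪ {w}), τ.n2 (x (Nat.unpair n).1 - p) < tol n := by
    intro n q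
    obtain ⟨v, hv, hvq, p, hp, hxp⟩ := step _ q.2.1 (x (Nat.unpair n).1) _ (half_pos q.2.2) _
      (half_pos (htol n))
    obtain ⟨δ, hδ, hop⟩ := approx_one (τ := τ) S (adjoin_le_W _ hp) (half_pos (htol n))
    refine ⟨⟨(v, min (q.1.2 / 2) (δ / 2)), hv, lt_min (half_pos q.2.2) (half_pos hδ)⟩, hvq.le,
      min_le_left _ _, fun w hw hwv => ?_⟩
    obtain ⟨p', hp', hpp⟩ := hop w hw (hwv.trans_lt ((min_le_right _ _).trans_lt (half_lt_self hδ)))
    exact ⟨p', hp', (τ.n2_triangle _ p _).trans_lt (by linarith)⟩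
  choose f hf1 hf2 hf3 using step'
  let q : ℕ → {q : A × ℝ // q.1 ∈ U ∧ 0 < q.2} := fun n =>
    Nat.rec ⟨(a, 1), ha, one_pos⟩ (fun n q => f n q) n
  have hq : ∀ n, q (n + 1) = f n (q n) := fun n => rfl
  have hdist : ∀ n k, τ.n2 ((q (n + k)).1.1 - (q n).1.1) ≤ (q n).1.2 - (q (n + k)).1.2 := by
    intro n k
    induction k with
    | zero => simp [τ.n2_zero]
    | succ k ih =>
      have h1 := τ.n2_triangle (q (n + k + 1)).1.1 (q (n + k)).1.1 (q n).1.1
      have h2 := hf1 (n + k) (q (n + k))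
      have h3 := hf2 (n + k) (q (n + k))
      rw [← hq] at h2 h3
      rw [← add_assoc]
      linarith
  have hdist' : ∀ n m, n ≤ m → τ.n2 ((q m).1.1 - (q n).1.1) ≤ (q n).1.2 := by
    intro n m hnm
    obtain ⟨k, rfl⟩ := Nat.exists_eq_add_of_le hnm
    have := hdist n k
    linarith [(q (n + k)).2.2]
  have hr : ∀ n, (q n).1.2 ≤ (1 / 2) ^ n := by
    intro n
    induction n with
    | zero => simp [q]
    | succ n ih =>
      have h3 := hf2 n (q n)
      rw [← hq] at h3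
      rw [pow_succ]
      linarith
  obtain ⟨v, -, -, hv⟩ := hτ.top (fun n => (q n).1.1) 1 (fun _ => trivial)
    (fun n => (τ.norm_unitary (hU _ (q n).2.1)).le) (by
      intro η hη
      obtain ⟨n₀, hn₀⟩ := exists_pow_lt_of_lt_one (half_pos hη) (by norm_num : (1 / 2 : ℝ) < 1)
      refine ⟨n₀, fun m hm n hn => ?_⟩
      have h1 := τ.n2_triangle (q m).1.1 (q n₀).1.1 (q n).1.1
      have h2 := hdist' n₀ m hm
      have h3 := hdist' n₀ n hn
      rw [τ.n2_sub_comm] at h3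
      have h4 := hr n₀
      linarith)
  have hvu : v ∈ unitary A := mem_unitary_of_tendsto hτ.faithful (fun n => hU _ (q n).2.1) hv
  have hvq : ∀ n, τ.n2 (v - (q n).1.1) ≤ (q n).1.2 := by
    intro n
    have h1 : Tendsto (fun m => τ.n2 ((q m).1.1 - v) + (q n).1.2) atTop (𝓝 (0 + (q n).1.2)) :=
      hv.add_const _
    rw [zero_add] at h1
    refine ge_of_tendsto h1 (eventually_atTop.2 ⟨n, fun m hm => ?_⟩)
    have h2 := τ.n2_triangle v (q m).1.1 (q n).1.1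
    rw [τ.n2_sub_comm v (q m).1.1] at h2
    linarith [hdist' n m hm]
  refine ⟨v, hvu, ⟨fun n => (q n).1.1, fun n => (q n).2.1, hv⟩, fun n η hη => ?_⟩
  obtain ⟨k, hk⟩ := exists_nat_one_div_lt hη
  obtain ⟨p, hp, hlt⟩ := hf3 (Nat.pair n k) (q _) v hvu (hvq (Nat.pair n k + 1))
  simp only [htol', Nat.unpair_pair] at hlt
  exact ⟨p, hp, hlt.trans hk⟩

theorem Model.fh (h : Model τ ι ω l X) : FH τ (fun i => hu (X i)) := by
  refine fh_of_st fun i => ?_
  have h1 := (h.cre i).free h.vn.faithful h.rep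
  refine Free.st (h1.mono ?_ le_rfl) (hu_mem (isClosed_W _) (mem_W rfl))
    (h.semi i).unif.ex_pow
  refine le_trans ?_ (le_clo _)
  refine StarAlgebra.adjoin_le ?_
  rintro _ ⟨j, hj, rfl⟩
  exact hu_mem (isClosed_W _) (mem_W ⟨j, hj, rfl⟩)

theorem Model.gen_hu (h : Model τ ι ω l X) : Gen τ (Set.range fun i => hu (X i)) := by
  refine gen_of_subset h.gen ?_
  rintro _ ⟨i, rfl⟩
  refine W_mono ?_ (h.semi i).mem
  rintro _ rfl
  exact ⟨i, rfl⟩

/-- the resolvent `(t + i)⁻¹` -/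
noncomputable def rsv (t : A) : A := fc (fun x => ((x : ℂ) + Complex.I)⁻¹) t

theorem add_I_ne (x : ℝ) : (x : ℂ) + Complex.I ≠ 0 := fun h => by
  simpa using congrArg Complex.im h

theorem cont_rsv : Continuous fun x : ℝ => ((x : ℂ) + Complex.I)⁻¹ :=
  Continuous.inv₀ (by fun_prop) add_I_ne

theorem add_I_eq {t : A} (ht : IsSelfAdjoint t) :
    fc (fun x => (x : ℂ) + Complex.I) t = t + Complex.I • (1 : A) := by
  rw [fc_add (by fun_prop) (by fun_prop), fc_id ht, fc_const ht]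

theorem rsv_mul {t : A} (ht : IsSelfAdjoint t) : rsv t * (t + Complex.I • (1 : A)) = 1 := by
  rw [← add_I_eq ht, rsv, ← fc_mul cont_rsv (by fun_prop), ← fc_one ht]
  congr 1
  funext x
  exact inv_mul_cancel₀ (add_I_ne x)

theorem mul_rsv {t : A} (ht : IsSelfAdjoint t) : (t + Complex.I • (1 : A)) * rsv t = 1 := by
  rw [← add_I_eq ht, rsv, ← fc_mul (by fun_prop) cont_rsv, ← fc_one ht]
  congr 1
  funext x
  exact mul_inv_cancel₀ (add_I_ne x)

theorem norm_rsv_le (t : A) : ‖rsv t‖ ≤ 1 := by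
  refine norm_fc_le zero_le_one fun x _ => ?_
  rw [norm_inv]
  refine inv_le_one_of_one_le₀ ?_
  simpa using Complex.abs_im_le_norm ((x : ℂ) + Complex.I)

theorem n2_rsv_sub {s t : A} (hs : IsSelfAdjoint s) (ht : IsSelfAdjoint t) :
    τ.n2 (rsv s - rsv t) ≤ τ.n2 (t - s) := by
  have e : rsv s - rsv t = rsv s * (t - s) * rsv t := by
    have : t - s = (t + Complex.I • (1 : A)) - (s + Complex.I • (1 : A)) := by abel
    rw [this, mul_sub, sub_mul, rsv_mul hs, one_mul, mul_assoc, mul_rsv ht, mul_one]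
  rw [e]
  calc τ.n2 (rsv s * (t - s) * rsv t) ≤ τ.n2 (rsv s * (t - s)) * ‖rsv t‖ := τ.n2_mul_le_right _ _
    _ ≤ τ.n2 (rsv s * (t - s)) := mul_le_of_le_one_right (τ.n2_nonneg _) (norm_rsv_le t)
    _ ≤ ‖rsv s‖ * τ.n2 (t - s) := τ.n2_mul_le_left _ _
    _ ≤ _ := mul_le_of_le_one_left (τ.n2_nonneg _) (norm_rsv_le s)

theorem mem_of_rsv_mem {N : StarSubalgebra ℂ A} (hN : IsClosed (N : Set A)) {t : A}
    (ht : IsSelfAdjoint t) (h : rsv t ∈ N) : t ∈ N := by
  have h1 : IsUnit ((⟨rsv t, h⟩ : N) : A) := ⟨⟨_, _, rsv_mul ht, mul_rsv ht⟩, rfl⟩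
  obtain ⟨r, hr⟩ := ((N.coe_isUnit (hS := hN)).1 h1).exists_left_inv
  have h2 : (r : A) * rsv t = 1 := congrArg Subtype.val hr
  have h3 : t + Complex.I • (1 : A) = r := by
    calc t + Complex.I • (1 : A) = (r : A) * rsv t * (t + Complex.I • (1 : A)) := by
          rw [h2, one_mul]
      _ = r := by rw [mul_assoc, rsv_mul ht, mul_one]
  have h4 : t = r - Complex.I • (1 : A) := by rw [← h3]; abel
  rw [h4]
  exact sub_mem r.2 (SMulMemClass.smul_mem _ (one_mem N))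

theorem Model.step (h : Model τ ι ω l X) {i₀ i₁ i₂ : I} (h01 : i₀ ≠ i₁) (h02 : i₀ ≠ i₂)
    (h12 : i₁ ≠ i₂) (y : A) {δ ε : ℝ} (hδ : 0 < δ) (hε : 0 < ε) :
    ∃ θ ∈ TPF τ (X '' {i₀, i₁}ᶜ), τ.n2 (θ (hu (X i₁)) - hu (X i₁)) < δ ∧
      ∃ p ∈ StarAlgebra.adjoin ℂ (X '' {i₀, i₁}ᶜ ∪ {θ (hu (X i₁))}), τ.n2 (y - p) < ε := by
  classical
  set S := X '' {i₀, i₁}ᶜ with hS
  set a := hu (X i₁) with ha
  have hy : y ∈ W τ (S ∪ Set.range ![a, rsv (X i₀)]) := by
    refine gen_of_subset h.gen ?_ y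
    rintro _ ⟨i, rfl⟩
    by_cases h0 : i = i₀
    · subst h0
      exact mem_of_rsv_mem (isClosed_W _) (h.semi i).sa (mem_W (Or.inr ⟨1, rfl⟩))
    by_cases h1 : i = i₁
    · subst h1
      refine W_mono ?_ (h.semi i).mem
      rintro _ rfl
      exact Or.inr ⟨0, rfl⟩
    exact mem_W (Or.inl ⟨i, by simp [h0, h1], rfl⟩)
  obtain ⟨δ', hδ', hap⟩ := approx_fam (C := 1) hy (half_pos hε)
  obtain ⟨θ, hθ, hθa, y', hy', hXy⟩ := h.level h01 h02 h12 hδ' (lt_min hδ hδ')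
  have hy'' : θ y' ∈ W τ (S ∪ {θ a}) := by
    have h1 : y' ∈ W τ (S ∪ {a}) := by
      refine W_le_W ?_ hy'
      rintro _ ⟨i, h0, rfl⟩
      by_cases h1 : i = i₁
      · subst h1
        exact W_mono Set.subset_union_right (h.semi i).mem
      exact mem_W (Or.inl ⟨i, by simpa [h1] using h0, rfl⟩)
    refine W_mono ?_ (tpf_map_W hθ h1)
    rintro _ ⟨s, hs | rfl, rfl⟩
    · rw [hθ.2 s hs]; exact Or.inl hs
    · exact Or.inr rfl
  set t : A := (2⁻¹ : ℂ) • (θ y' + star (θ y')) with ht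
  have htsa : IsSelfAdjoint t := by
    rw [IsSelfAdjoint, ht, star_smul, star_add, star_star, add_comm]
    simp
  have htW : t ∈ W τ (S ∪ {θ a}) := SMulMemClass.smul_mem _ (add_mem hy'' (star_mem hy''))
  have htX : τ.n2 (X i₀ - t) < δ' := by
    have e : X i₀ - t = (2⁻¹ : ℂ) • ((X i₀ - θ y') + star (X i₀ - θ y')) := by
      rw [star_sub, (h.semi i₀).sa.star_eq, ht]
      module
    have h1 := τ.n2_add_le (X i₀ - θ y') (star (X i₀ - θ y'))
    rw [τ.n2_star] at h1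
    rw [e, τ.n2_smul]
    simp only [norm_inv, Complex.norm_ofNat]
    linarith
  obtain ⟨z, hz, hyz⟩ := hap ![θ a, rsv t] (fun i => by
      fin_cases i
      · exact (τ.norm_unitary (aut_unitary θ (hu_unitary _))).le
      · exact norm_rsv_le t) (fun i => by
      fin_cases i
      · exact hθa.trans_le (min_le_right _ _)
      · exact (n2_rsv_sub htsa (h.semi i₀).sa).trans_lt htX)
  have hzW : z ∈ W τ (S ∪ {θ a}) := by
    refine StarAlgebra.adjoin_le (S := W τ (S ∪ {θ a})) ?_ hz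
    rintro s (hs | ⟨i, rfl⟩)
    · exact mem_W (Or.inl hs)
    · fin_cases i
      · exact mem_W (Or.inr rfl)
      · exact fc_mem (isClosed_W _) (fun x => ((x : ℂ) + Complex.I)⁻¹) htW
  obtain ⟨p, hp, hzp⟩ := hzW (ε / 2) (half_pos hε)
  exact ⟨θ, hθ, hθa.trans_le (min_le_left _ _), p, hp,
    (τ.n2_triangle y z p).trans_lt (by linarith)⟩

theorem Model.exists_gen {J : Type*} {l : Option J → B} {X : Option J → A} (h : Model τ ι ω l X)
    {j₁ j₂ : J} (hj : j₁ ≠ j₂) :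
    ∃ v : J → A, (∀ j, v j ∈ unitary A) ∧ FH τ v ∧ Gen τ (Set.range v) := by
  classical
  set S := X '' {none, some j₁}ᶜ with hS
  set a := hu (X (some j₁)) with ha
  obtain ⟨v, hv, ⟨w, hw, hwv⟩, hx⟩ := baire h.vn S {v | ∃ θ ∈ TPF τ S, θ a = v}
    (by rintro _ ⟨θ, -, rfl⟩; exact aut_unitary θ (hu_unitary _)) (a := a) ⟨1, one_mem _, rfl⟩
    (by
      rintro _ ⟨θ, hθ, rfl⟩ y δ hδ ε hε
      obtain ⟨σ, hσ, h1, p, hp, h2⟩ := h.step (i₀ := none) (i₁ := some j₁) (i₂ := some j₂)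
        (by simp) (by simp) (by simpa using hj) (θ.symm y) hδ hε
      refine ⟨θ (σ a), ⟨θ * σ, mul_mem hθ hσ, rfl⟩, by rwa [tpf_n2_sub hθ], θ p, ?_, ?_⟩
      · refine StarAlgebra.adjoin_mono ?_ (map_adjoin_mem θ hp)
        rintro _ ⟨s, hs | rfl, rfl⟩
        · rw [hθ.2 s hs]; exact Or.inl hs
        · exact Or.inr rfl
      · rwa [← tpf_n2_sub hθ, θ.apply_symm_apply] at h2)
    (fun n => if n = 0 then X none else X (some j₁))
  choose θ hθ hθw using hw
  have hfix : ∀ n j, j ≠ j₁ → θ n (hu (X (some j))) = hu (X (some j)) := fun n j hj' =>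
    tpf_fix_W h.vn.faithful (hθ n) (hu_mem (isClosed_W _) (mem_W ⟨some j, by simp [hj'], rfl⟩))
  refine ⟨fun j => if j = j₁ then v else hu (X (some j)), fun j => ?_, ?_, ?_⟩
  · dsimp only
    split_ifs
    · exact hv
    · exact hu_unitary _
  · refine FH.limit (u := fun n j => θ n (hu (X (some j))))
      (fun n => (h.fh.comp (Option.some_injective J)).map (hθ n))
      (fun n j => aut_unitary _ (hu_unitary _)) fun j => ?_
    split_ifs with hj'
    · subst hj'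
      exact hwv.congr fun n => by rw [← hθw n]
    · simp only [hfix _ j hj', sub_self, τ.n2_zero]
      exact tendsto_const_nhds
  · have key : W τ (S ∪ {v}) ≤
        W τ (Set.range fun j => if j = j₁ then v else hu (X (some j))) := by
      refine W_le_W ?_
      rintro _ (⟨i, hi, rfl⟩ | rfl)
      · obtain _ | j := i
        · simp at hi
        · have hj' : j ≠ j₁ := by simpa using hi
          refine W_mono ?_ (h.semi (some j)).mem
          rintro _ rfl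
          exact ⟨j, by simp [hj']⟩
      · exact mem_W ⟨j₁, by simp⟩
    refine gen_of_subset h.gen ?_
    rintro _ ⟨i, rfl⟩
    refine key ?_
    by_cases h0 : i = none
    · subst h0
      simpa using hx 0
    by_cases h1 : i = some j₁
    · subst h1
      simpa using hx 1
    exact mem_W (Or.inl ⟨i, by simp [h0, h1], rfl⟩)

end Crest.Agent.R134
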