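import Crest.Agent.R134.Defs

/-! # Row 134: basic facts on `W`, `TPF`, `ex`, `fc` -/

set_option autoImplicit false

namespace Crest.Agent.R134

open Crest.Agent.R95 Filter Topology
open scoped ComplexConjugate

universe u v

variable {A : Type u} [CStarAlgebra A] {τ : Tr A} {S T : Set A}

theorem adjoin_le_W (S : Set A) : StarAlgebra.adjoin ℂ S ≤ W τ S := le_clo _

theorem subset_W (S : Set A) : S ⊆ W τ S := fun _ hx =>
  adjoin_le_W S (StarAlgebra.subset_adjoin ℂ S hx)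

theorem mem_W {x : A} (hx : x ∈ S) : x ∈ W τ S := subset_W S hx

theorem clo_W (S : Set A) : clo τ (W τ S) ≤ W τ S := clo_clo _

theorem W_le {𝒜 : StarSubalgebra ℂ A} (h : S ⊆ 𝒜) (hc : clo τ 𝒜 ≤ 𝒜) : W τ S ≤ 𝒜 :=
  (clo_mono (StarAlgebra.adjoin_le h)).trans hc

theorem W_le_W (h : S ⊆ W τ T) : W τ S ≤ W τ T := W_le h (clo_W T)

theorem W_mono (h : S ⊆ T) : W τ S ≤ W τ T := W_le_W (h.trans (subset_W T))

instance isClosed_W (S : Set A) : IsClosed (W τ S : Set A) := isClosed_clo _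

theorem mem_W_iff {x : A} :
    x ∈ W τ S ↔ ∀ ε > 0, ∃ b ∈ StarAlgebra.adjoin ℂ S, τ.n2 (x - b) < ε := Iff.rfl

theorem mem_W_of_approx {x : A} (h : ∀ ε > 0, ∃ b ∈ W τ S, τ.n2 (x - b) < ε) : x ∈ W τ S :=
  clo_W S h

theorem gen_iff_W : Gen τ S ↔ ∀ x, x ∈ W τ S := Iff.rfl

theorem gen_of_subset (h : Gen τ S) (h' : S ⊆ W τ T) : Gen τ T := fun x => W_le_W h' (h x)

theorem eq_of_n2 (hτ : τ.Faithful) {x y : A} (h : ∀ ε > 0, τ.n2 (x - y) < ε) : x = y :=
  sub_eq_zero.1 (hτ _ (le_antisymm (le_of_forall_pos_le_add fun ε hε => by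
    simpa using (h ε hε).le) (τ.n2_nonneg _)))

/-- two `‖·‖₂`-Lipschitz additive maps agreeing on `B` agree on its closure -/
theorem eq_on_clo (hτ : τ.Faithful) {B : StarSubalgebra ℂ A} {f g : A → A} {C : ℝ}
    (hf : ∀ x y, τ.n2 (f x - f y) ≤ C * τ.n2 (x - y))
    (hg : ∀ x y, τ.n2 (g x - g y) ≤ C * τ.n2 (x - y)) (h : ∀ b ∈ B, f b = g b) {x : A}
    (hx : x ∈ clo τ B) : f x = g x := by
  obtain ⟨y, hy, hxy⟩ := exists_tendsto_of_inCl hx
  have key : ∀ {f : A → A}, (∀ x y, τ.n2 (f x - f y) ≤ C * τ.n2 (x - y)) →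
      Tendsto (fun n => τ.n2 (f (y n) - f x)) atTop (𝓝 0) := fun {f} hf => by
    have := hxy.const_mul C
    rw [mul_zero] at this
    exact squeeze_zero (fun _ => τ.n2_nonneg _) (fun n => hf _ _) this
  refine hτ.eq_of_tendsto (key hf) ((key hg).congr fun n => ?_)
  rw [h _ (hy n)]

theorem commute_W (hτ : τ.Faithful) {z : A} (h : ∀ s ∈ S, Commute z s ∧ Commute z (star s))
    {x : A} (hx : x ∈ W τ S) : Commute z x := by
  have h1 : ∀ b ∈ StarAlgebra.adjoin ℂ S, Commute z b ∧ Commute z (star b) := by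
    intro b hb
    induction hb using StarAlgebra.adjoin_induction with
    | mem x hx => exact h x hx
    | algebraMap r =>
      exact ⟨(Algebra.commutes r z).symm, by
        rw [← algebraMap_star_comm]; exact (Algebra.commutes _ z).symm⟩
    | add x y _ _ hx hy => exact ⟨hx.1.add_right hy.1, by rw [star_add]; exact hx.2.add_right hy.2⟩
    | mul x y _ _ hx hy => exact ⟨hx.1.mul_right hy.1, by rw [star_mul]; exact hy.2.mul_right hx.2⟩
    | star x _ hx => exact ⟨hx.2, by rw [star_star]; exact hx.1⟩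
  refine eq_on_clo hτ (f := fun x => z * x) (g := fun x => x * z) (C := ‖z‖) (fun x y => ?_)
    (fun x y => ?_) (fun b hb => (h1 b hb).1) hx
  · rw [← mul_sub]; exact τ.n2_mul_le_left _ _
  · rw [← sub_mul, mul_comm]; exact τ.n2_mul_le_right _ _

/-- `W τ {t}` is commutative for self-adjoint `t` -/
theorem commute_W_sa (hτ : τ.Faithful) {t : A} (ht : IsSelfAdjoint t) {x y : A}
    (hx : x ∈ W τ {t}) (hy : y ∈ W τ {t}) : Commute x y := by
  have h : Commute t x := commute_W hτ (S := {t}) (by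
    rintro _ rfl; rw [ht.star_eq]; exact ⟨rfl, rfl⟩) hx
  exact commute_W hτ (S := {t}) (by
    rintro _ rfl; rw [ht.star_eq]; exact ⟨h.symm, h.symm⟩) hy

section tpf

variable {θ : A ≃⋆ₐ[ℂ] A}

theorem TPF_mono (h : S ⊆ T) : TPF τ T ≤ TPF τ S := fun _ hθ => ⟨hθ.1, fun s hs => hθ.2 s (h hs)⟩

theorem tpf_n2 (hθ : θ ∈ TPF τ S) (x : A) : τ.n2 (θ x) = τ.n2 x := by
  simp only [Tr.n2]
  rw [← map_star, ← map_mul, hθ.1]

theorem tpf_n2_sub (hθ : θ ∈ TPF τ S) (x y : A) : τ.n2 (θ x - θ y) = τ.n2 (x - y) := by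
  rw [← map_sub, tpf_n2 hθ]

theorem norm_aut (θ : A ≃⋆ₐ[ℂ] A) (x : A) : ‖θ x‖ = ‖x‖ := StarAlgEquiv.norm_map θ x

theorem continuous_aut (θ : A ≃⋆ₐ[ℂ] A) : Continuous θ := (StarAlgEquiv.isometry θ).continuous

theorem aut_unitary (θ : A ≃⋆ₐ[ℂ] A) {u : A} (hu : u ∈ unitary A) : θ u ∈ unitary A :=
  Unitary.map_mem θ hu

theorem map_adjoin_mem {B : Type v} [CStarAlgebra B] {F : Type*} [FunLike F A B]
    [AlgHomClass F ℂ A B] [StarHomClass F A B] (f : F) {x : A}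
    (hx : x ∈ StarAlgebra.adjoin ℂ S) : f x ∈ StarAlgebra.adjoin ℂ (f '' S) := by
  induction hx using StarAlgebra.adjoin_induction with
  | mem x hx => exact StarAlgebra.subset_adjoin ℂ _ ⟨x, hx, rfl⟩
  | algebraMap r => rw [AlgHomClass.commutes]; exact algebraMap_mem _ r
  | add x y _ _ hx hy => rw [map_add]; exact add_mem hx hy
  | mul x y _ _ hx hy => rw [map_mul]; exact mul_mem hx hy
  | star x _ hx => rw [map_star]; exact star_mem hx

theorem exists_of_mem_adjoin_image {B : Type v} [CStarAlgebra B] {F : Type*} [FunLike F A B]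
    [AlgHomClass F ℂ A B] [StarHomClass F A B] (f : F) {y : B}
    (hy : y ∈ StarAlgebra.adjoin ℂ (f '' S)) : ∃ x ∈ StarAlgebra.adjoin ℂ S, f x = y := by
  induction hy using StarAlgebra.adjoin_induction with
  | mem y hy => obtain ⟨x, hx, rfl⟩ := hy; exact ⟨x, StarAlgebra.subset_adjoin ℂ _ hx, rfl⟩
  | algebraMap r => exact ⟨_, algebraMap_mem _ r, AlgHomClass.commutes _ _⟩
  | add x y _ _ hx hy =>
    obtain ⟨x, hx, rfl⟩ := hx
    obtain ⟨y, hy, rfl⟩ := hy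
    exact ⟨x + y, add_mem hx hy, map_add _ _ _⟩
  | mul x y _ _ hx hy =>
    obtain ⟨x, hx, rfl⟩ := hx
    obtain ⟨y, hy, rfl⟩ := hy
    exact ⟨x * y, mul_mem hx hy, map_mul _ _ _⟩
  | star x _ hx =>
    obtain ⟨x, hx, rfl⟩ := hx
    exact ⟨star x, star_mem hx, map_star _ _⟩

theorem tpf_map_W (hθ : θ ∈ TPF τ S) {x : A} (hx : x ∈ W τ T) : θ x ∈ W τ (θ '' T) := by
  intro ε hε
  obtain ⟨b, hb, h⟩ := hx ε hε
  exact ⟨θ b, map_adjoin_mem θ hb, by rwa [tpf_n2_sub hθ]⟩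

/-- if `θ` is conjugation by a unitary on `T`, it is so on `W τ T` -/
theorem tpf_conj_W (hτ : τ.Faithful) (hθ : θ ∈ TPF τ S) {p : A} (hp : p ∈ unitary A)
    (h : ∀ s ∈ T, θ s = star p * s * p) {x : A} (hx : x ∈ W τ T) : θ x = star p * x * p := by
  refine eq_on_clo hτ (f := θ) (g := fun x => star p * x * p) (C := 1) (fun x y => ?_)
    (fun x y => ?_) (fun b hb => ?_) hx
  · rw [tpf_n2_sub hθ, one_mul]
  · rw [← sub_mul, ← mul_sub, τ.n2_mul_unitary hp, τ.n2_unitary_mul (Unitary.star_mem hp), one_mul]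
  · induction hb using StarAlgebra.adjoin_induction with
    | mem x hx => exact h x hx
    | algebraMap r =>
      rw [AlgHomClass.commutes, ← Algebra.commutes, mul_assoc, Unitary.star_mul_self_of_mem hp,
        mul_one]
    | add x y _ _ hx hy => rw [map_add, hx, hy, mul_add, add_mul]
    | mul x y _ _ hx hy =>
      rw [map_mul, hx, hy]
      simp only [mul_assoc]
      rw [← mul_assoc p, Unitary.mul_star_self_of_mem hp, one_mul]
    | star x _ hx => rw [map_star, hx]; simp [mul_assoc]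

theorem tpf_fix_W (hτ : τ.Faithful) (hθ : θ ∈ TPF τ S) {x : A} (hx : x ∈ W τ S) : θ x = x := by
  simpa using tpf_conj_W hτ hθ (one_mem _) (T := S) (fun s hs => by simp [hθ.2 s hs]) hx

theorem tpf_W (hτ : τ.Faithful) (hθ : θ ∈ TPF τ S) : θ ∈ TPF τ (W τ S) :=
  ⟨hθ.1, fun _ hx => tpf_fix_W hτ hθ hx⟩

end tpf

theorem n2_mul_sub_le (a a' b b' : A) :
    τ.n2 (a * b - a' * b') ≤ τ.n2 (a - a') * ‖b‖ + ‖a'‖ * τ.n2 (b - b') := by
  have e : a * b - a' * b' = (a - a') * b + a' * (b - b') := by rw [mul_sub, sub_mul]; abel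
  rw [e]
  exact (τ.n2_add_le _ _).trans (add_le_add (τ.n2_mul_le_right _ _) (τ.n2_mul_le_left _ _))

/-- continuity of `θ ↦ θ y` -/
theorem tpf_cont {I : Type*} {b : I → A} {y : A} (hy : y ∈ W τ (S ∪ Set.range b)) {ε : ℝ}
    (hε : 0 < ε) :
    ∃ δ > 0, ∀ θ ∈ TPF τ S, (∀ i, τ.n2 (θ (b i) - b i) < δ) → τ.n2 (θ y - y) < ε := by
  have key : ∀ y ∈ StarAlgebra.adjoin ℂ (S ∪ Set.range b), ∀ ε > 0,
      ∃ δ > 0, ∀ θ ∈ TPF τ S, (∀ i, τ.n2 (θ (b i) - b i) < δ) → τ.n2 (θ y - y) < ε := by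
    intro y hy
    induction hy using StarAlgebra.adjoin_induction with
    | mem x hx =>
      intro ε hε
      refine ⟨ε, hε, fun θ hθ h => ?_⟩
      rcases hx with hx | ⟨i, rfl⟩
      · rwa [hθ.2 x hx, sub_self, τ.n2_zero]
      · exact h i
    | algebraMap r =>
      intro ε hε
      exact ⟨1, one_pos, fun θ _ _ => by rwa [AlgHomClass.commutes, sub_self, τ.n2_zero]⟩
    | add x y _ _ hx hy =>
      intro ε hε
      obtain ⟨δ, hδ, h⟩ := hx _ (half_pos hε)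
      obtain ⟨δ', hδ', h'⟩ := hy _ (half_pos hε)
      refine ⟨min δ δ', lt_min hδ hδ', fun θ hθ hb => ?_⟩
      have h1 := h θ hθ fun i => (hb i).trans_le (min_le_left _ _)
      have h2 := h' θ hθ fun i => (hb i).trans_le (min_le_right _ _)
      rw [map_add, add_sub_add_comm]
      exact (τ.n2_add_le _ _).trans_lt (by linarith)
    | mul x y _ _ hx hy =>
      intro ε hε
      obtain ⟨δ, hδ, h⟩ := hx (ε / 2 / (‖y‖ + 1)) (by positivity)
      obtain ⟨δ', hδ', h'⟩ := hy (ε / 2 / (‖x‖ + 1)) (by positivity)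
      refine ⟨min δ δ', lt_min hδ hδ', fun θ hθ hb => ?_⟩
      have h1 := h θ hθ fun i => (hb i).trans_le (min_le_left _ _)
      have h2 := h' θ hθ fun i => (hb i).trans_le (min_le_right _ _)
      rw [lt_div_iff₀ (by positivity)] at h1 h2
      rw [map_mul]
      refine (n2_mul_sub_le _ _ _ _).trans_lt ?_
      rw [norm_aut]
      nlinarith [τ.n2_nonneg (θ x - x), τ.n2_nonneg (θ y - y)]
    | star x _ hx =>
      intro ε hε
      obtain ⟨δ, hδ, h⟩ := hx ε hε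
      exact ⟨δ, hδ, fun θ hθ hb => by rw [map_star, ← star_sub, τ.n2_star]; exact h θ hθ hb⟩
  obtain ⟨y', hy', h⟩ := hy (ε / 3) (by positivity)
  obtain ⟨δ, hδ, h'⟩ := key y' hy' (ε / 3) (by positivity)
  refine ⟨δ, hδ, fun θ hθ hb => ?_⟩
  have h1 := h' θ hθ hb
  have h2 := τ.n2_triangle (θ y) (θ y') y
  have h3 := τ.n2_triangle (θ y') y' y
  rw [tpf_n2_sub hθ] at h2
  rw [τ.n2_sub_comm y' y] at h3
  linarith

/-- approximation is an open condition -/
theorem approx_fam {I : Type*} {x : I → A} {C : ℝ} {y : A} (hy : y ∈ W τ (S ∪ Set.range x))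
    {ε : ℝ} (hε : 0 < ε) :
    ∃ δ > 0, ∀ x' : I → A, (∀ i, ‖x' i‖ ≤ C) → (∀ i, τ.n2 (x' i - x i) < δ) →
      ∃ y' ∈ StarAlgebra.adjoin ℂ (S ∪ Set.range x'), τ.n2 (y - y') < ε := by
  have key : ∀ y ∈ StarAlgebra.adjoin ℂ (S ∪ Set.range x), ∃ D : ℝ, 0 ≤ D ∧ ∀ ε > 0,
      ∃ δ > 0, ∀ x' : I → A, (∀ i, ‖x' i‖ ≤ C) → (∀ i, τ.n2 (x' i - x i) < δ) →
        ∃ y' ∈ StarAlgebra.adjoin ℂ (S ∪ Set.range x'), ‖y'‖ ≤ D ∧ τ.n2 (y - y') < ε := by
    intro y hy
    induction hy using StarAlgebra.adjoin_induction with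
    | mem z hz =>
      rcases hz with hz | ⟨i, rfl⟩
      · exact ⟨‖z‖, norm_nonneg _, fun ε hε => ⟨1, one_pos, fun x' _ _ =>
          ⟨z, StarAlgebra.subset_adjoin ℂ _ (Or.inl hz), le_rfl, by rwa [sub_self, τ.n2_zero]⟩⟩⟩
      · exact ⟨|C|, abs_nonneg _, fun ε hε => ⟨ε, hε, fun x' h h' =>
          ⟨x' i, StarAlgebra.subset_adjoin ℂ _ (Or.inr ⟨i, rfl⟩), (h i).trans (le_abs_self _),
            by rw [τ.n2_sub_comm]; exact h' i⟩⟩⟩
    | algebraMap r =>
      exact ⟨_, norm_nonneg _, fun ε hε => ⟨1, one_pos, fun x' _ _ =>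
        ⟨_, algebraMap_mem _ r, le_rfl, by rwa [sub_self, τ.n2_zero]⟩⟩⟩
    | add y z _ _ hy hz =>
      obtain ⟨D, hD, hy⟩ := hy
      obtain ⟨D', hD', hz⟩ := hz
      refine ⟨D + D', by positivity, fun ε hε => ?_⟩
      obtain ⟨δ, hδ, h⟩ := hy _ (half_pos hε)
      obtain ⟨δ', hδ', h'⟩ := hz _ (half_pos hε)
      refine ⟨min δ δ', lt_min hδ hδ', fun x' hC hb => ?_⟩
      obtain ⟨y', hy', h1, h2⟩ := h x' hC fun i => (hb i).trans_le (min_le_left _ _)
      obtain ⟨z', hz', h3, h4⟩ := h' x' hC fun i => (hb i).trans_le (min_le_right _ _)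
      refine ⟨y' + z', add_mem hy' hz', (norm_add_le _ _).trans (add_le_add h1 h3), ?_⟩
      rw [add_sub_add_comm]
      exact (τ.n2_add_le _ _).trans_lt (by linarith)
    | mul y z _ _ hy hz =>
      obtain ⟨D, hD, hy⟩ := hy
      obtain ⟨D', hD', hz⟩ := hz
      refine ⟨D * D', by positivity, fun ε hε => ?_⟩
      obtain ⟨δ, hδ, h⟩ := hy (ε / 2 / (‖z‖ + 1)) (by positivity)
      obtain ⟨δ', hδ', h'⟩ := hz (ε / 2 / (D + 1)) (by positivity)
      refine ⟨min δ δ', lt_min hδ hδ', fun x' hC hb => ?_⟩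
      obtain ⟨y', hy', h1, h2⟩ := h x' hC fun i => (hb i).trans_le (min_le_left _ _)
      obtain ⟨z', hz', h3, h4⟩ := h' x' hC fun i => (hb i).trans_le (min_le_right _ _)
      refine ⟨y' * z', mul_mem hy' hz', (norm_mul_le _ _).trans
        (mul_le_mul h1 h3 (norm_nonneg _) hD), ?_⟩
      rw [lt_div_iff₀ (by positivity)] at h2 h4
      refine (n2_mul_sub_le _ _ _ _).trans_lt ?_
      nlinarith [τ.n2_nonneg (y - y'), τ.n2_nonneg (z - z'),
        mul_le_mul_of_nonneg_right h1 (τ.n2_nonneg (z - z'))]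
    | star y _ hy =>
      obtain ⟨D, hD, hy⟩ := hy
      refine ⟨D, hD, fun ε hε => ?_⟩
      obtain ⟨δ, hδ, h⟩ := hy ε hε
      refine ⟨δ, hδ, fun x' hC hb => ?_⟩
      obtain ⟨y', hy', h1, h2⟩ := h x' hC hb
      exact ⟨star y', star_mem hy', by rwa [norm_star], by rwa [← star_sub, τ.n2_star]⟩
  obtain ⟨z, hz, h⟩ := hy (ε / 2) (by positivity)
  obtain ⟨D, -, hD⟩ := key z hz
  obtain ⟨δ, hδ, h'⟩ := hD (ε / 2) (by positivity)
  refine ⟨δ, hδ, fun x' hC hb => ?_⟩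
  obtain ⟨y', hy', -, h2⟩ := h' x' hC hb
  exact ⟨y', hy', (τ.n2_triangle y z y').trans_lt (by linarith)⟩

/-! ### `ex` -/

theorem ex_unitary {t : A} (ht : IsSelfAdjoint t) : ex t ∈ unitary A := by
  let _ : NormedAlgebra ℚ A := .restrictScalars ℚ ℂ A
  refine NormedSpace.exp_mem_unitary_of_mem_skewAdjoint ?_
  rw [skewAdjoint.mem_iff, star_smul, ht.star_eq]
  simp

theorem ex_mem {N : StarSubalgebra ℂ A} (hN : IsClosed (N : Set A)) {t : A} (ht : t ∈ N) :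
    ex t ∈ N := by
  let _ : NormedAlgebra ℚ A := .restrictScalars ℚ ℂ A
  exact NormedSpace.exp_mem (R := ℂ) hN (SMulMemClass.smul_mem _ ht)

theorem map_ex {B : Type v} [CStarAlgebra B] {F : Type*} [FunLike F A B]
    [AlgHomClass F ℂ A B] (f : F) (hf : Continuous f) (t : A) : f (ex t) = ex (f t) := by
  let _ : NormedAlgebra ℚ A := .restrictScalars ℚ ℂ A
  let _ : NormedAlgebra ℚ B := .restrictScalars ℚ ℂ B
  rw [ex, NormedSpace.map_exp f hf, map_smul, ex]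

theorem aut_ex (θ : A ≃⋆ₐ[ℂ] A) (t : A) : θ (ex t) = ex (θ t) := map_ex θ (continuous_aut θ) t

theorem coe_ex {C : StarSubalgebra ℂ A} [IsClosed (C : Set A)] (t : C) :
    ((ex t : C) : A) = ex (t : A) := map_ex C.subtype continuous_subtype_val t

theorem ex_zero : ex (0 : A) = 1 := by simp [ex]

theorem ex_nsmul (n : ℕ) (t : A) : ex ((n : ℂ) • t) = ex t ^ n := by
  let _ : NormedAlgebra ℚ A := .restrictScalars ℚ ℂ A
  rw [ex, ex, ← NormedSpace.exp_nsmul, smul_comm, Nat.cast_smul_eq_nsmul]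

theorem lg_mem {N : StarSubalgebra ℂ A} (hN : IsClosed (N : Set A)) {t : A} (ht : t ∈ N) :
    lg t ∈ N := cfc_mem (𝕜' := ℂ) _ ht

theorem hu_mem {N : StarSubalgebra ℂ A} (hN : IsClosed (N : Set A)) {t : A} (ht : t ∈ N) :
    hu t ∈ N := ex_mem hN (lg_mem hN ht)

theorem lg_sa (t : A) : IsSelfAdjoint (lg t) := IsSelfAdjoint.cfc

theorem hu_unitary (t : A) : hu t ∈ unitary A := ex_unitary (lg_sa t)

/-! ### `fc` -/

section fc

variable {t : A} {f g : ℝ → ℂ}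

theorem fc_mem {N : StarSubalgebra ℂ A} (hN : IsClosed (N : Set A)) (f : ℝ → ℂ) (ht : t ∈ N) :
    fc f t ∈ N := cfc_mem _ ht

theorem fc_mul (hf : Continuous f) (hg : Continuous g) (t : A) :
    fc (fun x => f x * g x) t = fc f t * fc g t :=
  cfc_mul (fun z : ℂ => f z.re) (fun z : ℂ => g z.re) t

theorem fc_add (hf : Continuous f) (hg : Continuous g) (t : A) :
    fc (fun x => f x + g x) t = fc f t + fc g t :=
  cfc_add t (fun z : ℂ => f z.re) (fun z : ℂ => g z.re)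

theorem fc_sub (hf : Continuous f) (hg : Continuous g) (t : A) :
    fc (fun x => f x - g x) t = fc f t - fc g t :=
  cfc_sub (fun z : ℂ => f z.re) (fun z : ℂ => g z.re) t

theorem fc_const_mul (c : ℂ) (hf : Continuous f) (t : A) :
    fc (fun x => c * f x) t = c • fc f t :=
  cfc_const_mul c (fun z : ℂ => f z.re) t

theorem fc_star (f : ℝ → ℂ) (t : A) : fc (fun x => conj (f x)) t = star (fc f t) :=
  cfc_star (fun z : ℂ => f z.re) t

theorem fc_const (ht : IsSelfAdjoint t) (c : ℂ) : fc (fun _ => c) t = c • (1 : A) := by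
  have := ht.isStarNormal
  rw [fc, cfc_const c t, Algebra.algebraMap_eq_smul_one]

theorem fc_one (ht : IsSelfAdjoint t) : fc (fun _ => 1) t = 1 := by rw [fc_const ht, one_smul]

theorem fc_ofReal (ht : IsSelfAdjoint t) (f : ℝ → ℝ) : fc (fun x => (f x : ℂ)) t = cfc f t :=
  (cfc_real_eq_complex f ht).symm

theorem fc_id (ht : IsSelfAdjoint t) : fc (fun x => (x : ℂ)) t = t := by
  rw [fc_ofReal ht (fun x => x), cfc_id' ℝ t]

theorem fc_sum {ι : Type*} (s : Finset ι) {f : ι → ℝ → ℂ} (hf : ∀ i ∈ s, Continuous (f i)) (t : A) :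
    fc (fun x => ∑ i ∈ s, f i x) t = ∑ i ∈ s, fc (f i) t := by
  have := cfc_sum (fun i (z : ℂ) => f i z.re) t s fun i hi =>
    ((hf i hi).comp Complex.continuous_re).continuousOn
  unfold fc
  rw [← this]
  congr 1
  funext z
  simp

theorem fc_pow (ht : IsSelfAdjoint t) (hf : Continuous f) (n : ℕ) :
    fc (fun x => f x ^ n) t = fc f t ^ n := by
  have := ht.isStarNormal
  exact cfc_pow (fun z : ℂ => f z.re) n t

theorem abs_re_le_of_mem_spectrum {z : ℂ} (hz : z ∈ spectrum ℂ t) : |z.re| ≤ ‖t‖ := by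
  rcases subsingleton_or_nontrivial A with hA | hA
  · simp [spectrum.of_subsingleton] at hz
  · exact (Complex.abs_re_le_norm z).trans (spectrum.norm_le_norm_of_mem hz)

theorem fc_congr (h : ∀ x, |x| ≤ ‖t‖ → f x = g x) : fc f t = fc g t :=
  cfc_congr fun _ hz => h _ (abs_re_le_of_mem_spectrum hz)

theorem norm_fc_le {C : ℝ} (hC : 0 ≤ C) (h : ∀ x, |x| ≤ ‖t‖ → ‖f x‖ ≤ C) : ‖fc f t‖ ≤ C :=
  norm_cfc_le hC fun _ hz => h _ (abs_re_le_of_mem_spectrum hz)

theorem fc_cfc (ht : IsSelfAdjoint t) (hf : Continuous f) {g : ℝ → ℝ} (hg : Continuous g) :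
    fc f (cfc g t) = fc (fun x => f (g x)) t := by
  have := ht.isStarNormal
  rw [← fc_ofReal ht g, fc, fc,
    ← cfc_comp' (fun z : ℂ => f z.re) (fun z : ℂ => ((g z.re : ℝ) : ℂ)) t]
  simp [fc]

theorem ex_eq_fc (ht : IsSelfAdjoint t) : ex t = fc (fun x => Complex.exp (Complex.I * x)) t := by
  have := ht.isStarNormal
  have h1 : IsStarNormal (Complex.I • t) := inferInstance
  rw [ex, ← CFC.complex_exp_eq_normedSpace_exp, ← cfc_comp_const_mul Complex.I Complex.exp t]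
  refine cfc_congr fun z hz => ?_
  show Complex.exp (Complex.I * z) = Complex.exp (Complex.I * (z.re : ℂ))
  rw [← ht.mem_spectrum_eq_re hz]

end fc

end Crest.Agent.R134
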