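import Crest.Agent.R134.Free

/-!
# Row 134: freeness in a corner (task R134-Corner)

PLAN.  `B₀ = B0 B p` is (the carrier of) a ⋆-subalgebra containing `p`; `𝒟 = W τ (𝒞 ∪ B₀)`.
1. `adjoin (𝒞 ∪ B₀) ⊆ span 𝒱`, `𝒱 = {b * alt M}` with `b ∈ B₀`, `M` a list of pairs `(cᵢ, bᵢ)`,
   `cᵢ ∈ cen 𝒞`, `bᵢ ∈ B₀` centred except the last one.  (`span 𝒱 ∋ 1` is stable under left
   multiplication by `B₀` and by `𝒞`: split `c = c° + τ c`, `b = b° + τ b`, `c° c₁ = (c° c₁)° + τ(..)`.)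
2. So `p * x * p ∈ span ({p} ∪ 𝒲)` for `x` in the adjoin, where
   `𝒲 = {p * alt M * c * p | M in cen 𝒞 × cen B₀, c ∈ cen 𝒞}`; elements of `𝒲` are centred
   (`τ (alt M * c * p)`, split `p = p° + τ p`, use `hf`; for the word ending in `c` rotate it).
   Hence for `x ∈ 𝒟`: `p x p ∈ Cl ({p} ∪ 𝒲)`, and `∈ Cl 𝒲` if `τ (p x p) = 0` (uses `τ p ≠ 0`).
3. `Fr τ ({p} ∪ 𝒲) 𝒲 𝒮` for `𝒮 = {y ∈ B | p y = y, τ y = 0}`: absorb the `p`s in the `y`s
   (`y p = y = p y`, the first `p` is moved to the end), flatten to one alternating word, use `hf`.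
   Then `Fr.cl`.
4. `Fr τ 𝒜 (cen τ 𝒜) {b^(n+1), star b^(n+1)}` for `𝒜 = 𝒟 ⊓ C`: the product lies in `C`, so
   `τ p * τ (prod) = τ (p * prod) = τ (∏ (p aᵢ p) (p sᵢ))`, `p b^(n+1) = p v^(n+1) ∈ 𝒮`,
   `p (star b)^(n+1) = star (p v^(n+1))`.  Conclude with `Fr.st`.
-/

set_option autoImplicit false

namespace Crest.Agent.R134

open Crest.Agent.R95 Filter Topology
open scoped ComplexConjugate

universe u v

variable {A : Type u} [CStarAlgebra A] {τ : Tr A}

/-- elements of `B` which are scalar under `p` -/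
def B0 (B : StarSubalgebra ℂ A) (p : A) : Set A := {x | x ∈ B ∧ ∃ c : ℂ, x * p = c • p}

theorem co_alt_shift {S T : Set A} {s : A} (hs : s ∈ S) (L : List (A × A))
    (hL : ∀ q ∈ L, q.1 ∈ T ∧ q.2 ∈ S) :
    ∃ L' : List (A × A), ∃ s' ∈ S, (∀ q ∈ L', q.1 ∈ S ∧ q.2 ∈ T) ∧ s * alt L = alt L' * s' := by
  induction L generalizing s with
  | nil => exact ⟨[], s, hs, by simp, by simp [alt_nil]⟩
  | cons q L ih =>
    obtain ⟨L', s', hs', hL', e⟩ := ih (hL q (by simp)).2 fun r hr => hL r (by simp [hr])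
    refine ⟨(s, q.1) :: L', s', hs', ?_, ?_⟩
    · intro r hr
      rcases List.mem_cons.1 hr with rfl | hr
      · exact ⟨hs, (hL q (by simp)).1⟩
      · exact hL' r hr
    · rw [alt_cons, alt_cons]
      simp only [mul_assoc]
      rw [← e]

theorem co_cen {𝒜 : StarSubalgebra ℂ A} {x : A} (hx : x ∈ 𝒜) :
    x - τ.φ x • (1 : A) ∈ cen τ 𝒜 :=
  ⟨sub_mem hx (SMulMemClass.smul_mem _ (one_mem _)), by simp [τ.one]⟩

theorem co_alt {𝒜 ℬ : StarSubalgebra ℂ A} (h : Free τ 𝒜 ℬ) {L : List (A × A)} (h0 : L ≠ [])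
    (hL : ∀ q ∈ L, q.1 ∈ cen τ 𝒜 ∧ q.2 ∈ cen τ ℬ) : τ.φ (alt L) = 0 := by
  obtain ⟨q, L, rfl⟩ := List.exists_cons_of_ne_nil h0
  rw [alt_cons]
  exact h _ (hL q (by simp)).1.1 _ (hL q (by simp)).2 L fun r hr => hL r (by simp [hr])

theorem co_alt_mul {𝒜 ℬ : StarSubalgebra ℂ A} (h : Free τ 𝒜 ℬ) {L : List (A × A)}
    (hL : ∀ q ∈ L, q.1 ∈ cen τ 𝒜 ∧ q.2 ∈ cen τ ℬ) {a : A} (ha : a ∈ cen τ 𝒜) :
    τ.φ (alt L * a) = 0 := by
  cases L with
  | nil => simpa [alt_nil] using ha.2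
  | cons q L =>
    rw [τ.comm, alt_cons, ← mul_assoc, ← mul_assoc]
    exact h _ (mul_mem ha.1 (hL q (by simp)).1.1) _ (hL q (by simp)).2 L
      fun r hr => hL r (by simp [hr])

theorem co_symm {𝒜 ℬ : StarSubalgebra ℂ A} (h : Free τ 𝒜 ℬ) : Free τ ℬ 𝒜 := by
  intro b hb a ha L hL
  obtain ⟨L', a', ha', hL', e⟩ := co_alt_shift ha L hL
  have e1 : alt L' * a' * b =
      alt (L' ++ [(a', b - τ.φ b • (1 : A))]) + τ.φ b • (alt L' * a') := by
    rw [alt_append, alt_cons, alt_nil]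
    simp only [mul_sub, mul_one, mul_smul_comm, mul_assoc]
    abel
  rw [mul_assoc, e, τ.comm, e1, map_add, map_smul, co_alt_mul h hL' ha', co_alt h (by simp)]
  · simp
  · intro q hq
    rcases List.mem_append.1 hq with hq | hq
    · exact hL' q hq
    · rw [List.mem_singleton.1 hq]
      exact ⟨ha', co_cen hb⟩

section

variable {𝒞 B : StarSubalgebra ℂ A} {p : A}

theorem co_B0_one : (1 : A) ∈ B0 B p := ⟨one_mem _, 1, by simp⟩

theorem co_B0_mul {x y : A} (hx : x ∈ B0 B p) (hy : y ∈ B0 B p) : x * y ∈ B0 B p := by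
  obtain ⟨hx, c, hc⟩ := hx
  obtain ⟨hy, d, hd⟩ := hy
  exact ⟨mul_mem hx hy, d * c, by rw [mul_assoc, hd, mul_smul_comm, hc, smul_smul]⟩

theorem co_B0_cen {x : A} (hx : x ∈ B0 B p) : x - τ.φ x • (1 : A) ∈ cen τ (B0 B p) := by
  obtain ⟨hx, c, hc⟩ := hx
  exact ⟨⟨(co_cen (τ := τ) hx).1, c - τ.φ x, by rw [sub_mul, hc, smul_mul_assoc, one_mul, sub_smul]⟩,
    (co_cen (τ := τ) hx).2⟩

theorem co_B0_star (hp : IsStarProjection p) (hc : ∀ y ∈ B, p * y = y * p) {x : A}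
    (hx : x ∈ B0 B p) : star x ∈ B0 B p := by
  obtain ⟨hx, c, h⟩ := hx
  refine ⟨star_mem hx, star c, ?_⟩
  have := congrArg star h
  rwa [← hc x hx, star_mul, star_smul, hp.isSelfAdjoint.star_eq] at this

/-- admissible lists -/
def coL (τ : Tr A) (𝒞 B : StarSubalgebra ℂ A) (p : A) (L : List (A × A)) : Prop :=
  ∀ q ∈ L, q.1 ∈ cen τ (B0 B p) ∧ q.2 ∈ cen τ 𝒞

/-- spanning set of `adjoin * p` -/
def coU (τ : Tr A) (𝒞 B : StarSubalgebra ℂ A) (p : A) : Set A :=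
  insert p {x | ∃ b ∈ B0 B p, ∃ c ∈ cen τ 𝒞, ∃ L, coL τ 𝒞 B p L ∧ x = b * c * alt L * p}

/-- centred words of the corner -/
def coW (τ : Tr A) (𝒞 B : StarSubalgebra ℂ A) (p : A) : Set A :=
  {x | ∃ c ∈ cen τ 𝒞, ∃ L, coL τ 𝒞 B p L ∧ x = p * c * alt L * p}

/-- centred elements of the corner of `B` -/
def coS (τ : Tr A) (B : StarSubalgebra ℂ A) (p : A) : Set A :=
  {y | y ∈ B ∧ p * y = y ∧ τ.φ y = 0}

theorem co_U_alt {L : List (A × A)} (hL : coL τ 𝒞 B p L) :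
    alt L * p ∈ Submodule.span ℂ (coU τ 𝒞 B p) := by
  refine Submodule.subset_span ?_
  cases L with
  | nil => left; simp [alt_nil]
  | cons q L =>
    right
    exact ⟨q.1, (hL q (by simp)).1.1, q.2, (hL q (by simp)).2, L,
      fun r hr => hL r (by simp [hr]), by rw [alt_cons]⟩

theorem co_U_c_alt {L : List (A × A)} (hL : coL τ 𝒞 B p L) {c : A} (hc : c ∈ 𝒞) :
    c * alt L * p ∈ Submodule.span ℂ (coU τ 𝒞 B p) := by
  have e : c * alt L * p = 1 * (c - τ.φ c • (1 : A)) * alt L * p + τ.φ c • (alt L * p) := by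
    simp only [one_mul, sub_mul, smul_mul_assoc]
    abel
  rw [e]
  exact add_mem (Submodule.subset_span (Or.inr ⟨1, co_B0_one, _, co_cen hc, L, hL, rfl⟩))
    (Submodule.smul_mem _ _ (co_U_alt hL))

theorem co_U_mul {x : A} (hx : x ∈ (𝒞 : Set A) ∪ B0 B p) {y : A}
    (hy : y ∈ Submodule.span ℂ (coU τ 𝒞 B p)) : x * y ∈ Submodule.span ℂ (coU τ 𝒞 B p) := by
  induction hy using Submodule.span_induction with
  | zero => simp
  | add y z _ _ hy hz => rw [mul_add]; exact add_mem hy hz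
  | smul a y _ hy => rw [mul_smul_comm]; exact Submodule.smul_mem _ _ hy
  | mem y hy =>
    rcases hx with hx | hx
    · rcases hy with rfl | ⟨b, hb, c, hc, L, hL, rfl⟩
      · simpa [alt_nil] using co_U_c_alt (τ := τ) (𝒞 := 𝒞) (B := B) (p := y) (L := [])
          (by simp [coL]) hx
      · have e : x * (b * c * alt L * p) =
            x * alt ((b - τ.φ b • (1 : A), c) :: L) * p + τ.φ b • (x * c * alt L * p) := by
          rw [alt_cons]
          simp only [one_mul, sub_mul, mul_sub, smul_mul_assoc, mul_smul_comm, mul_assoc]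
          abel
        rw [e]
        refine add_mem (co_U_c_alt ?_ hx) (Submodule.smul_mem _ _ (co_U_c_alt hL (mul_mem hx hc.1)))
        intro q hq
        rcases List.mem_cons.1 hq with rfl | hq
        · exact ⟨co_B0_cen hb, hc⟩
        · exact hL q hq
    · rcases hy with rfl | ⟨b, hb, c, hc, L, hL, rfl⟩
      · obtain ⟨-, d, hd⟩ := hx
        rw [hd]
        exact Submodule.smul_mem _ _ (Submodule.subset_span (Or.inl rfl))
      · refine Submodule.subset_span (Or.inr ⟨x * b, co_B0_mul hx hb, c, hc, L, hL, ?_⟩)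
        simp only [mul_assoc]

theorem co_adjoin (hp : IsStarProjection p) (hc : ∀ y ∈ B, p * y = y * p) {x : A}
    (hx : x ∈ StarAlgebra.adjoin ℂ ((𝒞 : Set A) ∪ B0 B p)) :
    x * p ∈ Submodule.span ℂ (coU τ 𝒞 B p) := by
  have key : (∀ y ∈ Submodule.span ℂ (coU τ 𝒞 B p), x * y ∈ Submodule.span ℂ (coU τ 𝒞 B p)) ∧
      ∀ y ∈ Submodule.span ℂ (coU τ 𝒞 B p), star x * y ∈ Submodule.span ℂ (coU τ 𝒞 B p) := by
    induction hx using StarAlgebra.adjoin_induction with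
    | mem x hx =>
      refine ⟨fun y hy => co_U_mul hx hy, fun y hy => co_U_mul ?_ hy⟩
      rcases hx with hx | hx
      · exact Or.inl (star_mem hx)
      · exact Or.inr (co_B0_star hp hc hx)
    | algebraMap r =>
      refine ⟨fun y hy => ?_, fun y hy => ?_⟩
      · rw [← Algebra.smul_def]; exact Submodule.smul_mem _ _ hy
      · rw [← algebraMap_star_comm, ← Algebra.smul_def]; exact Submodule.smul_mem _ _ hy
    | add x z _ _ hx hz =>
      refine ⟨fun y hy => ?_, fun y hy => ?_⟩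
      · rw [add_mul]; exact add_mem (hx.1 y hy) (hz.1 y hy)
      · rw [star_add, add_mul]; exact add_mem (hx.2 y hy) (hz.2 y hy)
    | mul x z _ _ hx hz =>
      refine ⟨fun y hy => ?_, fun y hy => ?_⟩
      · rw [mul_assoc]; exact hx.1 _ (hz.1 y hy)
      · rw [star_mul, mul_assoc]; exact hz.2 _ (hx.2 y hy)
    | star x _ hx => exact ⟨hx.2, by simpa using hx.1⟩
  exact key.1 p (Submodule.subset_span (Or.inl rfl))

theorem co_p_mul (hp : IsStarProjection p) (hc : ∀ y ∈ B, p * y = y * p) {y : A}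
    (hy : y ∈ Submodule.span ℂ (coU τ 𝒞 B p)) :
    p * y ∈ Submodule.span ℂ (insert p (coW τ 𝒞 B p)) := by
  induction hy using Submodule.span_induction with
  | zero => simp
  | add y z _ _ hy hz => rw [mul_add]; exact add_mem hy hz
  | smul a y _ hy => rw [mul_smul_comm]; exact Submodule.smul_mem _ _ hy
  | mem y hy =>
    rcases hy with rfl | ⟨b, ⟨hb, d, hd⟩, c, hc', L, hL, rfl⟩
    · rw [hp.isIdempotentElem.eq]; exact Submodule.subset_span (Or.inl rfl)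
    · have e : p * (b * c * alt L * p) = d • (p * c * alt L * p) := by
        simp only [← mul_assoc]
        rw [hc b hb, hd]
        simp only [smul_mul_assoc]
      rw [e]
      exact Submodule.smul_mem _ _ (Submodule.subset_span (Or.inr ⟨c, hc', L, hL, rfl⟩))

theorem co_n2_corner (hp : IsStarProjection p) (x : A) : τ.n2 (p * x * p) ≤ τ.n2 x := by
  have h1 := hp.norm_le
  have h2 := τ.n2_nonneg x
  have h3 := norm_nonneg p
  calc τ.n2 (p * x * p) ≤ τ.n2 (p * x) * ‖p‖ := τ.n2_mul_le_right _ _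
    _ ≤ (‖p‖ * τ.n2 x) * ‖p‖ := mul_le_mul_of_nonneg_right (τ.n2_mul_le_left _ _) h3
    _ ≤ (1 * τ.n2 x) * 1 := by gcongr
    _ = τ.n2 x := by ring

theorem co_Cl (hp : IsStarProjection p) (hc : ∀ y ∈ B, p * y = y * p) {x : A}
    (hx : x ∈ W τ ((𝒞 : Set A) ∪ B0 B p)) : p * x * p ∈ Cl τ (insert p (coW τ 𝒞 B p)) := by
  intro ε hε
  obtain ⟨y, hy, h⟩ := hx ε hε
  refine ⟨p * (y * p), co_p_mul hp hc (co_adjoin hp hc hy), lt_of_le_of_lt ?_ h⟩
  have e : p * x * p - p * (y * p) = p * (x - y) * p := by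
    simp only [mul_sub, sub_mul, mul_assoc]
  rw [e]
  exact co_n2_corner hp _

theorem coL.cen {L : List (A × A)} (hL : coL τ 𝒞 B p L) :
    ∀ q ∈ L, q.1 ∈ cen τ B ∧ q.2 ∈ cen τ 𝒞 :=
  fun q hq => ⟨⟨(hL q hq).1.1.1, (hL q hq).1.2⟩, (hL q hq).2⟩

theorem co_W_phi (hf : Free τ 𝒞 B) (hpB : p ∈ B) {w : A}
    (hw : w ∈ Submodule.span ℂ (coW τ 𝒞 B p)) : τ.φ w = 0 := by
  induction hw using Submodule.span_induction with
  | zero => simp
  | add y z _ _ hy hz => rw [map_add, hy, hz, add_zero]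
  | smul a y _ hy => rw [map_smul, hy, smul_zero]
  | mem y hy =>
    obtain ⟨c, hc, L, hL, rfl⟩ := hy
    rw [τ.comm, ← mul_assoc, ← mul_assoc]
    exact co_symm hf _ (mul_mem hpB hpB) c hc L hL.cen

theorem co_Cl_cen (hf : Free τ 𝒞 B) (hp : IsStarProjection p) (hpB : p ∈ B) (hp0 : τ.φ p ≠ 0)
    {z : A} (hz : z ∈ Cl τ (insert p (coW τ 𝒞 B p))) (hz0 : τ.φ z = 0) :
    z ∈ Cl τ (coW τ 𝒞 B p) := by
  intro ε hε
  have ht : 0 < ‖τ.φ p‖ := norm_pos_iff.2 hp0
  set t := ‖τ.φ p‖ with ht'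
  obtain ⟨y, hy, h⟩ := hz (ε * t / (t + 1)) (by positivity)
  obtain ⟨a, w, hw, rfl⟩ := Submodule.mem_span_insert.1 hy
  refine ⟨w, hw, ?_⟩
  have h1 : ‖a‖ * t ≤ τ.n2 (z - (a • p + w)) := by
    have := τ.norm_phi_le_n2 (z - (a • p + w))
    rwa [map_sub, map_add, map_smul, hz0, co_W_phi hf hpB hw, add_zero, zero_sub, norm_neg,
      norm_smul] at this
  have h2 : τ.n2 (z - w) ≤ τ.n2 (z - (a • p + w)) + ‖a‖ := by
    have e : z - w = (z - (a • p + w)) + a • p := by abel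
    rw [e]
    refine (τ.n2_add_le _ _).trans ?_
    gcongr
    rw [τ.n2_smul]
    exact mul_le_of_le_one_right (norm_nonneg _) ((τ.n2_le_norm p).trans hp.norm_le)
  have h3 : ‖a‖ < ε / (t + 1) := by
    have : ‖a‖ * t < ε / (t + 1) * t := by
      refine lt_of_le_of_lt h1 (h.trans_eq ?_)
      ring
    exact lt_of_mul_lt_mul_right this ht.le
  have h4 : ε * t / (t + 1) + ε / (t + 1) = ε := by field_simp
  linarith

theorem co_S_alt (hc : ∀ y ∈ B, p * y = y * p) {s : A} (hs : s ∈ coS τ B p) (L : List (A × A))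
    (hL : ∀ q ∈ L, q.1 ∈ coW τ 𝒞 B p ∧ q.2 ∈ coS τ B p) :
    ∃ L' : List (A × A), ∃ s' ∈ coS τ B p, (∀ q ∈ L', q.1 ∈ cen τ B ∧ q.2 ∈ cen τ 𝒞) ∧
      s * alt L = alt L' * s' := by
  induction L generalizing s with
  | nil => exact ⟨[], s, hs, by simp, by simp [alt_nil]⟩
  | cons q L ih =>
    obtain ⟨⟨c, hc', M, hM, e0⟩, hq⟩ := hL q (by simp)
    obtain ⟨L', s', hs', hL', e⟩ := ih hq fun r hr => hL r (by simp [hr])
    refine ⟨(s, c) :: (M ++ L'), s', hs', ?_, ?_⟩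
    · intro r hr
      rcases List.mem_cons.1 hr with rfl | hr
      · exact ⟨⟨hs.1, hs.2.2⟩, hc'⟩
      · rcases List.mem_append.1 hr with hr | hr
        · exact hM.cen r hr
        · exact hL' r hr
    · have e1 : s * p = s := by rw [← hc s hs.1, hs.2.1]
      calc s * alt (q :: L) = (s * p) * c * alt M * ((p * q.2) * alt L) := by
            rw [alt_cons, e0]; simp only [mul_assoc]
        _ = alt ((s, c) :: (M ++ L')) * s' := by
            rw [e1, hq.2.1, e, alt_cons, alt_append]; simp only [mul_assoc]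

theorem co_Fr (hf : Free τ 𝒞 B) (hpB : p ∈ B) (hc : ∀ y ∈ B, p * y = y * p) :
    Fr τ (insert p (coW τ 𝒞 B p)) (coW τ 𝒞 B p) (coS τ B p) := by
  intro a ha s hs L hL
  obtain ⟨L', s', hs', hL', e⟩ := co_S_alt hc hs L hL
  rcases ha with rfl | ⟨c, hc', M, hM, rfl⟩
  · rw [hs.2.1, e]
    exact co_alt_mul (co_symm hf) hL' ⟨hs'.1, hs'.2.2⟩
  · have e1 : p * c * alt M * p * s * alt L = p * c * alt (M ++ L') * s' := by
      calc p * c * alt M * p * s * alt L = p * c * alt M * ((p * s) * alt L) := by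
            simp only [mul_assoc]
        _ = _ := by rw [hs.2.1, e, alt_append]; simp only [mul_assoc]
    rw [e1, τ.comm, ← mul_assoc, ← mul_assoc]
    refine co_symm hf _ (mul_mem hs'.1 hpB) c hc' _ fun r hr => ?_
    rcases List.mem_append.1 hr with hr | hr
    · exact hM.cen r hr
    · exact hL' r hr

theorem co_S_star (hp : IsStarProjection p) (hc : ∀ y ∈ B, p * y = y * p) {s : A}
    (hs : s ∈ coS τ B p) : star s ∈ coS τ B p := by
  refine ⟨star_mem hs.1, ?_, by rw [τ.star, hs.2.2, map_zero]⟩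
  have e1 : s * p = s := by rw [← hc s hs.1, hs.2.1]
  have := congrArg star e1
  rwa [star_mul, hp.isSelfAdjoint.star_eq] at this

theorem co_alt_mem {C : StarSubalgebra ℂ A} {L : List (A × A)}
    (hL : ∀ q ∈ L, q.1 ∈ C ∧ q.2 ∈ C) : alt L ∈ C := by
  induction L with
  | nil => exact one_mem _
  | cons q L ih =>
    rw [alt_cons]
    exact mul_mem (mul_mem (hL q (by simp)).1 (hL q (by simp)).2) (ih fun r hr => hL r (by simp [hr]))

theorem co_pp (hp : IsStarProjection p) {a s : A} (ha : p * a = a * p) (hs : p * s = s * p) :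
    p * a * p * (p * s) = a * s * p := by
  have h := hp.isIdempotentElem.eq
  calc p * a * p * (p * s) = (p * a) * (p * p) * s := by simp only [mul_assoc]
    _ = a * (p * p) * s := by rw [h, ha, mul_assoc a p p, h]
    _ = a * s * p := by rw [h, mul_assoc, hs, mul_assoc]

theorem co_p_alt (hp : IsStarProjection p) {L : List (A × A)}
    (hL : ∀ q ∈ L, p * q.1 = q.1 * p ∧ p * q.2 = q.2 * p) :
    p * alt L = p * alt (L.map fun q => (p * q.1 * p, p * q.2)) := by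
  induction L with
  | nil => rfl
  | cons q L ih =>
    obtain ⟨h1, h2⟩ := hL q (by simp)
    have e : p * (q.1 * q.2) = q.1 * q.2 * p := by rw [← mul_assoc, h1, mul_assoc, h2, mul_assoc]
    rw [List.map_cons, alt_cons, alt_cons]
    dsimp only
    rw [co_pp hp h1 h2, ← mul_assoc, e, mul_assoc, ih fun r hr => hL r (by simp [hr]),
      ← mul_assoc p, ← mul_assoc p, e, mul_assoc _ p p, hp.isIdempotentElem.eq, mul_assoc _ p]

end

theorem corner_st {𝒞 B C : StarSubalgebra ℂ A} (hf : Free τ 𝒞 B) {p v b : A}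
    (hp : IsStarProjection p) (hpB : p ∈ B) (hc : ∀ y ∈ B, p * y = y * p) (hp0 : τ.φ p ≠ 0)
    (hv : v ∈ B) (hv0 : ∀ n, τ.φ (p * v ^ (n + 1)) = 0)
    (hC : ∀ x ∈ C, p * x = x * p ∧ τ.φ (p * x) = τ.φ p * τ.φ x) (hb : b ∈ C)
    (hbv : p * b = p * v) : St τ (W τ ((𝒞 : Set A) ∪ B0 B p) ⊓ C) b := by
  have hpp := hp.isIdempotentElem.eq
  have hpow : ∀ n, p * b ^ (n + 1) = p * v ^ (n + 1) := by
    intro n
    induction n with
    | zero => simpa using hbv
    | succ n ih =>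
      rw [pow_succ b, ← mul_assoc, ih, hc _ (pow_mem hv _), mul_assoc, hbv, ← mul_assoc,
        ← hc _ (pow_mem hv _), mul_assoc, ← pow_succ]
  have hS : ∀ n, p * b ^ (n + 1) ∈ coS τ B p := fun n => by
    rw [hpow]
    exact ⟨mul_mem hpB (pow_mem hv _), by rw [← mul_assoc, hpp], hv0 n⟩
  refine Fr.st (𝒮 := {s | s ∈ C ∧ p * s ∈ coS τ B p}) ?_ (fun n => ⟨pow_mem hb _, hS n⟩)
    fun n => ⟨pow_mem (star_mem hb) _, ?_⟩
  · intro a ha s hs L hL
    have hL1 : ∀ q ∈ L, q.1 ∈ C ∧ q.2 ∈ C := fun q hq => ⟨(hL q hq).1.1.2, (hL q hq).2.1⟩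
    have hX : a * s * alt L ∈ C := mul_mem (mul_mem ha.2 hs.1) (co_alt_mem hL1)
    have e : p * (a * s * alt L) =
        p * a * p * (p * s) * alt (L.map fun q => (p * q.1 * p, p * q.2)) := by
      rw [co_pp hp (hC a ha.2).1 (hC s hs.1).1, ← mul_assoc, (hC _ (mul_mem ha.2 hs.1)).1,
        mul_assoc, mul_assoc _ p, co_p_alt hp fun q hq => ⟨(hC _ (hL1 q hq).1).1, (hC _ (hL1 q hq).2).1⟩]
    have h0 : τ.φ (p * (a * s * alt L)) = 0 := by
      rw [e]
      refine (co_Fr hf hpB hc).cl _ (co_Cl hp hc ha.1) _ (subset_Cl _ hs.2) _ fun q hq => ?_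
      obtain ⟨r, hr, rfl⟩ := List.mem_map.1 hq
      refine ⟨co_Cl_cen hf hp hpB hp0 (co_Cl hp hc (hL r hr).1.1.1) ?_, subset_Cl _ (hL r hr).2.2⟩
      dsimp only
      rw [τ.comm, ← mul_assoc, hpp, (hC _ (hL1 r hr).1).2, (hL r hr).1.2, mul_zero]
    rw [(hC _ hX).2] at h0
    exact (mul_eq_zero.1 h0).resolve_left hp0
  · have := co_S_star hp hc (hS n)
    rwa [(hC _ (pow_mem hb _)).1, star_mul, hp.isSelfAdjoint.star_eq, star_pow] at this

end Crest.Agent.R134
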