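import Crest.Agent.R134.Free

/-!
# Row 134: creation operators give free semicircular elements (task R134-Cre)

PLANS.
* `Cre.extend`: inductive predicates on `B`:
  `An`: `An (ι a)` (`a ∈ N`); `An T → An (ι a * star (l j) * T)` (`a ∈ N`, `j ≠ i`);
  `Cr`: `An T → Cr T`; `Cr T → Cr (ι a * l j * T)` (`a ∈ N`, `j ≠ i`).
  `span Cr` contains `1` and is stable under left multiplication by `ι b` (`b ∈ N`), `l j`,
  `star (l j)` (`j ≠ i`), so contains `ι a` for `a` in the `adjoin` (adjoin induction on the property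
  "left multiplication by `ι a` and by `ι (star a)` preserves `span Cr`"; note `ι (star (x j)) = ι (x j)`).
  `An T` implies `T = ι a` or `T = S * star (l j) * ι a`.  For each `Cr T` check
  `star (l i) * T * l i = ω T • 1` and `ω (S * star (l i) * T) = 0`
  (`ω (ι a * l j * T) = conj ω (star T * star (l j) * ι (star a)) = 0`).
* `ι` is injective (`τ` faithful), hence isometric (`NonUnitalStarAlgHom.norm_map`); `star l * l = 1`.
* Key computation: if `R : B` satisfies `∀ T, ω (T * star l * R) = 0` then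
  `∀ n T, ω (T * ι (cheb x n) * R) = ω (T * l ^ n * R)` (two-step induction).
  For a list `L` of pairs `(a, cheb x (n+1))` with `a ∈ N` centred, `R = ι (alt L)` has this property
  (induction on `L`: `star l * ι a * l = 0`), and `ω (ι a * l ^ (n+1) * R) = 0`.
  This gives `Fr τ N (cen τ N) {cheb x (n+1)}`; `adjoin {x} ⊆ span {cheb x n}`
  (`x * cheb x (n+1) = cheb x (n+2) + cheb x n`), centred elements of it lie in
  `span {cheb x (n+1)}`; conclude with `Fr.cl`, `Fr.mono`, `subset_Cl`, `Free.clo`.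
-/

set_option autoImplicit false

namespace Crest.Agent.R134

open Crest.Agent.R95 Filter Topology
open scoped ComplexConjugate

universe u v

variable {A : Type u} [CStarAlgebra A] {B : Type v} [CStarAlgebra B] {τ : Tr A}
  {ι : A →⋆ₐ[ℂ] B} {ω : B →ₗ[ℂ] ℂ} {N N' : StarSubalgebra ℂ A} {l : B} {x : A}

theorem Cre1.mono (h : Cre1 τ ι ω N l x) (h' : N' ≤ N) : Cre1 τ ι ω N' l x :=
  ⟨fun a ha => h.rel a (h' ha), fun T a ha => h.vac T a (h' ha), h.gen⟩

namespace CreAux

/-- words of annihilation operators -/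
inductive An (ι : A →⋆ₐ[ℂ] B) (N : StarSubalgebra ℂ A) {I : Type*} (l : I → B) (i : I) : B → Prop
  | base (a : A) (ha : a ∈ N) : An ι N l i (ι a)
  | step (a : A) (ha : a ∈ N) (j : I) (hj : j ≠ i) (T : B) (hT : An ι N l i T) :
      An ι N l i (ι a * star (l j) * T)

/-- normally ordered words -/
inductive Cr (ι : A →⋆ₐ[ℂ] B) (N : StarSubalgebra ℂ A) {I : Type*} (l : I → B) (i : I) : B → Prop
  | an (T : B) (hT : An ι N l i T) : Cr ι N l i T
  | step (a : A) (ha : a ∈ N) (j : I) (hj : j ≠ i) (T : B) (hT : Cr ι N l i T) :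
      Cr ι N l i (ι a * l j * T)

section
variable {I : Type*} {l : I → B} {i : I}

theorem An.mul {T : B} (hT : An ι N l i T) {b : A} (hb : b ∈ N) : An ι N l i (ι b * T) := by
  cases hT with
  | base a ha => rw [← map_mul]; exact An.base _ (mul_mem hb ha)
  | step a ha j hj T hT =>
    rw [← mul_assoc, ← mul_assoc, ← map_mul]; exact An.step _ (mul_mem hb ha) j hj T hT

theorem Cr.mul {T : B} (hT : Cr ι N l i T) {b : A} (hb : b ∈ N) : Cr ι N l i (ι b * T) := by
  cases hT with
  | an T hT => exact Cr.an _ (hT.mul hb)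
  | step a ha j hj T hT =>
    rw [← mul_assoc, ← mul_assoc, ← map_mul]; exact Cr.step _ (mul_mem hb ha) j hj T hT

theorem An.form {T : B} (hT : An ι N l i T) :
    (∃ a ∈ N, T = ι a) ∨ ∃ S, ∃ j ≠ i, ∃ a ∈ N, T = S * star (l j) * ι a := by
  induction hT with
  | base a ha => exact Or.inl ⟨a, ha, rfl⟩
  | step a ha j hj T _ ih =>
    right
    rcases ih with ⟨b, hb, rfl⟩ | ⟨S, k, hk, b, hb, rfl⟩
    · exact ⟨ι a, j, hj, b, hb, rfl⟩
    · exact ⟨ι a * star (l j) * S, k, hk, b, hb, by simp only [mul_assoc]⟩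

end

theorem vac_left (hr : Rep τ ι ω) (h : Cre1 τ ι ω N l x) {a : A} (ha : a ∈ N) (T : B) :
    ω (ι a * l * T) = 0 := by
  have := h.vac (star T) (star a) (star_mem ha)
  rw [map_star, ← star_mul, ← star_mul, hr.om_star, map_eq_zero, ← mul_assoc] at this
  exact this

theorem mul_mem_span {R : Type*} [Ring R] [Algebra ℂ R] {S : Set R} {c : R}
    (h : ∀ T ∈ S, c * T ∈ Submodule.span ℂ S) {T : R} (hT : T ∈ Submodule.span ℂ S) :
    c * T ∈ Submodule.span ℂ S := by
  induction hT using Submodule.span_induction with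
  | mem T hT => exact h T hT
  | zero => simp
  | add S T _ _ h1 h2 => rw [mul_add]; exact add_mem h1 h2
  | smul r T _ h1 => rw [mul_smul_comm]; exact Submodule.smul_mem _ _ h1

theorem adjoin_mul_mem {V : Submodule ℂ B} {S : Set A}
    (h : ∀ s ∈ S, ∀ T ∈ V, ι s * T ∈ V ∧ ι (star s) * T ∈ V) {a : A}
    (ha : a ∈ StarAlgebra.adjoin ℂ S) : ∀ T ∈ V, ι a * T ∈ V ∧ ι (star a) * T ∈ V := by
  induction ha using StarAlgebra.adjoin_induction with
  | mem s hs => exact h s hs
  | algebraMap r =>
    intro T hT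
    simp only [Algebra.algebraMap_eq_smul_one, star_smul, star_one, map_smul, map_one,
      smul_mul_assoc, one_mul]
    exact ⟨V.smul_mem _ hT, V.smul_mem _ hT⟩
  | add a b _ _ h1 h2 =>
    intro T hT
    simp only [star_add, map_add, add_mul]
    exact ⟨add_mem (h1 T hT).1 (h2 T hT).1, add_mem (h1 T hT).2 (h2 T hT).2⟩
  | mul a b _ _ h1 h2 =>
    intro T hT
    simp only [star_mul, map_mul, mul_assoc]
    exact ⟨(h1 _ (h2 T hT).1).1, (h2 _ (h1 T hT).2).2⟩
  | star a _ h1 =>
    intro T hT
    rw [star_star]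
    exact ⟨(h1 T hT).2, (h1 T hT).1⟩

theorem map_star_gen (h : Cre1 τ ι ω N l x) : ι (star x) = ι x := by
  rw [map_star, h.gen, star_add, star_star, add_comm]

theorem isom (h : Cre1 τ ι ω N l x) : star l * l = 1 := by
  simpa [τ.one] using h.rel 1 (one_mem N)

theorem inj (hτ : τ.Faithful) (hr : Rep τ ι ω) : Function.Injective ι := by
  rw [injective_iff_map_eq_zero]
  intro a ha
  refine hτ a ?_
  rw [Tr.n2, ← hr.om, map_mul, ha, mul_zero, map_zero, Complex.zero_re, Real.sqrt_zero]

theorem key (h : Cre1 τ ι ω N l x) {R : B} (hR : ∀ T, ω (T * star l * R) = 0) (n : ℕ) :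
    (∀ T, ω (T * ι (cheb x n) * R) = ω (T * l ^ n * R)) ∧
      ∀ T, ω (T * ι (cheb x (n + 1)) * R) = ω (T * l ^ (n + 1) * R) := by
  induction n with
  | zero =>
    refine ⟨fun T => by simp [cheb], fun T => ?_⟩
    simp only [zero_add, cheb, h.gen, mul_add, add_mul, map_add, hR, add_zero, pow_one]
  | succ n ih =>
    refine ⟨ih.2, fun T => ?_⟩
    have e : T * star l * l ^ (n + 1) = T * l ^ n := by
      rw [pow_succ', ← mul_assoc, mul_assoc T, isom h, mul_one]
    rw [cheb, map_sub, map_mul ι, mul_sub, sub_mul, map_sub, ← mul_assoc, ih.1, ih.2, h.gen,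
      mul_add, add_mul, add_mul, map_add, e, add_sub_cancel_right, pow_succ' l (n + 1),
      mul_assoc T l]

theorem key_alt (h : Cre1 τ ι ω N l x) (L : List (A × A))
    (hL : ∀ p ∈ L, p.1 ∈ cen τ N ∧ p.2 ∈ Set.range fun n => cheb x (n + 1)) :
    ∀ T, ω (T * star l * ι (alt L)) = 0 := by
  induction L with
  | nil => intro T; exact h.vac T 1 (one_mem N)
  | cons p L ih =>
    intro T
    obtain ⟨⟨h1, h2⟩, n, hn⟩ := hL p List.mem_cons_self
    have ih' := ih fun q hq => hL q (List.mem_cons_of_mem _ hq)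
    have e := h.rel p.1 h1
    rw [h2, zero_smul] at e
    rw [alt_cons, map_mul ι, map_mul ι, ← hn, ← mul_assoc, ← mul_assoc, (key h ih' n).2,
      pow_succ', ← mul_assoc, mul_assoc T, mul_assoc T, e]
    simp

section
variable {I : Type*} {l : I → B} {x : I → A} {i : I}

theorem Cr.star_mul (h : Cre τ ι ω N l x) {j : I} (hj : j ≠ i) {T : B} (hT : Cr ι N l i T) :
    star (l j) * T ∈ Submodule.span ℂ {T | Cr ι N l i T} := by
  cases hT with
  | an T hT =>
    have := An.step 1 (one_mem N) j hj T hT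
    rw [map_one, one_mul] at this
    exact Submodule.subset_span (Cr.an _ this)
  | step a ha k hk T hT =>
    rw [← mul_assoc, ← mul_assoc]
    by_cases hjk : j = k
    · subst hjk
      rw [(h.one j).rel a ha, smul_mul_assoc, one_mul]
      exact Submodule.smul_mem _ _ (Submodule.subset_span hT)
    · rw [h.orth j k hjk a ha, zero_mul]
      exact zero_mem _

theorem Cr.prop (hr : Rep τ ι ω) (h : Cre τ ι ω N l x) {T : B} (hT : Cr ι N l i T) :
    star (l i) * T * l i = ω T • (1 : B) ∧ ∀ S, ω (S * star (l i) * T) = 0 := by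
  cases hT with
  | an T hT =>
    rcases hT.form with ⟨a, ha, rfl⟩ | ⟨S, j, hj, a, ha, rfl⟩
    · exact ⟨by rw [hr.om]; exact (h.one i).rel a ha, fun S => (h.one i).vac S a ha⟩
    · refine ⟨?_, fun S' => ?_⟩
      · rw [(h.one j).vac S a ha, zero_smul]
        have := h.orth j i hj a ha
        calc star (l i) * (S * star (l j) * ι a) * l i =
            star (l i) * S * (star (l j) * ι a * l i) := by simp only [mul_assoc]
          _ = 0 := by rw [this, mul_zero]
      · rw [← mul_assoc, ← mul_assoc]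
        exact (h.one j).vac _ a ha
  | step a ha j hj T hT =>
    have e : star (l i) * (ι a * l j * T) = 0 := by
      rw [← mul_assoc, ← mul_assoc, h.orth i j hj.symm a ha, zero_mul]
    refine ⟨?_, fun S => ?_⟩
    · rw [e, vac_left hr (h.one j) ha, zero_mul, zero_smul]
    · rw [mul_assoc, e, mul_zero, map_zero]

theorem span_one : (1 : B) ∈ Submodule.span ℂ {T | Cr ι N l i T} := by
  have := Cr.an _ (An.base (ι := ι) (l := l) (i := i) 1 (one_mem N))
  rw [map_one] at this
  exact Submodule.subset_span this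

theorem span_m1 {b : A} (hb : b ∈ N) {T : B} (hT : T ∈ Submodule.span ℂ {T | Cr ι N l i T}) :
    ι b * T ∈ Submodule.span ℂ {T | Cr ι N l i T} := by
  refine mul_mem_span (fun T hT => ?_) hT
  have : Cr ι N l i (ι b * T) := Cr.mul hT hb
  exact Submodule.subset_span this

theorem span_m2 {j : I} (hj : j ≠ i) {T : B} (hT : T ∈ Submodule.span ℂ {T | Cr ι N l i T}) :
    l j * T ∈ Submodule.span ℂ {T | Cr ι N l i T} := by
  refine mul_mem_span (fun T hT => ?_) hT
  have := Cr.step (ι := ι) (l := l) 1 (one_mem N) j hj T hT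
  rw [map_one, one_mul] at this
  exact Submodule.subset_span this

theorem span_m3 (h : Cre τ ι ω N l x) {j : I} (hj : j ≠ i) {T : B}
    (hT : T ∈ Submodule.span ℂ {T | Cr ι N l i T}) :
    star (l j) * T ∈ Submodule.span ℂ {T | Cr ι N l i T} :=
  mul_mem_span (fun _ hT => Cr.star_mul h hj hT) hT

theorem span_prop (hr : Rep τ ι ω) (h : Cre τ ι ω N l x) {T : B}
    (hT : T ∈ Submodule.span ℂ {T | Cr ι N l i T}) :
    star (l i) * T * l i = ω T • (1 : B) ∧ ∀ S, ω (S * star (l i) * T) = 0 := by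
  induction hT using Submodule.span_induction with
  | mem T hT => exact Cr.prop hr h hT
  | zero => simp
  | add S T _ _ h1 h2 =>
    refine ⟨?_, fun R => ?_⟩
    · rw [mul_add, add_mul, h1.1, h2.1, map_add, add_smul]
    · rw [mul_add, map_add, h1.2, h2.2, add_zero]
  | smul r T _ h1 =>
    refine ⟨?_, fun R => ?_⟩
    · rw [mul_smul_comm, smul_mul_assoc, h1.1, map_smul, smul_smul, smul_eq_mul]
    · rw [mul_smul_comm, map_smul, h1.2, smul_zero]

end

end CreAux

open CreAux

theorem Cre.extend {I : Type*} {l : I → B} {x : I → A} (hr : Rep τ ι ω) (h : Cre τ ι ω N l x)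
    (i : I) : Cre1 τ ι ω (StarAlgebra.adjoin ℂ ((N : Set A) ∪ x '' {i}ᶜ)) (l i) (x i) := by
  have hmem : ∀ a ∈ StarAlgebra.adjoin ℂ ((N : Set A) ∪ x '' {i}ᶜ),
      ι a ∈ Submodule.span ℂ {T | Cr ι N l i T} := fun a ha => by
    have := (adjoin_mul_mem (ι := ι) (V := Submodule.span ℂ {T | Cr ι N l i T}) (by
      intro s hs T hT
      rcases hs with hs | ⟨j, hj, rfl⟩
      · exact ⟨span_m1 hs hT, span_m1 (N.star_mem' hs) hT⟩
      · rw [map_star_gen (h.one j), and_self, (h.one j).gen, add_mul]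
        exact add_mem (span_m2 hj hT) (span_m3 h hj hT)) ha 1 span_one).1
    rwa [mul_one] at this
  refine ⟨fun a ha => ?_, fun T a ha => (span_prop hr h (hmem a ha)).2 T, (h.one i).gen⟩
  rw [← hr.om]
  exact (span_prop hr h (hmem a ha)).1

theorem Cre1.semi (hτ : τ.Faithful) (hr : Rep τ ι ω) (h : Cre1 τ ι ω N l x) : Semi τ x := by
  refine ⟨inj hτ hr (map_star_gen h), ?_, fun n => ?_⟩
  · rw [← NonUnitalStarAlgHom.norm_map ι (inj hτ hr) x, h.gen]
    have h1 : ‖l‖ ≤ 1 := by
      have h2 : ‖l‖ * ‖l‖ ≤ 1 := by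
        rw [← CStarRing.norm_star_mul_self, isom h]
        rcases subsingleton_or_nontrivial B with hB | hB
        · simp [Subsingleton.elim (1 : B) 0]
        · simp
      nlinarith [norm_nonneg l]
    refine (norm_add_le _ _).trans ?_
    rw [norm_star]; linarith
  · have h1 := (key h (R := 1) (fun T => by simpa using h.vac T 1 (one_mem N)) n).2 1
    have h2 := vac_left hr h (one_mem N) (l ^ n)
    rw [map_one, one_mul, ← pow_succ'] at h2
    rw [one_mul, mul_one, one_mul, mul_one, hr.om, h2] at h1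
    exact h1

theorem Cre1.free (hτ : τ.Faithful) (hr : Rep τ ι ω) (h : Cre1 τ ι ω N l x) :
    Free τ (clo τ N) (W τ {x}) := by
  have hs := h.semi hτ hr
  have h1 : Fr τ N (cen τ N) (Set.range fun n => cheb x (n + 1)) := by
    rintro a ha _ ⟨n, rfl⟩ L hL
    rw [← hr.om, map_mul ι, map_mul ι, (key h (key_alt h L hL) n).2, pow_succ', ← mul_assoc,
      mul_assoc _ (l ^ n)]
    exact vac_left hr h ha _
  have h2 : ∀ y ∈ StarAlgebra.adjoin ℂ {x}, y ∈ Submodule.span ℂ (Set.range (cheb x)) := by
    intro y hy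
    have := (adjoin_mul_mem (ι := StarAlgHom.id ℂ A) (V := Submodule.span ℂ (Set.range (cheb x)))
      (by
        intro s hsx T hT
        rw [Set.mem_singleton_iff.1 hsx, hs.sa.star_eq, and_self]
        refine mul_mem_span ?_ hT
        rintro _ ⟨n, rfl⟩
        cases n with
        | zero => exact Submodule.subset_span ⟨1, by simp [cheb]⟩
        | succ n =>
          have e : StarAlgHom.id ℂ A x * cheb x (n + 1) = cheb x (n + 2) + cheb x n :=
            (sub_add_cancel _ _).symm
          rw [e]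
          exact add_mem (Submodule.subset_span ⟨_, rfl⟩) (Submodule.subset_span ⟨_, rfl⟩))
      hy 1 (Submodule.subset_span ⟨0, rfl⟩)).1
    rwa [mul_one] at this
  have h3 : ∀ y ∈ Submodule.span ℂ (Set.range (cheb x)),
      y - τ.φ y • 1 ∈ Submodule.span ℂ (Set.range fun n => cheb x (n + 1)) := by
    intro y hy
    induction hy using Submodule.span_induction with
    | mem y hy =>
      obtain ⟨n, rfl⟩ := hy
      cases n with
      | zero => simp [cheb, τ.one]
      | succ n =>
        rw [hs.mom, zero_smul, sub_zero]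
        exact Submodule.subset_span ⟨n, rfl⟩
    | zero => simp
    | add y z _ _ a1 a2 =>
      rw [map_add, add_smul, add_sub_add_comm]
      exact add_mem a1 a2
    | smul r y _ a1 =>
      rw [map_smul, smul_eq_mul, mul_smul, ← smul_sub]
      exact Submodule.smul_mem _ _ a1
  have h4 : Free τ N (StarAlgebra.adjoin ℂ {x}) := by
    refine h1.cl.mono (subset_Cl _) (subset_Cl _) fun y hy ε hε => ?_
    have := h3 y (h2 y hy.1)
    rw [hy.2, zero_smul, sub_zero] at this
    exact ⟨y, this, by simpa [τ.n2_zero] using hε⟩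
  exact h4.clo

end Crest.Agent.R134
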