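import Crest.Agent.R95.W

/-!
# Row 134 (S0183, S0184): `L(F_n) ≅ L(F_{n+1})`.  Definitions.

Everything is done in a C⋆-algebra `A` with a faithful tracial state `τ` which is weakly closed
(`VN τ`), see `Crest.Agent.R95.Defs` (`Tr`, `n2`, `IsW`, `clo`, `Gen`, `wd`, `Adm`, `gw`).

OUTLINE.  `A` = von Neumann algebra of a free semicircular family `X i`, `i : Option J`.
`u i = hu (X i)` is a free Haar family generating `A`.  *Absorption* (`Absorb`): if `b β` (`β < m`),
`c`, `z` are free Haar unitaries then a trace preserving automorphism which moves the `b β` by less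
than `δ` and fixes all other generators (but `z`) maps a word in `b, c` to within `30/√m` of `z`.
*Amplification* (`Level`): in the commutant of `k × k` matrix units `u j₁` splits into `k` Haar
unitaries and `X none` splits linearly into `k²` semicirculars, absorbed one at a time.  A limit
argument (`Baire`) gives a free Haar family indexed by `J` generating `A`.
-/

set_option autoImplicit false

namespace Crest.Agent.R134

open Crest.Agent.R95 Filter Topology
open scoped ComplexConjugate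

universe u v

variable {A : Type u} [CStarAlgebra A]

/-- faithful and weakly closed -/
structure VN (τ : Tr A) : Prop where
  faithful : τ.Faithful
  top : IsW τ ⊤

/-- the von Neumann algebra generated by `S`; `Gen τ S` is (defeq to) `∀ x, x ∈ W τ S` -/
noncomputable def W (τ : Tr A) (S : Set A) : StarSubalgebra ℂ A :=
  clo τ (StarAlgebra.adjoin ℂ S)

/-- trace preserving automorphisms fixing `S` pointwise -/
def TPF (τ : Tr A) (S : Set A) : Subgroup (A ≃⋆ₐ[ℂ] A) where
  carrier := {θ | (∀ x, τ.φ (θ x) = τ.φ x) ∧ ∀ s ∈ S, θ s = s}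
  mul_mem' := fun {θ σ} h h' => ⟨fun x => by rw [StarAlgEquiv.mul_apply, h.1, h'.1],
    fun s hs => by rw [StarAlgEquiv.mul_apply, h'.2 s hs, h.2 s hs]⟩
  one_mem' := ⟨fun _ => rfl, fun _ _ => rfl⟩
  inv_mem' := fun {θ} h => ⟨fun x => by
      rw [← h.1, StarAlgEquiv.aut_inv, StarAlgEquiv.apply_symm_apply],
    fun s hs => by
      rw [StarAlgEquiv.aut_inv]
      conv_lhs => rw [← h.2 s hs]
      exact θ.symm_apply_apply s⟩

theorem mem_TPF {τ : Tr A} {S : Set A} {θ : A ≃⋆ₐ[ℂ] A} :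
    θ ∈ TPF τ S ↔ (∀ x, τ.φ (θ x) = τ.φ x) ∧ ∀ s ∈ S, θ s = s := Iff.rfl

/-- `‖·‖₂`-closure of the linear span -/
def Cl (τ : Tr A) (S : Set A) : Set A :=
  {x | ∀ ε > 0, ∃ y ∈ Submodule.span ℂ S, τ.n2 (x - y) < ε}

/-- alternating product `a₁ s₁ a₂ s₂ ⋯` -/
def alt (L : List (A × A)) : A := (L.map fun p => p.1 * p.2).prod

/-- alternating products `a₀ s₀ a₁ s₁ ⋯` with `a₀ ∈ 𝒜₀`, `aᵢ ∈ 𝒜₁`, `sᵢ ∈ 𝒮` have trace zero -/
def Fr (τ : Tr A) (𝒜₀ 𝒜₁ 𝒮 : Set A) : Prop :=
  ∀ a ∈ 𝒜₀, ∀ s ∈ 𝒮, ∀ L : List (A × A), (∀ p ∈ L, p.1 ∈ 𝒜₁ ∧ p.2 ∈ 𝒮) →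
    τ.φ (a * s * alt L) = 0

/-- centred elements -/
def cen (τ : Tr A) (S : Set A) : Set A := {x | x ∈ S ∧ τ.φ x = 0}

/-- free independence of two subalgebras -/
def Free (τ : Tr A) (𝒜 ℬ : StarSubalgebra ℂ A) : Prop :=
  Fr τ 𝒜 (cen τ 𝒜) (cen τ ℬ)

/-- `u` is a Haar unitary free from `𝒜` (in `R`-diagonal form) -/
def St (τ : Tr A) (𝒜 : StarSubalgebra ℂ A) (u : A) : Prop :=
  ∀ L : List (A × Bool), L ≠ [] → (∀ p ∈ L, p.1 ∈ 𝒜) → Adm τ L → τ.φ (wd u L) = 0

/-- free Haar family -/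
def FH (τ : Tr A) {J : Type*} (u : J → A) : Prop :=
  ∀ L : List (J × Bool), L ≠ [] → FreeGroup.IsReduced L → τ.φ (gw u L) = 0

/-- a generating family of Haar unitaries, free with amalgamation over nothing from `P` -/
structure Sys (τ : Tr A) (P : Set A) {I : Type*} (u : I → A) : Prop where
  uni : ∀ i, u i ∈ unitary A
  st : ∀ i, St τ (W τ (P ∪ u '' {i}ᶜ)) (u i)
  gen : Gen τ (P ∪ Set.range u)

/-- `exp (i t)` -/
noncomputable def ex (t : A) : A := NormedSpace.exp (Complex.I • t)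

/-- `ζ` is a bounded centred logarithm of `z`, free from `𝒜` in the weak sense needed -/
structure Log (τ : Tr A) (𝒜 : StarSubalgebra ℂ A) (z ζ : A) : Prop where
  sa : IsSelfAdjoint ζ
  norm_le : ‖ζ‖ ≤ Real.pi
  exp_eq : ex ζ = z
  mem : ζ ∈ W τ {z}
  orth : ∀ h ∈ 𝒜, τ.φ h = 0 → τ.φ (star h * ζ * h * ζ) = 0

/-! ### semicircular and uniform variables -/

/-- Chebyshev polynomials `S_n(x)` -/
def cheb {R : Type*} [Ring R] (x : R) : ℕ → R
  | 0 => 1
  | 1 => x
  | n + 2 => x * cheb x (n + 1) - cheb x n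

/-- forces the equation lemmas of `cheb` to be generated in this module -/
theorem cheb_eqns {R : Type*} [Ring R] (x : R) (n : ℕ) :
    cheb x 0 = 1 ∧ cheb x 1 = x ∧ cheb x (n + 2) = x * cheb x (n + 1) - cheb x n :=
  have := cheb.eq_def x n
  ⟨cheb.eq_1 x, cheb.eq_2 x, cheb.eq_3 x n⟩

/-- standard semicircular element -/
structure Semi (τ : Tr A) (X : A) : Prop where
  sa : IsSelfAdjoint X
  norm_le : ‖X‖ ≤ 2
  mom : ∀ n, τ.φ (cheb X (n + 1)) = 0

/-- functional calculus of a self-adjoint element for complex valued functions -/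
noncomputable def fc (f : ℝ → ℂ) (t : A) : A := cfc (fun z : ℂ => f z.re) t

/-- uniformly distributed on `[-π, π]` -/
structure Unif (τ : Tr A) (t : A) : Prop where
  sa : IsSelfAdjoint t
  norm_le : ‖t‖ ≤ Real.pi
  law : ∀ f : ℝ → ℂ, Continuous f →
    τ.φ (fc f t) = (1 / (2 * Real.pi) : ℝ) • ∫ x in (-Real.pi)..Real.pi, f x

/-- the increasing map `[-2, 2] → [-π, π]` pushing the semicircle law to the uniform law -/
noncomputable def FF (x : ℝ) : ℝ :=
  Real.pi - 2 * Real.arccos (x / 2) + Real.sin (2 * Real.arccos (x / 2))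

/-- uniform variable attached to a semicircular one -/
noncomputable def lg (X : A) : A := cfc FF X

/-- Haar unitary attached to a semicircular variable -/
noncomputable def hu (X : A) : A := ex (lg X)

/-! ### creation operators -/

section cre

variable {B : Type v} [CStarAlgebra B]

/-- `ω` is a "vacuum state" on `B` extending `τ` -/
structure Rep (τ : Tr A) (ι : A →⋆ₐ[ℂ] B) (ω : B →ₗ[ℂ] ℂ) : Prop where
  om : ∀ a, ω (ι a) = τ.φ a
  om_star : ∀ T, ω (star T) = conj (ω T)

/-- `x = l + l⋆` for a creation operator `l` over `N` -/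
structure Cre1 (τ : Tr A) (ι : A →⋆ₐ[ℂ] B) (ω : B →ₗ[ℂ] ℂ) (N : StarSubalgebra ℂ A) (l : B)
    (x : A) : Prop where
  rel : ∀ a ∈ N, star l * ι a * l = τ.φ a • (1 : B)
  vac : ∀ T, ∀ a ∈ N, ω (T * star l * ι a) = 0
  gen : ι x = l + star l

/-- a family of creation operators over `N` -/
structure Cre (τ : Tr A) (ι : A →⋆ₐ[ℂ] B) (ω : B →ₗ[ℂ] ℂ) (N : StarSubalgebra ℂ A) {I : Type*}
    (l : I → B) (x : I → A) : Prop where
  one : ∀ i, Cre1 τ ι ω N (l i) (x i)
  orth : ∀ i j, i ≠ j → ∀ a ∈ N, star (l i) * ι a * l j = 0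

/-- the free semicircular model -/
structure Model (τ : Tr A) (ι : A →⋆ₐ[ℂ] B) (ω : B →ₗ[ℂ] ℂ) {I : Type*} (l : I → B)
    (X : I → A) : Prop where
  vn : VN τ
  rep : Rep τ ι ω
  cre : ∀ i, Cre1 τ ι ω (W τ (X '' {i}ᶜ)) (l i) (X i)
  gen : Gen τ (Set.range X)

end cre

/-! ### matrix units -/

section mu

variable {K : Type} [Fintype K] [DecidableEq K]

/-- a partition of unity into projections of equal trace -/
structure PU (τ : Tr A) (p : K → A) : Prop where
  proj : ∀ a, IsStarProjection (p a)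
  orth : ∀ a b, a ≠ b → p a * p b = 0
  sum : ∑ a, p a = 1
  tr : ∀ a, τ.φ (p a) = (Fintype.card K : ℂ)⁻¹

/-- matrix units -/
structure MU (e : K → K → A) : Prop where
  mul : ∀ a b c d, e a b * e c d = if b = c then e a d else 0
  adj : ∀ a b, star (e a b) = e b a
  sum : ∑ a, e a a = 1

/-- the set of matrix units -/
def mus (e : K → K → A) : Set A := {x | ∃ a b, e a b = x}

/-- the commutant of the matrix units -/
noncomputable def Cm (e : K → K → A) : StarSubalgebra ℂ A := StarSubalgebra.centralizer ℂ (mus e)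

instance (e : K → K → A) : IsClosed (Cm e : Set A) := by
  rw [Cm, StarSubalgebra.coe_centralizer]
  exact Set.isClosed_centralizer _

/-- matrix entries -/
noncomputable def ent (e : K → K → A) (a b : K) (x : A) : A := ∑ l, e l a * x * e b l

/-- `(1 + i)/2` -/
noncomputable def ω₀ : ℂ := (1 + Complex.I) / 2

/-- the `k²` semicircular components of `x` -/
noncomputable def Xc (e : K → K → A) (x : A) (q : K × K) : A :=
  (√(Fintype.card K : ℝ) : ℂ) • (ω₀ • ent e q.1 q.2 x + conj ω₀ • ent e q.2 q.1 x)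

/-- reconstruction from the components -/
noncomputable def rc (e : K → K → A) (y : K × K → A) : A :=
  ∑ q : K × K, ((√(Fintype.card K : ℝ) : ℂ)⁻¹ • (conj ω₀ • y q + ω₀ • y q.swap)) * e q.1 q.2

end mu

/-- restriction of the trace to a closed subalgebra -/
noncomputable def sub (τ : Tr A) (C : StarSubalgebra ℂ A) [IsClosed (C : Set A)] : Tr C where
  φ := τ.φ ∘L C.toSubalgebra.toSubmodule.subtypeL
  one := τ.one
  comm := fun x y => τ.comm x y
  star := fun x => τ.star x
  pos := fun x => τ.pos x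

theorem sub_phi (τ : Tr A) (C : StarSubalgebra ℂ A) [IsClosed (C : Set A)] (x : C) :
    (sub τ C).φ x = τ.φ x := rfl

theorem sub_n2 (τ : Tr A) (C : StarSubalgebra ℂ A) [IsClosed (C : Set A)] (x : C) :
    (sub τ C).n2 x = τ.n2 x := rfl

end Crest.Agent.R134
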