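import Crest.Agent.R134.Basic

/-!
# Row 134: extension of trace preserving maps (task R134-Ext)

PLAN.  `ρ` = averaged trace `(a, b) ↦ (τ a + σ b)/2` on the C⋆-algebra `A × B` (a `Tr`; faithful;
`IsW ρ ⊤` componentwise, `ρ.n2 g ^ 2 = (n2 g.1 ^ 2 + n2 g.2 ^ 2)/2`).  `Γ = W ρ G`.  On
`adjoin G` (contained in `span G`, as `G` is a star closed submonoid) `τ g.1 = σ g.2`; this passes
to `Γ` by continuity, so `n2 g.1 = n2 g.2` on `Γ`.  Hence the projections `Γ →⋆ₐ A`, `Γ →⋆ₐ B` are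
injective, so isometric (`NonUnitalStarAlgHom.norm_map`, `Γ` is closed: `isClosed_W`,
`StarSubalgebra.cstarAlgebra`).  The range of the first projection is `IsW` (lift a bounded Cauchy
sequence to `Γ`, use `isW_clo`), contains `adjoin (fst '' G)`, so it is everything by
`IsW.mem_of_inCl` (Kaplansky).  Same for the second one (prove a symmetric lemma once).
`θ = (ofBijective fst).symm.trans (ofBijective snd)`.
-/

set_option autoImplicit false

namespace Crest.Agent.R134

open Crest.Agent.R95 Filter Topology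
open scoped ComplexConjugate

universe u v

theorem ext_bij {C : Type u} {A : Type v} [CStarAlgebra C] [CStarAlgebra A] {ρ : Tr C} {τ : Tr A}
    (hρ : VN ρ) (hτ : VN τ) (G : Set C) (f : C →⋆ₐ[ℂ] A)
    (hn : ∀ g ∈ W ρ G, τ.n2 (f g) = ρ.n2 g) (hg : Gen τ (f '' G)) :
    Function.Bijective (f.comp (W ρ G).subtype) := by
  set F := f.comp (W ρ G).subtype with hF
  have hFn : ∀ g : W ρ G, τ.n2 (F g) = ρ.n2 g := fun g => hn g g.2
  have hinj : Function.Injective F := by
    rw [injective_iff_map_eq_zero]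
    intro g h
    have := hFn g
    rw [h, τ.n2_zero] at this
    exact Subtype.ext (hρ.faithful _ this.symm)
  have hnorm : ∀ g : W ρ G, ‖F g‖ = ‖g‖ := fun g => NonUnitalStarAlgHom.norm_map F hinj g
  have hW : IsW τ F.range := by
    intro x K hx hK hc
    choose g hgx using hx
    have hgx' : ∀ n, F (g n) = x n := hgx
    obtain ⟨y, hy, hyK, hlim⟩ := isW_clo hρ.top (StarAlgebra.adjoin ℂ G) (fun n => (g n : C)) K
      (fun n => (g n).2) (fun n => by
        have := hnorm (g n)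
        rw [hgx'] at this
        exact this ▸ hK n) (fun ε hε => by
        obtain ⟨n₀, h⟩ := hc ε hε
        refine ⟨n₀, fun m hm n hn' => ?_⟩
        have := h m hm n hn'
        rwa [← hgx', ← hgx', ← map_sub, hFn] at this)
    refine ⟨F ⟨y, hy⟩, ⟨_, rfl⟩, by rw [hnorm]; exact hyK, hlim.congr fun n => ?_⟩
    rw [← hgx', ← map_sub, hFn]
    rfl
  refine ⟨hinj, fun x => ?_⟩
  refine hW.mem_of_inCl hτ.faithful (clo_mono (StarAlgebra.adjoin_le ?_) (hg x))
  rintro _ ⟨g, hg, rfl⟩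
  exact ⟨⟨g, mem_W hg⟩, rfl⟩

section prod

variable {A : Type u} {B : Type v} [CStarAlgebra A] [CStarAlgebra B]

/-- the averaged trace on a product -/
noncomputable def prodTr (τ : Tr A) (σ : Tr B) : Tr (A × B) where
  φ := (1 / 2 : ℂ) • (τ.φ ∘L ContinuousLinearMap.fst ℂ A B + σ.φ ∘L ContinuousLinearMap.snd ℂ A B)
  one := by simp [τ.one, σ.one]; norm_num
  comm := fun x y => by simp [τ.comm x.1 y.1, σ.comm x.2 y.2]
  star := fun x => by simp [τ.star, σ.star, map_ofNat]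
  pos := fun x => by
    have h1 := τ.pos x.1
    have h2 := σ.pos x.2
    simp
    positivity

theorem prodTr_phi (τ : Tr A) (σ : Tr B) (g : A × B) :
    (prodTr τ σ).φ g = (1 / 2 : ℂ) * (τ.φ g.1 + σ.φ g.2) := rfl

theorem prodTr_n2_sq (τ : Tr A) (σ : Tr B) (g : A × B) :
    (prodTr τ σ).n2 g ^ 2 = (τ.n2 g.1 ^ 2 + σ.n2 g.2 ^ 2) / 2 := by
  rw [Tr.n2_sq, Tr.n2_sq, Tr.n2_sq, prodTr_phi]
  simp
  ring

theorem n2_fst_le (τ : Tr A) (σ : Tr B) (g : A × B) : τ.n2 g.1 ≤ 2 * (prodTr τ σ).n2 g := by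
  have h := prodTr_n2_sq τ σ g
  have h0 := (prodTr τ σ).n2_nonneg g
  nlinarith [τ.n2_nonneg g.1, sq_nonneg (σ.n2 g.2), sq_nonneg (τ.n2 g.1 - 2 * (prodTr τ σ).n2 g)]

theorem n2_snd_le (τ : Tr A) (σ : Tr B) (g : A × B) : σ.n2 g.2 ≤ 2 * (prodTr τ σ).n2 g := by
  have h := prodTr_n2_sq τ σ g
  have h0 := (prodTr τ σ).n2_nonneg g
  nlinarith [σ.n2_nonneg g.2, sq_nonneg (τ.n2 g.1), sq_nonneg (σ.n2 g.2 - 2 * (prodTr τ σ).n2 g)]

theorem prodTr_n2_le (τ : Tr A) (σ : Tr B) (g : A × B) :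
    (prodTr τ σ).n2 g ≤ τ.n2 g.1 + σ.n2 g.2 := by
  have h := prodTr_n2_sq τ σ g
  have h0 := (prodTr τ σ).n2_nonneg g
  have h1 := τ.n2_nonneg g.1
  have h2 := σ.n2_nonneg g.2
  refine (sq_le_sq₀ h0 (by positivity)).1 ?_
  nlinarith [mul_nonneg h1 h2]

theorem vn_prod {τ : Tr A} {σ : Tr B} (hτ : VN τ) (hσ : VN σ) : VN (prodTr τ σ) := by
  refine ⟨fun g hg => ?_, fun x K _ hK hc => ?_⟩
  · have h1 := n2_fst_le τ σ g
    have h2 := n2_snd_le τ σ g
    rw [hg, mul_zero] at h1 h2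
    exact Prod.ext (hτ.faithful _ (le_antisymm h1 (τ.n2_nonneg _)))
      (hσ.faithful _ (le_antisymm h2 (σ.n2_nonneg _)))
  · obtain ⟨y, -, hy, hyl⟩ := hτ.top (fun n => (x n).1) K (fun _ => trivial)
      (fun n => (norm_fst_le _).trans (hK n)) (fun ε hε => by
        obtain ⟨n₀, h⟩ := hc (ε / 2) (half_pos hε)
        refine ⟨n₀, fun m hm n hn => ?_⟩
        have h1 := h m hm n hn
        have h2 := n2_fst_le τ σ (x m - x n)
        rw [Prod.fst_sub] at h2
        linarith)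
    obtain ⟨z, -, hz, hzl⟩ := hσ.top (fun n => (x n).2) K (fun _ => trivial)
      (fun n => (norm_snd_le _).trans (hK n)) (fun ε hε => by
        obtain ⟨n₀, h⟩ := hc (ε / 2) (half_pos hε)
        refine ⟨n₀, fun m hm n hn => ?_⟩
        have h1 := h m hm n hn
        have h2 := n2_snd_le τ σ (x m - x n)
        rw [Prod.snd_sub] at h2
        linarith)
    refine ⟨(y, z), trivial, by rw [Prod.norm_def]; exact max_le hy hz, ?_⟩
    have := hyl.add hzl
    rw [add_zero] at this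
    exact squeeze_zero (fun _ => Tr.n2_nonneg _ _) (fun n => prodTr_n2_le τ σ _) this

end prod

theorem ext_iso {A : Type u} {B : Type v} [CStarAlgebra A] [CStarAlgebra B] {τ : Tr A} {σ : Tr B}
    (hτ : VN τ) (hσ : VN σ) (G : Submonoid (A × B)) (hstar : ∀ g ∈ G, star g ∈ G)
    (htr : ∀ g ∈ G, τ.φ g.1 = σ.φ g.2) (h1 : Gen τ (Prod.fst '' (G : Set (A × B))))
    (h2 : Gen σ (Prod.snd '' (G : Set (A × B)))) :
    ∃ θ : A ≃⋆ₐ[ℂ] B, (∀ x, σ.φ (θ x) = τ.φ x) ∧ ∀ g ∈ G, θ g.1 = g.2 := by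
  set ρ := prodTr τ σ with hρ
  have hspan : ∀ g ∈ StarAlgebra.adjoin ℂ (G : Set (A × B)),
      g ∈ Submodule.span ℂ (G : Set (A × B)) := by
    intro g hg
    induction hg using StarAlgebra.adjoin_induction with
    | mem x hx => exact Submodule.subset_span hx
    | algebraMap r =>
      rw [Algebra.algebraMap_eq_smul_one]
      exact Submodule.smul_mem _ _ (Submodule.subset_span G.one_mem)
    | add x y _ _ hx hy => exact add_mem hx hy
    | mul x y _ _ hx hy =>
      have := Submodule.mul_mem_mul hx hy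
      rw [Submodule.span_mul_span] at this
      refine Submodule.span_mono ?_ this
      rintro _ ⟨a, ha, b, hb, rfl⟩
      exact G.mul_mem ha hb
    | star x _ hx =>
      clear * - hx hstar
      induction hx using Submodule.span_induction with
      | mem x hx => exact Submodule.subset_span (hstar x hx)
      | zero => rw [star_zero]; exact zero_mem _
      | add x y _ _ hx hy => rw [star_add]; exact add_mem hx hy
      | smul c x _ hx => rw [star_smul]; exact Submodule.smul_mem _ _ hx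
  have hadj : ∀ g ∈ StarAlgebra.adjoin ℂ (G : Set (A × B)), τ.φ g.1 = σ.φ g.2 := by
    intro g hg
    have hg := hspan g hg
    clear * - hg htr
    induction hg using Submodule.span_induction with
    | mem x hx => exact htr x hx
    | zero => simp
    | add x y _ _ hx hy => simp [hx, hy]
    | smul c x _ hx => simp [hx]
  have hΓ : ∀ g ∈ W ρ (G : Set (A × B)), τ.φ g.1 = σ.φ g.2 := by
    intro g hg
    obtain ⟨y, hy, hl⟩ := exists_tendsto_of_inCl hg
    have hl2 := hl.const_mul 2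
    rw [mul_zero] at hl2
    have t1 : Tendsto (fun n => τ.n2 ((y n).1 - g.1)) atTop (𝓝 0) :=
      squeeze_zero (fun _ => Tr.n2_nonneg _ _) (fun n => n2_fst_le τ σ (y n - g)) hl2
    have t2 : Tendsto (fun n => σ.n2 ((y n).2 - g.2)) atTop (𝓝 0) :=
      squeeze_zero (fun _ => Tr.n2_nonneg _ _) (fun n => n2_snd_le τ σ (y n - g)) hl2
    exact tendsto_nhds_unique (tendsto_phi t1) ((tendsto_phi t2).congr fun n => (hadj _ (hy n)).symm)
  have hn : ∀ g ∈ W ρ (G : Set (A × B)), τ.n2 g.1 = σ.n2 g.2 := by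
    intro g hg
    have := hΓ _ (mul_mem (star_mem hg) hg)
    unfold Tr.n2
    rw [← show τ.φ (star g * g).1 = τ.φ (star g.1 * g.1) from rfl, this]
    rfl
  have hn1 : ∀ g ∈ W ρ (G : Set (A × B)), τ.n2 g.1 = ρ.n2 g := by
    intro g hg
    have h := prodTr_n2_sq τ σ g
    rw [← hn g hg, add_self_div_two] at h
    exact ((sq_eq_sq₀ (Tr.n2_nonneg _ _) (Tr.n2_nonneg _ _)).1 h).symm
  have b1 := ext_bij (vn_prod hτ hσ) hτ (G : Set (A × B)) (StarAlgHom.fst ℂ A B) hn1 h1
  have b2 := ext_bij (vn_prod hτ hσ) hσ (G : Set (A × B)) (StarAlgHom.snd ℂ A B)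
    (fun g hg => (hn g hg).symm.trans (hn1 g hg)) h2
  have key : ∀ g : W ρ (G : Set (A × B)),
      ((StarAlgEquiv.ofBijective _ b1).symm.trans (StarAlgEquiv.ofBijective _ b2)) g.1.1 = g.1.2 := by
    intro g
    rw [StarAlgEquiv.trans_apply]
    have : (StarAlgEquiv.ofBijective _ b1).symm g.1.1 = g :=
      (StarAlgEquiv.ofBijective _ b1).symm_apply_apply g
    rw [this]
    rfl
  refine ⟨(StarAlgEquiv.ofBijective _ b1).symm.trans (StarAlgEquiv.ofBijective _ b2),
    fun x => ?_, fun g hg => key ⟨g, mem_W hg⟩⟩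
  obtain ⟨g, rfl⟩ := b1.2 x
  have := key g
  exact (congrArg σ.φ this).trans (hΓ g g.2).symm

end Crest.Agent.R134
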