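import Crest.Agent.R134.Basic

/-!
# Row 134: freeness lemmas (task R134-Free)

PLANS.
* `Fr.cl`: a linear functional `x ↦ τ (c * x * d)` is `‖·‖₂`-continuous, so if it vanishes on `S` it
  vanishes on `Cl τ S`.  Apply slot by slot: prove for `L = L₁ ++ L₂` with entries of `L₁` in the big
  sets and of `L₂` in the small sets, by induction on `L₁` from the right (`List.reverseRecOn`), or
  generalise over a prefix.
* `cen_clo_subset`: approximate `x` by `b ∈ 𝒜`, then by `b - τ b • 1`.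
* `Fr.st`: prove for every prefix (`a₀, s₀, M` as in `Fr`, or empty), `a`, sign `ε`, exponent `n` and
  every remaining list `L₂` with `Adm ((a, ε) :: L₂)`:
  `τ (prefix * a * (u^ε)^(n+1) * wd u L₂) = 0`, by induction on `L₂`; if the next sign is the same split
  the next letter `x = (x - τ x • 1) + τ x • 1`.
* `fh_of_st`: strong induction on the length of the reduced word.  Let `i` be the first index.  Prove
  for all `M ≠ []` admissible with letters in `adjoin (u '' {i}ᶜ)` and last sign `ε`, block `K` (word in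
  the other indices) and rest `L₂` with `(i, ε) :: K ++ L₂` reduced (and of bounded length):
  `τ (wd (u i) M * gw u K * gw u L₂) = 0`, by induction on `L₂`.  When a letter `(i, δ)` with `δ ≠ ε`
  comes, `K ≠ []` is reduced and shorter, so `gw u K` is centred.
* `FH.limit`: `gw` is `‖·‖₂`-continuous on unitaries (`tendsto_n2_mul`, `tendsto_phi`).
-/

set_option autoImplicit false

namespace Crest.Agent.R134

open Crest.Agent.R95 Filter Topology
open scoped ComplexConjugate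

universe u v

variable {A : Type u} [CStarAlgebra A] {τ : Tr A} {𝒜 𝒜' ℬ ℬ' : StarSubalgebra ℂ A} {u : A}

theorem alt_nil : alt ([] : List (A × A)) = 1 := rfl

theorem alt_cons (p : A × A) (L : List (A × A)) : alt (p :: L) = p.1 * p.2 * alt L := by
  simp [alt]

theorem alt_append (L L' : List (A × A)) : alt (L ++ L') = alt L * alt L' := by
  simp [alt]

theorem Fr.mono {𝒜₀ 𝒜₁ 𝒮 𝒜₀' 𝒜₁' 𝒮' : Set A} (h : Fr τ 𝒜₀ 𝒜₁ 𝒮) (h0 : 𝒜₀' ⊆ 𝒜₀)
    (h1 : 𝒜₁' ⊆ 𝒜₁) (h2 : 𝒮' ⊆ 𝒮) : Fr τ 𝒜₀' 𝒜₁' 𝒮' :=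
  fun a ha s hs L hL => h a (h0 ha) s (h2 hs) L fun p hp => ⟨h1 (hL p hp).1, h2 (hL p hp).2⟩

theorem Free.mono (h : Free τ 𝒜 ℬ) (h1 : 𝒜' ≤ 𝒜) (h2 : ℬ' ≤ ℬ) : Free τ 𝒜' ℬ' :=
  Fr.mono h h1 (fun _ hx => ⟨h1 hx.1, hx.2⟩) fun _ hx => ⟨h2 hx.1, hx.2⟩

theorem subset_Cl (S : Set A) : S ⊆ Cl τ S := fun x hx ε hε =>
  ⟨x, Submodule.subset_span hx, by simpa [τ.n2_zero] using hε⟩

theorem fr_cl_vanish {S : Set A} {c d : A} (h : ∀ y ∈ S, τ.φ (c * y * d) = 0) {x : A}
    (hx : x ∈ Cl τ S) : τ.φ (c * x * d) = 0 := by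
  have hs : ∀ y ∈ Submodule.span ℂ S, τ.φ (c * y * d) = 0 := by
    intro y hy
    induction hy using Submodule.span_induction with
    | mem y hy => exact h y hy
    | zero => simp
    | add y z _ _ hy hz => rw [mul_add, add_mul, map_add, hy, hz, add_zero]
    | smul r y _ hy => rw [mul_smul_comm, smul_mul_assoc, map_smul, hy, smul_zero]
  refine norm_eq_zero.1 (le_antisymm (le_of_forall_pos_le_add fun ε hε => ?_) (norm_nonneg _))
  obtain ⟨y, hy, hxy⟩ := hx (ε / (‖c‖ * ‖d‖ + 1)) (by positivity)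
  have e : τ.φ (c * x * d) = τ.φ (c * (x - y) * d) := by
    rw [mul_sub, sub_mul, map_sub, hs y hy, sub_zero]
  rw [e, zero_add]
  rw [lt_div_iff₀ (by positivity)] at hxy
  have h1 := τ.n2_mul_le_right (c * (x - y)) d
  have h2 := mul_le_mul_of_nonneg_right (τ.n2_mul_le_left c (x - y)) (norm_nonneg d)
  have h3 := τ.norm_phi_le_n2 (c * (x - y) * d)
  nlinarith [τ.n2_nonneg (x - y)]

theorem Fr.cl {𝒜₀ 𝒜₁ 𝒮 : Set A} (h : Fr τ 𝒜₀ 𝒜₁ 𝒮) : Fr τ (Cl τ 𝒜₀) (Cl τ 𝒜₁) (Cl τ 𝒮) := by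
  have key : ∀ L₂ : List (A × A), (∀ p ∈ L₂, p.1 ∈ Cl τ 𝒜₁ ∧ p.2 ∈ Cl τ 𝒮) → ∀ c : A,
      (∀ L : List (A × A), (∀ p ∈ L, p.1 ∈ 𝒜₁ ∧ p.2 ∈ 𝒮) → τ.φ (c * alt L) = 0) →
      τ.φ (c * alt L₂) = 0 := by
    intro L₂
    induction L₂ with
    | nil => exact fun _ c hc => hc [] (by simp)
    | cons q L₂ ih =>
      intro hL c hc
      rw [alt_cons, ← mul_assoc, ← mul_assoc]
      refine ih (fun p hp => hL p (List.mem_cons_of_mem _ hp)) _ fun L hL' => ?_
      refine fr_cl_vanish (fun s hs => ?_) (hL q List.mem_cons_self).2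
      rw [mul_assoc _ s]
      refine fr_cl_vanish (fun a ha => ?_) (hL q List.mem_cons_self).1
      have := hc ((a, s) :: L) (by
        intro p hp
        rcases List.mem_cons.1 hp with rfl | hp
        exacts [⟨ha, hs⟩, hL' p hp])
      simpa only [alt_cons, mul_assoc] using this
  intro a ha s hs L₂ hL₂
  refine key L₂ hL₂ _ fun L hL => fr_cl_vanish (fun s hs => ?_) hs
  rw [mul_assoc, ← one_mul a]
  refine fr_cl_vanish (fun a ha => ?_) ha
  rw [one_mul, ← mul_assoc]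
  exact h a ha s hs L hL

theorem clo_subset_Cl (𝒜 : StarSubalgebra ℂ A) : (clo τ 𝒜 : Set A) ⊆ Cl τ 𝒜 := by
  intro x hx ε hε
  obtain ⟨b, hb, h⟩ := hx ε hε
  exact ⟨b, Submodule.subset_span hb, h⟩

theorem fr_sub_mem_cen {x : A} (hx : x ∈ 𝒜) : x - τ.φ x • (1 : A) ∈ cen τ 𝒜 :=
  ⟨sub_mem hx (SMulMemClass.smul_mem _ (one_mem 𝒜)), by simp [τ.one]⟩

theorem cen_clo_subset (𝒜 : StarSubalgebra ℂ A) : cen τ (clo τ 𝒜) ⊆ Cl τ (cen τ 𝒜) := by
  rintro x ⟨hx, hx0⟩ ε hε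
  obtain ⟨b, hb, h⟩ := hx (ε / 2) (half_pos hε)
  refine ⟨b - τ.φ b • (1 : A), Submodule.subset_span (fr_sub_mem_cen hb), ?_⟩
  have e : x - (b - τ.φ b • (1 : A)) = (x - b) - τ.φ (x - b) • (1 : A) := by
    rw [map_sub, hx0, zero_sub, neg_smul]; abel
  have h1 := τ.n2_sub_le (x - b) (τ.φ (x - b) • (1 : A))
  rw [τ.n2_smul, τ.n2_one, mul_one] at h1
  have h2 := τ.norm_phi_le_n2 (x - b)
  rw [e]
  linarith

theorem Free.clo (h : Free τ 𝒜 ℬ) : Free τ (clo τ 𝒜) (clo τ ℬ) :=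
  (Fr.cl h).mono (clo_subset_Cl 𝒜) (cen_clo_subset 𝒜) (cen_clo_subset ℬ)

theorem fr_wd_nil (b : A) : wd b [] = 1 := rfl

theorem fr_wd_cons (b : A) (p : A × Bool) (L : List (A × Bool)) :
    wd b (p :: L) = p.1 * (if p.2 then b else star b) * wd b L := by
  simp [wd]

theorem fr_gw_nil {J : Type*} (c : J → A) : gw c [] = 1 := rfl

theorem fr_gw_cons {J : Type*} (c : J → A) (p : J × Bool) (L : List (J × Bool)) :
    gw c (p :: L) = (if p.2 then c p.1 else star (c p.1)) * gw c L := by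
  simp [gw]

theorem fr_gw_append {J : Type*} (c : J → A) (L L' : List (J × Bool)) :
    gw c (L ++ L') = gw c L * gw c L' := by
  simp [gw]

theorem Fr.st {𝒮 : Set A} (h : Fr τ 𝒜 (cen τ 𝒜) 𝒮) (h1 : ∀ n, u ^ (n + 1) ∈ 𝒮)
    (h2 : ∀ n, star u ^ (n + 1) ∈ 𝒮) : St τ 𝒜 u := by
  have h3 : ∀ (ε : Bool) (n : ℕ), (if ε then u else star u) ^ (n + 1) ∈ 𝒮 := by
    intro ε n
    cases ε
    exacts [h2 n, h1 n]
  let P : A → Prop := fun c => ∀ s ∈ 𝒮, ∀ L : List (A × A),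
    (∀ p ∈ L, p.1 ∈ cen τ 𝒜 ∧ p.2 ∈ 𝒮) → τ.φ (c * s * alt L) = 0
  have hP : ∀ c, P c → ∀ s ∈ 𝒮, ∀ x ∈ cen τ 𝒜, P (c * s * x) := by
    intro c hc s hs x hx s' hs' L hL
    have := hc s hs ((x, s') :: L) (by
      intro p hp
      rcases List.mem_cons.1 hp with rfl | hp
      exacts [⟨hx, hs'⟩, hL p hp])
    simpa only [alt_cons, mul_assoc] using this
  have key : ∀ L₂ : List (A × Bool), (∀ p ∈ L₂, p.1 ∈ 𝒜) → ∀ c, P c → ∀ (a : A) (ε : Bool) (n : ℕ),
      Adm τ ((a, ε) :: L₂) → τ.φ (c * (if ε then u else star u) ^ (n + 1) * wd u L₂) = 0 := by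
    intro L₂
    induction L₂ with
    | nil => exact fun _ c hc a ε n _ => hc _ (h3 ε n) [] (by simp)
    | cons q L₂ ih =>
      obtain ⟨x, δ⟩ := q
      intro hL c hc a ε n hA
      have hx : x ∈ 𝒜 := hL _ List.mem_cons_self
      have hL' : ∀ p ∈ L₂, p.1 ∈ 𝒜 := fun p hp => hL p (List.mem_cons_of_mem _ hp)
      obtain ⟨hA1, hA2⟩ := List.isChain_cons_cons.1 hA
      have e1 := ih hL' _ (hP c hc _ (h3 ε n) _ (fr_sub_mem_cen hx)) x δ 0 hA2
      rw [fr_wd_cons]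
      simp only [zero_add, pow_one, mul_sub, sub_mul, map_sub, mul_smul_comm, smul_mul_assoc,
        map_smul, mul_one, mul_assoc] at e1 ⊢
      by_cases hε : ε = δ
      · subst hε
        have e2 := ih hL' c hc x ε (n + 1) hA2
        rw [pow_succ _ (n + 1)] at e2
        simp only [mul_assoc] at e2
        rwa [e2, smul_zero, sub_zero] at e1
      · rwa [hA1 hε, zero_smul, sub_zero] at e1
  intro L hL hL' hA
  obtain ⟨⟨a, ε⟩, L₂, rfl⟩ := List.exists_cons_of_ne_nil hL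
  have := key L₂ (fun p hp => hL' p (List.mem_cons_of_mem _ hp)) a
    (h a (hL' _ List.mem_cons_self)) a ε 0 hA
  rwa [zero_add, pow_one, ← fr_wd_cons u (a, ε)] at this

theorem Free.st (h : Free τ 𝒜 ℬ) (hu : u ∈ ℬ) (h0 : ∀ n, τ.φ (u ^ (n + 1)) = 0) : St τ 𝒜 u :=
  Fr.st h (fun n => ⟨pow_mem hu _, h0 n⟩) fun n =>
    ⟨pow_mem (star_mem hu) _, by rw [← star_pow, τ.star, h0, map_zero]⟩

theorem Free.orth (h : Free τ 𝒜 ℬ) {ζ x : A} (hζ : ζ ∈ ℬ) (hζ0 : τ.φ ζ = 0) (hx : x ∈ 𝒜)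
    (hx0 : τ.φ x = 0) : τ.φ (star x * ζ * x * ζ) = 0 := by
  have := h (star x) (star_mem hx) ζ ⟨hζ, hζ0⟩ [(x, ζ)] (by
    intro p hp
    rw [List.mem_singleton.1 hp]
    exact ⟨⟨hx, hx0⟩, hζ, hζ0⟩)
  simpa only [alt_cons, alt_nil, mul_one, mul_assoc] using this

theorem fr_gw_mem {J : Type*} {u : J → A} {L : List (J × Bool)} (h : ∀ p ∈ L, u p.1 ∈ 𝒜) :
    gw u L ∈ 𝒜 := by
  induction L with
  | nil => exact one_mem _
  | cons p L ih =>
    rw [fr_gw_cons]
    refine mul_mem ?_ (ih fun q hq => h q (List.mem_cons_of_mem _ hq))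
    have := h p List.mem_cons_self
    split_ifs
    exacts [this, star_mem this]

theorem fh_of_st {J : Type*} {u : J → A}
    (h : ∀ i, St τ (StarAlgebra.adjoin ℂ (u '' {i}ᶜ)) (u i)) : FH τ u := by
  intro L
  induction hn : L.length using Nat.strong_induction_on generalizing L with
  | _ n ih =>
  intro hL hr
  obtain ⟨⟨i, ε₀⟩, L₀, rfl⟩ := List.exists_cons_of_ne_nil hL
  set 𝒜 := StarAlgebra.adjoin ℂ (u '' {i}ᶜ)
  have hK : ∀ K : List (J × Bool), (∀ p ∈ K, p.1 ≠ i) → gw u K ∈ 𝒜 := fun K hK =>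
    fr_gw_mem fun p hp => StarAlgebra.subset_adjoin ℂ _ ⟨p.1, hK p hp, rfl⟩
  have key : ∀ (L₂ K : List (J × Bool)) (ε : Bool), (∀ p ∈ K, p.1 ≠ i) →
      FreeGroup.IsReduced ((i, ε) :: (K ++ L₂)) → K.length + L₂.length < n →
      ∃ M : List (A × Bool), ∃ t ∈ 𝒜, (∀ p ∈ M, p.1 ∈ 𝒜) ∧ (∀ a, Adm τ ((a, ε) :: M)) ∧
        gw u K * gw u L₂ = wd (u i) M * t := by
    intro L₂
    induction L₂ with
    | nil =>
      intro K ε hKi _ _
      exact ⟨[], gw u K, hK K hKi, by simp, fun a => List.isChain_singleton _,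
        by rw [fr_gw_nil, fr_wd_nil, mul_one, one_mul]⟩
    | cons q L₂ ih₂ =>
      obtain ⟨j, δ⟩ := q
      intro K ε hKi hr hlen
      rw [List.length_cons] at hlen
      by_cases hj : j = i
      · subst hj
        obtain ⟨M, t, ht, hM, hA, e⟩ := ih₂ [] δ (by simp)
          (hr.infix ⟨(j, ε) :: K, [], by simp⟩) (by simp; omega)
        refine ⟨(gw u K, δ) :: M, t, ht, ?_, fun a => ?_, ?_⟩
        · intro p hp
          rcases List.mem_cons.1 hp with rfl | hp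
          exacts [hK K hKi, hM p hp]
        · refine List.isChain_cons_cons.2 ⟨fun hne => ?_, hA _⟩
          refine ih K.length (by omega) K rfl ?_ (hr.infix ⟨[(j, ε)], (j, δ) :: L₂, by simp⟩)
          rintro rfl
          exact hne ((FreeGroup.isReduced_cons_cons.1 hr).1 rfl)
        · rw [fr_gw_nil, one_mul] at e
          rw [fr_gw_cons, fr_wd_cons, e]
          simp only [mul_assoc]
      · obtain ⟨M, t, ht, hM, hA, e⟩ := ih₂ (K ++ [(j, δ)]) ε (by
          intro p hp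
          rcases List.mem_append.1 hp with hp | hp
          · exact hKi p hp
          · rw [List.mem_singleton.1 hp]; exact hj) (by simpa using hr) (by simp; omega)
        refine ⟨M, t, ht, hM, hA, ?_⟩
        rw [← e, fr_gw_append, fr_gw_cons, fr_gw_cons, fr_gw_nil, mul_one, mul_assoc]
  obtain ⟨M, t, ht, hM, hA, e⟩ := key L₀ [] ε₀ (by simp) hr (by simp at hn ⊢; omega)
  rw [fr_gw_nil, one_mul] at e
  have := h i ((t, ε₀) :: M) (by simp) (by
    intro p hp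
    rcases List.mem_cons.1 hp with rfl | hp
    exacts [ht, hM p hp]) (hA t)
  rw [fr_wd_cons, mul_assoc, τ.comm] at this
  rw [fr_gw_cons, e, ← mul_assoc]
  exact this

theorem FH.comp {J J' : Type*} {u : J → A} (h : FH τ u) {f : J' → J} (hf : Function.Injective f) :
    FH τ (u ∘ f) := by
  intro L hL hr
  have e : gw (u ∘ f) L = gw u (L.map (Prod.map f id)) := by
    simp [gw, List.map_map, Function.comp_def]
  rw [e]
  refine h _ (by simpa using hL) ?_
  exact List.isChain_map_of_isChain _ (fun a b hab h' => hab (hf h')) hr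

theorem fr_map_gw {J : Type*} (u : J → A) (θ : A ≃⋆ₐ[ℂ] A) (L : List (J × Bool)) :
    θ (gw u L) = gw (fun j => θ (u j)) L := by
  induction L with
  | nil => exact map_one θ
  | cons p L ih =>
    rw [fr_gw_cons, fr_gw_cons, map_mul, ih]
    split_ifs
    · rfl
    · rw [map_star]

theorem FH.map {J : Type*} {u : J → A} (h : FH τ u) {S : Set A} {θ : A ≃⋆ₐ[ℂ] A}
    (hθ : θ ∈ TPF τ S) : FH τ (fun j => θ (u j)) := by
  intro L hL hr
  rw [← fr_map_gw, hθ.1, h L hL hr]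

theorem FH.limit {J : Type*} {u : ℕ → J → A} {v : J → A} (h : ∀ n, FH τ (u n))
    (hu : ∀ n j, u n j ∈ unitary A)
    (hv : ∀ j, Tendsto (fun n => τ.n2 (u n j - v j)) atTop (𝓝 0)) : FH τ v := by
  have key : ∀ L : List (J × Bool),
      Tendsto (fun n => τ.n2 (gw (u n) L - gw v L)) atTop (𝓝 0) := by
    intro L
    induction L with
    | nil => simp [fr_gw_nil, τ.n2_zero]
    | cons p L ih =>
      simp only [fr_gw_cons]
      refine tendsto_n2_mul (C := 1) (fun n => ?_) ?_ ih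
      · split_ifs
        · exact (τ.norm_unitary (hu n _)).le
        · rw [norm_star]; exact (τ.norm_unitary (hu n _)).le
      · split_ifs
        exacts [hv _, tendsto_n2_star (hv _)]
  intro L hL hr
  refine tendsto_nhds_unique (tendsto_phi (key L)) ?_
  simp only [fun n => h n L hL hr]
  exact tendsto_const_nhds

end Crest.Agent.R134
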