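import Crest.Agent.R134.Amp
import Crest.Agent.R134.Corner
import Crest.Agent.R134.Absorb

/-!
# Row 134: one level of the amplification

`k × k` matrix units `e` with diagonal the arc projections of `u₁ = hu (X i₁)`; in their commutant
the `k` unitaries `ent e a a (u₁ ^ k)` and the `k²` unitaries `hu (Xc e (X i₀) q)` form a free
system over `QQ ∩ Cm e`, to which `absorb_seq` is applied.
-/

set_option autoImplicit false
set_option linter.unusedSectionVars false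

namespace Crest.Agent.R134

open Crest.Agent.R95 Filter Topology
open scoped ComplexConjugate

universe u v

variable {A : Type u} [CStarAlgebra A] {B : Type v} [CStarAlgebra B] {τ : Tr A}
  {ι : A →⋆ₐ[ℂ] B} {ω : B →ₗ[ℂ] ℂ} {I : Type*} {l : I → B} {X : I → A}

theorem corner_transfer {p v b : A} (hp : IsSelfAdjoint p) (hpv : Commute p v) (hpb : Commute p b)
    (h : p * b = p * v) {y : A} (hy : y ∈ StarAlgebra.adjoin ℂ {v}) :
    ∃ y' ∈ StarAlgebra.adjoin ℂ {b}, p * y = p * y' := by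
  suffices Commute p y ∧ ∃ y' ∈ StarAlgebra.adjoin ℂ {b}, Commute p y' ∧ p * y = p * y' from
    let ⟨_, y', h1, _, h2⟩ := this; ⟨y', h1, h2⟩
  have hst : ∀ z, Commute p z → Commute p (star z) := fun z hz => by
    have := congrArg star hz.eq
    rw [star_mul, star_mul, hp.star_eq] at this
    exact this.symm
  induction hy using StarAlgebra.adjoin_induction with
  | mem x hx =>
    obtain rfl := hx
    exact ⟨hpv, b, StarAlgebra.subset_adjoin ℂ _ rfl, hpb, h.symm⟩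
  | algebraMap r =>
    exact ⟨(Algebra.commutes r p).symm, _, algebraMap_mem _ r, (Algebra.commutes r p).symm, rfl⟩
  | add x y _ _ hx hy =>
    obtain ⟨h1, x', hx', h2, h3⟩ := hx
    obtain ⟨h4, y', hy', h5, h6⟩ := hy
    exact ⟨h1.add_right h4, x' + y', add_mem hx' hy', h2.add_right h5, by
      rw [mul_add, mul_add, h3, h6]⟩
  | mul x y _ _ hx hy =>
    obtain ⟨h1, x', hx', h2, h3⟩ := hx
    obtain ⟨h4, y', hy', h5, h6⟩ := hy
    exact ⟨h1.mul_right h4, x' * y', mul_mem hx' hy', h2.mul_right h5, by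
      rw [← mul_assoc, h3, h2.eq, mul_assoc, h6, ← mul_assoc, ← h2.eq, mul_assoc]⟩
  | star x _ hx =>
    obtain ⟨h1, x', hx', h2, h3⟩ := hx
    refine ⟨hst x h1, star x', star_mem hx', hst x' h2, ?_⟩
    have := congrArg star h3
    rw [star_mul, star_mul, hp.star_eq] at this
    rw [(hst x h1).eq, (hst x' h2).eq, this]

section lev

variable {K : Type} [Fintype K] [DecidableEq K] [Nonempty K]

/-- the static algebra -/
noncomputable def QQ (τ : Tr A) (X : I → A) (i₀ i₁ : I) (e : K → K → A) : StarSubalgebra ℂ A :=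
  W τ (Set.range (fun a => e a a) ∪ X '' {i₀, i₁}ᶜ)

/-- the data of a level -/
structure Lev (τ : Tr A) (X : I → A) (i₀ i₁ : I) (v : A) (e : K → K → A) : Prop where
  ne : i₀ ≠ i₁
  mu : MU e
  diag : ∀ a, e a a ∈ W τ {X i₁}
  mem : ∀ a b, e a b ∈ QQ τ X i₀ i₁ e
  vmem : v ∈ W τ {X i₁}
  vuni : v ∈ unitary A
  tr0 : ∀ a n, τ.φ (e a a * v ^ (n + 1)) = 0
  app : ∀ a, ∀ ε > 0, ∃ y ∈ StarAlgebra.adjoin ℂ {v}, τ.n2 (e a a * hu (X i₁) - e a a * y) < ε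

/-- the free system in the commutant -/
noncomputable def UU {e : K → K → A} (he : MU e) (v x : A) : K ⊕ K × K → Cm e :=
  Sum.elim (fun a => ⟨ent e a a v, he.ent_mem _ _ _⟩)
    fun q => ⟨hu (Xc e x q), hu_mem inferInstance (he.Xc_mem _ _)⟩

/-- the static part in the commutant -/
def PP (e : K → K → A) (Q : StarSubalgebra ℂ A) : Set (Cm e) := {x | (x : A) ∈ Q}

variable {i₀ i₁ : I} {v : A} {e : K → K → A}

theorem Model.semi (h : Model τ ι ω l X) (i : I) : Semi τ (X i) :=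
  (h.cre i).semi h.vn.faithful h.rep

theorem Lev.comm (h : Model τ ι ω l X) (H : Lev τ X i₀ i₁ v e) (a : K) : Commute (e a a) v :=
  commute_W_sa h.vn.faithful (h.semi i₁).sa (H.diag a) H.vmem

theorem Lev.u1_mem (h : Model τ ι ω l X) (H : Lev τ X i₀ i₁ v e) :
    hu (X i₁) ∈ W τ (mus e ∪ Set.range fun a => ent e a a v) := by
  rw [← one_mul (hu (X i₁)), ← H.mu.sum, Finset.sum_mul]
  refine sum_mem fun a _ => mem_W_of_approx fun ε hε => ?_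
  obtain ⟨y, hy, hlt⟩ := H.app a ε hε
  obtain ⟨y', hy', h'⟩ := corner_transfer (H.mu.proj a).isSelfAdjoint (H.comm h a)
    (H.mu.mem_Cm.1 (H.mu.ent_mem a a v) a a) (H.mu.diag_mul_ent a (H.comm h a)) hy
  refine ⟨e a a * y', mul_mem (mem_W (Or.inl (e_mem_mus a a))) ?_, by rwa [← h']⟩
  refine adjoin_le_W _ (StarAlgebra.adjoin_le ?_ hy')
  rintro _ rfl
  exact StarAlgebra.subset_adjoin ℂ _ (Or.inr ⟨a, rfl⟩)

theorem Lev.B_le (H : Lev τ X i₀ i₁ v e) : W τ {X i₁} ≤ W τ (X '' {i₀}ᶜ) :=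
  W_mono (by rintro _ rfl; exact ⟨i₁, H.ne.symm, rfl⟩)

theorem Lev.Q_le (H : Lev τ X i₀ i₁ v e) : QQ τ X i₀ i₁ e ≤ W τ (X '' {i₀}ᶜ) := by
  refine W_le_W ?_
  rintro _ (⟨a, rfl⟩ | ⟨i, hi, rfl⟩)
  · exact H.B_le (H.diag a)
  · exact mem_W ⟨i, fun h => hi (Or.inl h), rfl⟩

theorem Lev.st_inl (h : Model τ ι ω l X) (H : Lev τ X i₀ i₁ v e) (β : K) :
    St (sub τ (Cm e)) (W (sub τ (Cm e))
      (PP e (QQ τ X i₀ i₁ e) ∪ UU H.mu v (X i₀) '' {Sum.inl β}ᶜ)) (UU H.mu v (X i₀) (.inl β)) := by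
  have hf : Free τ (W τ (X '' {i₁}ᶜ)) (W τ {X i₁}) :=
    ((h.cre i₁).free h.vn.faithful h.rep).mono (le_clo _) le_rfl
  have hk : (Fintype.card K : ℂ) ≠ 0 := Nat.cast_ne_zero.2 Fintype.card_ne_zero
  have hp : τ.φ (e β β) = (Fintype.card K : ℂ)⁻¹ := by
    simpa [τ.one] using H.mu.phi_mul (τ := τ) (one_mem _) β β
  have hst := corner_st (C := Cm e) hf (H.mu.proj β) (H.diag β)
    (fun y hy => commute_W_sa h.vn.faithful (h.semi i₁).sa (H.diag β) hy)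
    (by rw [hp]; exact inv_ne_zero hk) H.vmem (H.tr0 β)
    (fun x hx => ⟨H.mu.mem_Cm.1 hx β β, by rw [H.mu.phi_mul hx, if_pos rfl, hp]⟩)
    (H.mu.ent_mem β β v) (H.mu.diag_mul_ent β (H.comm h β))
  refine St.sub (u := UU H.mu v (X i₀) (.inl β)) hst fun x hx => ⟨?_, x.2⟩
  set D := W τ ((W τ (X '' {i₁}ᶜ) : Set A) ∪ B0 (W τ {X i₁}) (e β β)) with hD
  have hX : ∀ i, i ≠ i₁ → X i ∈ D := fun i hi => mem_W (Or.inl (mem_W ⟨i, hi, rfl⟩))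
  have hQ : QQ τ X i₀ i₁ e ≤ D := by
    refine W_le_W ?_
    rintro _ (⟨a, rfl⟩ | ⟨i, hi, rfl⟩)
    · refine mem_W (Or.inr ⟨H.diag a, if a = β then 1 else 0, ?_⟩)
      show e a a * e β β = _
      rw [H.mu.mul]
      split_ifs with hab
      · rw [hab, one_smul]
      · rw [zero_smul]
    · exact hX i fun h => hi (Or.inr h)
  have he : ∀ a b, e a b ∈ D := fun a b => hQ (H.mem a b)
  refine W_le_W ?_ (coe_mem_W hx)
  rintro _ ⟨y, hy | ⟨γ | q, hγ, rfl⟩, rfl⟩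
  · exact hQ hy
  · show ent e γ γ v ∈ D
    rw [← H.mu.ent_diag_mul]
    refine ent_mem_of he (mem_W (Or.inr ⟨mul_mem (H.diag γ) H.vmem, 0, ?_⟩)) _ _
    have hγβ : γ ≠ β := fun h => hγ (by rw [h]; rfl)
    rw [mul_assoc, ← (H.comm h β).eq, ← mul_assoc, H.mu.mul, if_neg hγβ, zero_mul, zero_smul]
  · exact hu_mem inferInstance (Xc_mem_of he (hX i₀ H.ne) q)

theorem Lev.inr (h : Model τ ι ω l X) (H : Lev τ X i₀ i₁ v e) (q : K × K) :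
    Semi τ (Xc e (X i₀) q) ∧ ∃ 𝒜 : StarSubalgebra ℂ A, Free τ 𝒜 (W τ {Xc e (X i₀) q}) ∧
      ∀ x ∈ W (sub τ (Cm e)) (PP e (QQ τ X i₀ i₁ e) ∪ UU H.mu v (X i₀) '' {Sum.inr q}ᶜ),
        (x : A) ∈ 𝒜 := by
  have heN : ∀ a b, e a b ∈ W τ (X '' {i₀}ᶜ) := fun a b => H.Q_le (H.mem a b)
  obtain ⟨L, hL⟩ := (h.cre i₀).amp H.mu heN
  refine ⟨(hL.one q).semi h.vn.faithful h.rep,
    W τ (((W τ (X '' {i₀}ᶜ) ⊓ Cm e : StarSubalgebra ℂ A) : Set A) ∪ Xc e (X i₀) '' {q}ᶜ),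
    (hL.extend h.rep q).free h.vn.faithful h.rep, fun x hx => W_le_W ?_ (coe_mem_W hx)⟩
  rintro _ ⟨y, hy | ⟨γ | q', hq, rfl⟩, rfl⟩
  · exact mem_W (Or.inl ⟨H.Q_le hy, y.2⟩)
  · exact mem_W (Or.inl ⟨ent_mem_of heN (H.B_le H.vmem) _ _, H.mu.ent_mem _ _ _⟩)
  · exact hu_mem inferInstance (mem_W (Or.inr ⟨q', fun h => hq (by rw [h]; rfl), rfl⟩))

theorem Lev.sys (h : Model τ ι ω l X) (H : Lev τ X i₀ i₁ v e) :
    Sys (sub τ (Cm e)) (PP e (QQ τ X i₀ i₁ e)) (UU H.mu v (X i₀)) := by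
  have uni : ∀ x : Cm e, (x : A) ∈ unitary A → x ∈ unitary (Cm e) := fun x hx => by
    rw [Unitary.mem_iff] at hx ⊢
    exact ⟨Subtype.ext hx.1, Subtype.ext hx.2⟩
  refine ⟨?_, ?_, fun x => H.mu.mem_W_sub (gen_of_subset h.gen ?_ _)⟩
  · rintro (a | q)
    · exact uni _ (H.mu.ent_unitary a H.vuni (H.comm h a))
    · exact uni _ (hu_unitary _)
  · rintro (a | q)
    · exact H.st_inl h a
    · obtain ⟨hs, 𝒜, hf, h𝒜⟩ := H.inr h q
      exact St.sub (u := UU H.mu v (X i₀) (.inr q))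
        (hf.st (hu_mem inferInstance (mem_W rfl)) hs.unif.ex_pow) h𝒜
  · set T := Subtype.val '' (PP e (QQ τ X i₀ i₁ e) ∪ Set.range (UU H.mu v (X i₀))) ∪ mus e
    have he : ∀ a b, e a b ∈ W τ T := fun a b => mem_W (Or.inr (e_mem_mus a b))
    rintro _ ⟨i, rfl⟩
    by_cases h0 : i = i₀
    · rw [h0, ← H.mu.rc_Xc (X i₀)]
      refine rc_mem_of he fun q => W_mono ?_ (H.inr h q).1.mem
      rintro _ rfl
      exact Or.inl ⟨_, Or.inr ⟨.inr q, rfl⟩, rfl⟩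
    by_cases h1 : i = i₁
    · rw [h1]
      refine W_le_W ?_ (h.semi i₁).mem
      rintro _ rfl
      refine W_mono ?_ (H.u1_mem h)
      rintro _ (hx | ⟨a, rfl⟩)
      · exact Or.inr hx
      · exact Or.inl ⟨_, Or.inr ⟨.inl a, rfl⟩, rfl⟩
    · have hQ : X i ∈ QQ τ X i₀ i₁ e := mem_W (Or.inr ⟨i, by simp [h0, h1], rfl⟩)
      rw [← H.mu.sum_ent (X i)]
      refine sum_mem fun q _ => mul_mem (mem_W (Or.inl ?_)) (he _ _)
      exact ⟨⟨_, H.mu.ent_mem _ _ _⟩, Or.inl (ent_mem_of H.mem hQ _ _), rfl⟩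

theorem Lev.log (h : Model τ ι ω l X) (H : Lev τ X i₀ i₁ v e) (q : K × K) :
    ∃ ζ, Log (sub τ (Cm e)) (W (sub τ (Cm e))
      (PP e (QQ τ X i₀ i₁ e) ∪ UU H.mu v (X i₀) '' {Sum.inr q}ᶜ)) (UU H.mu v (X i₀) (.inr q)) ζ := by
  obtain ⟨hs, 𝒜, hf, h𝒜⟩ := H.inr h q
  refine ⟨⟨lg (Xc e (X i₀) q), lg_mem inferInstance (H.mu.Xc_mem _ _)⟩, Subtype.ext (lg_sa _),
    hs.unif.norm_le, Subtype.ext (coe_ex _), H.mu.mem_W_sub (W_mono ?_ hs.unif.mem),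
    fun x hx hx0 => hf.orth (lg_mem inferInstance (mem_W rfl)) hs.unif.phi (h𝒜 x hx) hx0⟩
  rintro _ rfl
  exact Or.inl ⟨_, rfl, rfl⟩

end lev

theorem Model.exists_lev (h : Model τ ι ω l X) {i₀ i₁ i₂ : I} (h01 : i₀ ≠ i₁) (h02 : i₀ ≠ i₂)
    (h12 : i₁ ≠ i₂) (m : ℕ) :
    ∃ (v : A) (e : Fin (m + 1) → Fin (m + 1) → A), Lev τ X i₀ i₁ v e := by
  obtain ⟨p, hp, hpW, hp0, hpa⟩ := (h.semi i₁).unif.arcs h.vn (m + 1) m.succ_pos
  have hX : X i₁ ∈ W τ {X i₁} := mem_W rfl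
  have h1 : W τ {lg (X i₁)} ≤ W τ {X i₁} := W_le_W (by
    rintro _ rfl; exact lg_mem (isClosed_W _) hX)
  have h2 : W τ {X i₁} ≤ W τ (X '' {i₂}ᶜ) := W_mono (by rintro _ rfl; exact ⟨i₁, h12, rfl⟩)
  obtain ⟨e, he, hep, heW⟩ := (h.cre i₂).exists_MU h.vn h.rep hp fun a => h2 (h1 (hpW a))
  have h3 : W τ (Set.range p ∪ {X i₂}) ≤ QQ τ X i₀ i₁ e := W_mono (by
    rintro _ (⟨a, rfl⟩ | rfl)
    · exact Or.inl ⟨a, hep a⟩
    · exact Or.inr ⟨i₂, by simp [h02.symm, h12.symm], rfl⟩)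
  refine ⟨hu (X i₁) ^ (m + 1), e, ?_⟩
  refine { ne := h01, mu := he, diag := fun a => ?_, mem := fun a b => h3 (heW a b),
           vmem := pow_mem (hu_mem (isClosed_W _) hX) _, vuni := pow_mem (hu_unitary _) _,
           tr0 := fun a n => ?_, app := fun a => ?_ }
  · rw [hep]; exact h1 (hpW a)
  · rw [hep]; exact hp0 a n
  · rw [hep]; exact hpa a

theorem Model.level (h : Model τ ι ω l X) {i₀ i₁ i₂ : I} (h01 : i₀ ≠ i₁) (h02 : i₀ ≠ i₂)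
    (h12 : i₁ ≠ i₂) {ε δ : ℝ} (hε : 0 < ε) (hδ : 0 < δ) :
    ∃ θ ∈ TPF τ (X '' {i₀, i₁}ᶜ), τ.n2 (θ (hu (X i₁)) - hu (X i₁)) < δ ∧
      ∃ y ∈ W τ (X '' {i₀}ᶜ), τ.n2 (X i₀ - θ y) < ε := by
  classical
  obtain ⟨C, hC0, hC⟩ := Semi.approx τ (ε := ε / 8) (by positivity)
  obtain ⟨m, hm, hmC⟩ : ∃ m : ℕ, 0 < m ∧ C * (25 / √(m : ℝ)) ≤ ε / 8 := by
    obtain ⟨m, hm⟩ := exists_nat_gt ((C * 25 / (ε / 8)) ^ 2)
    have hm0 : (0 : ℝ) < m := lt_of_le_of_lt (by positivity) hm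
    refine ⟨m, Nat.cast_pos.1 hm0, ?_⟩
    have h1 := Real.lt_sqrt_of_sq_lt hm
    have h2 : 0 < √(m : ℝ) := Real.sqrt_pos.2 hm0
    rw [div_lt_iff₀ (by positivity)] at h1
    rw [← mul_div_assoc, div_le_iff₀ h2]
    linarith
  obtain ⟨v, e, H⟩ := h.exists_lev h01 h02 h12 m
  obtain ⟨δ', hδ', hcont⟩ := tpf_cont (H.u1_mem h) hδ
  obtain ⟨θ, hθ, hb, hz⟩ := absorb_seq (H.mu.vn_sub h.vn) (H.sys h) hm
    (b := fun β : Fin m => Sum.inl β.succ)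
    (fun a b hab => Fin.succ_injective _ (Sum.inl_injective hab)) (c := Sum.inl 0)
    (fun β hβ => Fin.succ_ne_zero β (Sum.inl_injective hβ))
    (Finset.univ.map ⟨Sum.inr, Sum.inr_injective⟩) (by simp) (by simp) (fun z hz => by
      obtain ⟨q, -, rfl⟩ := Finset.mem_map.1 hz
      exact H.log h q) hδ'
  obtain ⟨Θ, hΘ, hΘθ⟩ := H.mu.lift h.vn hθ
  have hΘe : ∀ a b, Θ (e a b) = e a b := fun a b => hΘ.2 _ (e_mem_mus a b)
  have heN : ∀ a b, e a b ∈ W τ (X '' {i₀}ᶜ) := fun a b => H.Q_le (H.mem a b)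
  have hy : ∀ q, ∃ y ∈ W τ (X '' {i₀}ᶜ), Θ y ∈ Cm e ∧ τ.n2 (Xc e (X i₀) q - Θ y) ≤ ε / 4 := by
    intro q
    obtain ⟨w, hw, hwu, hlt⟩ := hz (.inr q) (by simp)
    have hwu' : (w : A) ∈ unitary A := Unitary.map_mem (Cm e).subtype hwu
    obtain ⟨y, hy, hle⟩ := hC _ (H.inr h q).1 _ (aut_unitary Θ hwu')
    have hyC : y ∈ Cm e := StarAlgebra.adjoin_le (S := Cm e) (by
      rintro _ rfl
      rw [hΘθ]
      exact (θ w).2) hy
    rw [← Set.image_singleton] at hy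
    obtain ⟨y', hy', rfl⟩ := exists_of_mem_adjoin_image Θ hy
    have hwN : (w : A) ∈ W τ (X '' {i₀}ᶜ) := by
      refine StarAlgebra.adjoin_le ?_ (map_adjoin_mem (Cm e).subtype hw)
      rintro _ ⟨_, ⟨_, ⟨β, rfl⟩ | rfl, rfl⟩, rfl⟩
      · exact ent_mem_of heN (H.B_le H.vmem) _ _
      · exact ent_mem_of heN (H.B_le H.vmem) _ _
    refine ⟨y', StarAlgebra.adjoin_le (by rintro _ rfl; exact hwN) hy', hyC, hle.trans ?_⟩
    have h1 : τ.n2 (Θ w - hu (Xc e (X i₀) q)) ≤ 25 / √(m : ℝ) := by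
      rw [hΘθ]
      exact hlt.le
    have := mul_le_mul_of_nonneg_left h1 hC0
    linarith
  choose y hyN hyC hy using hy
  refine ⟨Θ, ⟨hΘ.1, ?_⟩, hcont Θ hΘ fun a => ?_, rc e y, rc_mem_of heN hyN, ?_⟩
  · rintro _ ⟨i, hi, rfl⟩
    have hQ : X i ∈ QQ τ X i₀ i₁ e := mem_W (Or.inr ⟨i, hi, rfl⟩)
    conv_lhs => rw [← H.mu.sum_ent (X i)]
    conv_rhs => rw [← H.mu.sum_ent (X i)]
    rw [map_sum]
    refine Finset.sum_congr rfl fun q _ => ?_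
    rw [map_mul, hΘe]
    congr 1
    refine (hΘθ ⟨_, H.mu.ent_mem _ _ _⟩).trans ?_
    rw [hθ.2 _ (Or.inl (ent_mem_of H.mem hQ _ _))]
  · have h1 := hΘθ (UU H.mu v (X i₀) (.inl a))
    refine lt_of_eq_of_lt (congrArg (fun z => τ.n2 (z - ent e a a v)) h1) ?_
    refine Fin.cases ?_ (fun β => hb β) a
    rw [hθ.2 _ (Or.inr ⟨.inl 0, by simp [Fin.succ_ne_zero], rfl⟩)]
    show τ.n2 (ent e 0 0 v - ent e 0 0 v) < δ'
    rwa [sub_self, τ.n2_zero]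
  · conv_lhs => rw [← H.mu.rc_Xc (X i₀)]
    rw [map_rc Θ hΘe, rc_sub]
    refine (H.mu.n2_rc_le (fun q => sub_mem (H.mu.Xc_mem _ _) (hyC q)) hy).trans_lt ?_
    linarith

end Crest.Agent.R134
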