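import Crest.Agent.R134.Basic

/-!
# Row 134: from semicircular to uniform variables (task R134-Semi)

PLANS.
* `ψ θ = 2θ - sin (2θ)` is continuous, strictly increasing (`ψ' = 4 sin² θ`, or directly
  `|sin a - sin b| < |a - b|`), onto `ℝ`; its inverse is continuous (`StrictMono.orderIsoOfSurjective`,
  `OrderIso.continuous`).  `G y = 2 cos (ψ⁻¹ (π - y))`; `FF x = π - ψ (arccos (x/2))`.
* `Semi.law`: `cheb (2 cos θ) n * sin θ = sin ((n+1) θ)`, `fc (fun x => cheb (x:ℂ) n) X = cheb X n`,
  `∫₀^π sin ((n+2)θ) sin θ = 0`, `∫₀^π sin² = π/2`.  The set of continuous `f` satisfying the formula is a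
  submodule containing the `cheb · n`, so all monomials (`x * cheb x (n+1) = cheb x (n+2) + cheb x n`),
  so all real polynomials; conclude by Weierstrass on `[-2, 2]` (`exists_polynomial_near_of_continuousOn`,
  real and imaginary parts) with `norm_fc_le`, `Tr.norm_phi_le`.
* `Semi.unif`: `fc_cfc`, `Semi.law`, substitution `intervalIntegral.integral_comp_mul_deriv`.
-/

set_option autoImplicit false

namespace Crest.Agent.R134

open Crest.Agent.R95 Filter Topology
open scoped ComplexConjugate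

universe u v

variable {A : Type u} [CStarAlgebra A] {τ : Tr A} {X : A}

theorem continuous_FF : Continuous FF := by
  unfold FF; fun_prop

/-- `ψ θ = 2θ - sin 2θ` -/
noncomputable def psi (θ : ℝ) : ℝ := 2 * θ - Real.sin (2 * θ)

theorem continuous_psi : Continuous psi := by
  unfold psi; fun_prop

theorem psi_strictMono : StrictMono psi := by
  intro a b hab
  have h1 := Real.sin_sub_sin (2 * b) (2 * a)
  have h2 : |Real.sin ((2 * b - 2 * a) / 2)| < |(2 * b - 2 * a) / 2| :=
    Real.abs_sin_lt_abs (by intro h; linarith)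
  rw [abs_of_pos (a := (2 * b - 2 * a) / 2) (by linarith)] at h2
  have h3 : |Real.cos ((2 * b + 2 * a) / 2)| ≤ 1 := Real.abs_cos_le_one _
  have h4 : Real.sin ((2 * b - 2 * a) / 2) * Real.cos ((2 * b + 2 * a) / 2) ≤
      |Real.sin ((2 * b - 2 * a) / 2)| := by
    refine (le_abs_self _).trans ?_
    rw [abs_mul]
    exact mul_le_of_le_one_right (abs_nonneg _) h3
  unfold psi
  nlinarith

theorem psi_surj : Function.Surjective psi := by
  refine continuous_psi.surjective ?_ ?_
  · refine tendsto_atTop_mono (f := fun θ => 2 * θ + (-1)) (fun θ => ?_) ?_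
    · unfold psi; linarith [Real.sin_le_one (2 * θ)]
    · exact tendsto_atTop_add_const_right _ _ (tendsto_id.const_mul_atTop two_pos)
  · refine tendsto_atBot_mono (f := fun θ => 2 * θ + 1) (fun θ => ?_) ?_
    · unfold psi; linarith [Real.neg_one_le_sin (2 * θ)]
    · exact tendsto_atBot_add_const_right _ _ (tendsto_id.const_mul_atBot two_pos)

theorem psi_zero : psi 0 = 0 := by simp [psi]

theorem psi_pi : psi Real.pi = 2 * Real.pi := by simp [psi]

theorem psi_half : psi (Real.pi / 2) = Real.pi := by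
  have : 2 * (Real.pi / 2) = Real.pi := by ring
  simp [psi, this]

theorem FF_eq (x : ℝ) : FF x = Real.pi - psi (Real.arccos (x / 2)) := by
  unfold FF psi; ring

theorem abs_FF_le (x : ℝ) : |FF x| ≤ Real.pi := by
  have h1 := psi_strictMono.monotone (Real.arccos_nonneg (x / 2))
  have h2 := psi_strictMono.monotone (Real.arccos_le_pi (x / 2))
  rw [psi_zero] at h1
  rw [psi_pi] at h2
  rw [FF_eq, abs_le]
  constructor <;> linarith

theorem exists_GG : ∃ G : ℝ → ℝ, Continuous G ∧ (∀ x, |x| ≤ 2 → G (FF x) = x) ∧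
    ∀ y, |y| ≤ Real.pi → G y = 0 → y = 0 := by
  set e := psi_strictMono.orderIsoOfSurjective psi psi_surj with he
  have hc : Continuous e.symm := e.symm.continuous
  have h1 : ∀ θ, e.symm (psi θ) = θ := fun θ => e.symm_apply_apply θ
  have h2 : ∀ y, psi (e.symm y) = y := fun y => e.apply_symm_apply y
  refine ⟨fun y => 2 * Real.cos (e.symm (Real.pi - y)), by fun_prop, fun x hx => ?_,
    fun y hy h => ?_⟩
  · rw [abs_le] at hx
    simp only [FF_eq, sub_sub_cancel, h1]
    rw [Real.cos_arccos (by linarith) (by linarith)]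
    ring
  · rw [abs_le] at hy
    have h3 : 0 ≤ e.symm (Real.pi - y) := by
      rw [← psi_strictMono.le_iff_le, h2, psi_zero]; linarith
    have h4 : e.symm (Real.pi - y) ≤ Real.pi := by
      rw [← psi_strictMono.le_iff_le, h2, psi_pi]; linarith
    have h5 : Real.cos (e.symm (Real.pi - y)) = Real.cos (Real.pi / 2) := by
      rw [Real.cos_pi_div_two]; simpa using h
    have h6 := Real.injOn_cos ⟨h3, h4⟩
      ⟨by positivity, by linarith [Real.pi_pos]⟩ h5
    have h7 := h2 (Real.pi - y)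
    rw [h6, psi_half] at h7
    linarith

theorem cheb_ofReal (x : ℝ) : ∀ n, cheb (x : ℂ) n = ((cheb x n : ℝ) : ℂ)
  | 0 => by simp [cheb]
  | 1 => by simp [cheb]
  | n + 2 => by simp [cheb, cheb_ofReal x n, cheb_ofReal x (n + 1)]

theorem continuous_cheb : ∀ n, Continuous fun x : ℝ => cheb (x : ℂ) n
  | 0 => by simp only [cheb]; fun_prop
  | 1 => by simp only [cheb]; fun_prop
  | n + 2 => by
    have h1 := continuous_cheb n
    have h2 := continuous_cheb (n + 1)
    simp only [cheb]; fun_prop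

theorem cheb_cos (θ : ℝ) : ∀ n : ℕ,
    cheb (2 * Real.cos θ) n * Real.sin θ = Real.sin ((n + 1 : ℝ) * θ)
  | 0 => by simp [cheb]
  | 1 => by
    simp only [cheb, Nat.cast_one]
    rw [show (1 + 1 : ℝ) * θ = 2 * θ by ring, Real.sin_two_mul]; ring
  | n + 2 => by
    have h1 := cheb_cos θ n
    have h2 := cheb_cos θ (n + 1)
    simp only [cheb]
    push_cast at h2 ⊢
    have e1 : (n + 2 + 1 : ℝ) * θ = (n + 1 + 1 : ℝ) * θ + θ := by ring
    have e2 : (n + 1 : ℝ) * θ = (n + 1 + 1 : ℝ) * θ - θ := by ring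
    rw [e2, Real.sin_sub] at h1
    rw [e1, Real.sin_add, sub_mul, h1, mul_assoc, h2]
    ring

theorem fc_cheb (hX : IsSelfAdjoint X) : ∀ n, fc (fun x => cheb (x : ℂ) n) X = cheb X n
  | 0 => by simp only [cheb]; exact fc_one hX
  | 1 => by simp only [cheb]; exact fc_id hX
  | n + 2 => by
    simp only [cheb]
    rw [fc_sub (by have := continuous_cheb (n + 1); fun_prop) (continuous_cheb n),
      fc_mul (by fun_prop) (continuous_cheb _), fc_id hX, fc_cheb hX n, fc_cheb hX (n + 1)]

theorem integral_cos_nat (k : ℕ) :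
    ∫ θ in (0 : ℝ)..Real.pi, Real.cos ((k + 1 : ℝ) * θ) = 0 := by
  have hk : (k + 1 : ℝ) ≠ 0 := by positivity
  rw [intervalIntegral.integral_comp_mul_left Real.cos hk, integral_cos]
  have : Real.sin ((k + 1 : ℝ) * Real.pi) = 0 := by
    exact_mod_cast Real.sin_nat_mul_pi (k + 1)
  simp [this]

theorem integral_cheb (n : ℕ) :
    ∫ θ in (0 : ℝ)..Real.pi, cheb (2 * Real.cos θ) (n + 1) * Real.sin θ ^ 2 = 0 := by
  have e : ∀ θ : ℝ, cheb (2 * Real.cos θ) (n + 1) * Real.sin θ ^ 2 =
      (1 / 2) * (Real.cos ((n + 1 : ℝ) * θ) - Real.cos (((n + 2 : ℕ) + 1 : ℝ) * θ)) := by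
    intro θ
    have h := cheb_cos θ (n + 1)
    push_cast at h ⊢
    have e1 : (n + 2 + 1 : ℝ) * θ = (n + 1 + 1 : ℝ) * θ + θ := by ring
    have e2 : (n + 1 : ℝ) * θ = (n + 1 + 1 : ℝ) * θ - θ := by ring
    rw [sq, ← mul_assoc, h, e1, e2, Real.cos_add, Real.cos_sub]
    ring
  simp only [e]
  rw [intervalIntegral.integral_const_mul, intervalIntegral.integral_sub
    (Continuous.intervalIntegrable (by fun_prop) _ _)
    (Continuous.intervalIntegrable (by fun_prop) _ _), integral_cos_nat, integral_cos_nat]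
  simp

/-- the semicircle law as a functional -/
noncomputable def sc (f : ℝ → ℂ) : ℂ :=
  (2 / Real.pi : ℝ) • ∫ θ in (0 : ℝ)..Real.pi, f (2 * Real.cos θ) * (Real.sin θ : ℂ) ^ 2

theorem sc_add {f g : ℝ → ℂ} (hf : Continuous f) (hg : Continuous g) :
    sc (fun x => f x + g x) = sc f + sc g := by
  unfold sc
  simp only [add_mul]
  rw [intervalIntegral.integral_add (Continuous.intervalIntegrable (by fun_prop) _ _)
    (Continuous.intervalIntegrable (by fun_prop) _ _), smul_add]

theorem sc_sub {f g : ℝ → ℂ} (hf : Continuous f) (hg : Continuous g) :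
    sc (fun x => f x - g x) = sc f - sc g := by
  unfold sc
  simp only [sub_mul]
  rw [intervalIntegral.integral_sub (Continuous.intervalIntegrable (by fun_prop) _ _)
    (Continuous.intervalIntegrable (by fun_prop) _ _), smul_sub]

theorem sc_const_mul (c : ℂ) (f : ℝ → ℂ) : sc (fun x => c * f x) = c * sc f := by
  unfold sc
  simp only [mul_assoc]
  rw [intervalIntegral.integral_const_mul, mul_smul_comm]

theorem norm_sc_le {f : ℝ → ℂ} {C : ℝ} (hC : 0 ≤ C) (h : ∀ x, |x| ≤ 2 → ‖f x‖ ≤ C) :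
    ‖sc f‖ ≤ 2 * C := by
  unfold sc
  have h1 : ‖∫ θ in (0 : ℝ)..Real.pi, f (2 * Real.cos θ) * (Real.sin θ : ℂ) ^ 2‖ ≤
      C * |Real.pi - 0| := by
    refine intervalIntegral.norm_integral_le_of_norm_le_const fun θ _ => ?_
    rw [norm_mul, norm_pow, Complex.norm_real, Real.norm_eq_abs, sq_abs]
    have h2 : ‖f (2 * Real.cos θ)‖ ≤ C := h _ (by
      rw [abs_mul, abs_two]; linarith [Real.abs_cos_le_one θ])
    calc _ ≤ C * 1 := mul_le_mul h2 (Real.sin_sq_le_one θ) (sq_nonneg _) hC
      _ = C := mul_one C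
  rw [sub_zero, abs_of_pos Real.pi_pos] at h1
  rw [norm_smul, Real.norm_eq_abs, abs_of_pos (by positivity)]
  calc _ ≤ 2 / Real.pi * (C * Real.pi) := by gcongr
    _ = 2 * C := by field_simp

theorem Semi.law_cheb (h : Semi τ X) : ∀ n,
    τ.φ (fc (fun x => cheb (x : ℂ) n) X) = sc fun x => cheb (x : ℂ) n
  | 0 => by
    rw [fc_cheb h.sa]
    simp only [cheb, sc, one_mul, τ.one]
    have : ∫ θ in (0 : ℝ)..Real.pi, (Real.sin θ : ℂ) ^ 2 = ((Real.pi / 2 : ℝ) : ℂ) := by
      rw [← show ∫ θ in (0 : ℝ)..Real.pi, Real.sin θ ^ 2 = Real.pi / 2 by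
        rw [integral_sin_sq]; simp, ← intervalIntegral.integral_ofReal]
      simp
    rw [this, Complex.real_smul, ← Complex.ofReal_mul]
    have : 2 / Real.pi * (Real.pi / 2) = 1 := by field_simp
    rw [this, Complex.ofReal_one]
  | n + 1 => by
    rw [fc_cheb h.sa, h.mom]
    unfold sc
    have : ∫ θ in (0 : ℝ)..Real.pi,
        cheb (((2 * Real.cos θ : ℝ)) : ℂ) (n + 1) * (Real.sin θ : ℂ) ^ 2 = ((0 : ℝ) : ℂ) := by
      conv_rhs => rw [← integral_cheb n, ← intervalIntegral.integral_ofReal]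
      refine intervalIntegral.integral_congr fun θ _ => ?_
      simp only [cheb_ofReal]
      rw [Complex.ofReal_mul, Complex.ofReal_pow]
    rw [this]
    simp

theorem Semi.law_pow (h : Semi τ X) : ∀ m n : ℕ,
    τ.φ (fc (fun x => (x : ℂ) ^ m * cheb (x : ℂ) n) X) = sc fun x => (x : ℂ) ^ m * cheb (x : ℂ) n
  | 0, n => by simpa using h.law_cheb n
  | m + 1, 0 => by
    have := h.law_pow m 1
    simpa only [cheb, mul_one, pow_succ] using this
  | m + 1, n + 1 => by
    have e : (fun x : ℝ => (x : ℂ) ^ (m + 1) * cheb (x : ℂ) (n + 1)) =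
        fun x : ℝ => (x : ℂ) ^ m * cheb (x : ℂ) (n + 2) + (x : ℂ) ^ m * cheb (x : ℂ) n := by
      funext x
      simp only [cheb]
      ring
    have h1 := continuous_cheb n
    have h2 := continuous_cheb (n + 2)
    rw [e, fc_add (by fun_prop) (by fun_prop), sc_add (by fun_prop) (by fun_prop), map_add,
      h.law_pow m n, h.law_pow m (n + 2)]

theorem Semi.law_poly (h : Semi τ X) (p : Polynomial ℝ) :
    τ.φ (fc (fun x => ((p.eval x : ℝ) : ℂ)) X) = sc fun x => ((p.eval x : ℝ) : ℂ) := by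
  induction p using Polynomial.induction_on' with
  | add p q hp hq =>
    simp only [Polynomial.eval_add, Complex.ofReal_add]
    rw [fc_add (by fun_prop) (by fun_prop), sc_add (by fun_prop) (by fun_prop), map_add, hp, hq]
  | monomial n a =>
    simp only [Polynomial.eval_monomial, Complex.ofReal_mul, Complex.ofReal_pow]
    have := h.law_pow n 0
    simp only [cheb, mul_one] at this
    rw [fc_const_mul _ (by fun_prop), sc_const_mul, map_smul, this, smul_eq_mul]

theorem Semi.law_real (h : Semi τ X) {g : ℝ → ℝ} (hg : Continuous g) :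
    τ.φ (fc (fun x => (g x : ℂ)) X) = sc fun x => (g x : ℂ) := by
  refine eq_of_forall_dist_le fun ε hε => ?_
  obtain ⟨p, hp⟩ := exists_polynomial_near_of_continuousOn (-2) 2 g hg.continuousOn (ε / 3)
    (by positivity)
  have hb : ∀ x, |x| ≤ 2 → ‖(g x : ℂ) - ((p.eval x : ℝ) : ℂ)‖ ≤ ε / 3 := fun x hx => by
    rw [← Complex.ofReal_sub, Complex.norm_real, Real.norm_eq_abs, abs_sub_comm]
    exact (hp x (abs_le.1 hx)).le
  have h1 := norm_sc_le (f := fun x => (g x : ℂ) - ((p.eval x : ℝ) : ℂ)) (by positivity) hb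
  have h2 := (τ.norm_phi_le _).trans (norm_fc_le (t := X)
    (f := fun x => (g x : ℂ) - ((p.eval x : ℝ) : ℂ)) (C := ε / 3) (by positivity)
    fun x hx => hb x (hx.trans h.norm_le))
  rw [sc_sub (by fun_prop) (by fun_prop)] at h1
  rw [fc_sub (by fun_prop) (by fun_prop), map_sub, h.law_poly] at h2
  rw [← dist_eq_norm] at h1 h2
  have := dist_triangle_right (τ.φ (fc (fun x => (g x : ℂ)) X)) (sc fun x => (g x : ℂ))
    (sc fun x => ((p.eval x : ℝ) : ℂ))
  linarith

theorem Semi.law (h : Semi τ X) {f : ℝ → ℂ} (hf : Continuous f) :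
    τ.φ (fc f X) =
      (2 / Real.pi : ℝ) • ∫ θ in (0 : ℝ)..Real.pi, f (2 * Real.cos θ) * (Real.sin θ : ℂ) ^ 2 := by
  change _ = sc f
  have e : f = fun x => ((f x).re : ℂ) + Complex.I * ((f x).im : ℂ) := by
    funext x; rw [mul_comm, Complex.re_add_im]
  rw [e, fc_add (by fun_prop) (by fun_prop), sc_add (by fun_prop) (by fun_prop),
    fc_const_mul _ (by fun_prop), sc_const_mul, map_add, map_smul, smul_eq_mul,
    h.law_real (g := fun x => (f x).re) (by fun_prop),
    h.law_real (g := fun x => (f x).im) (by fun_prop)]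

theorem Semi.unif (h : Semi τ X) : Unif τ (lg X) := by
  refine ⟨lg_sa X, norm_cfc_le Real.pi_pos.le fun x _ => abs_FF_le x, fun f hf => ?_⟩
  have hF := continuous_FF
  rw [lg, fc_cfc h.sa hf hF, h.law (by fun_prop)]
  have hd : ∀ θ ∈ Set.uIcc (0 : ℝ) Real.pi,
      HasDerivAt (fun θ => Real.pi - psi θ) (-(4 * Real.sin θ ^ 2)) θ := by
    intro θ _
    have h1 : HasDerivAt (fun θ : ℝ => 2 * θ) 2 θ := by simpa using (hasDerivAt_id θ).const_mul 2
    have h2 := (h1.sub h1.sin).const_sub Real.pi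
    refine h2.congr_deriv ?_
    rw [Real.cos_two_mul, Real.cos_sq']
    ring
  have h1 := intervalIntegral.integral_deriv_smul_comp hd (by fun_prop) hf
  simp only [psi_zero, psi_pi, sub_zero] at h1
  rw [show Real.pi - 2 * Real.pi = -Real.pi by ring, intervalIntegral.integral_symm (-Real.pi),
    ← neg_eq_iff_eq_neg, ← intervalIntegral.integral_neg] at h1
  rw [← h1]
  have h2 : ∫ θ in (0 : ℝ)..Real.pi,
      -((-(4 * Real.sin θ ^ 2)) • (f ∘ fun θ => Real.pi - psi θ) θ) =
      ∫ θ in (0 : ℝ)..Real.pi, (4 : ℝ) • (f (FF (2 * Real.cos θ)) * (Real.sin θ : ℂ) ^ 2) := by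
    refine intervalIntegral.integral_congr fun θ hθ => ?_
    rw [Set.uIcc_of_le Real.pi_pos.le] at hθ
    have : FF (2 * Real.cos θ) = Real.pi - psi θ := by
      rw [FF_eq, show 2 * Real.cos θ / 2 = Real.cos θ by ring, Real.arccos_cos hθ.1 hθ.2]
    simp only [this, Function.comp, Complex.real_smul]
    push_cast
    ring
  rw [h2, intervalIntegral.integral_smul, smul_smul]
  congr 1
  field_simp
  ring

end Crest.Agent.R134
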