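import Crest.Agent.R134.Semi

/-!
# Row 134: trigonometric approximation (task R134-Trig)

PLANS.
* `trig_approx`: pure real analysis.  E.g. `span_fourierLp_closure_eq_top` on `AddCircle T` applied to
  (the `Lp` class of) `AddCircle.liftIoc T α g`, `AddCircle.intervalIntegral_preimage`,
  `AddCircle.volume_eq_smul_haarAddCircle`; or change `g` near an end point to make it periodic and use
  `span_fourier_closure_eq_top`; or Parseval `hasSum_sq_fourierCoeffOn`.
* `Unif.n2_sq`: `star (fc f t) * fc f t = fc (fun x => conj (f x) * f x) t`.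
* `Unif.approx`: `trig_approx g (-π) (2π)`; `y = ∑ c n • w^n` (`star w ^ (-n)` for `n < 0`; or use `zpow`
  in `unitary A`); `n2 (w^n - u^n) ≤ n * n2 (w - u)` for unitaries; `K = ∑ ‖c n‖ |n|`;
  `ex t ^ n = fc (fun x => exp (I n x)) t` by `ex_eq_fc`, `fc_pow`, `fc_star`.
* `Semi.approx`: `X = fc (fun y => G y) (lg X)` with `G` from `exists_GG` (`fc_cfc`, `fc_congr`, `fc_id`).
-/

set_option autoImplicit false

namespace Crest.Agent.R134

open Crest.Agent.R95 Filter Topology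
open scoped ComplexConjugate

universe u v

variable {A : Type u} [CStarAlgebra A] {τ : Tr A} {X t : A}

open MeasureTheory in
theorem trig_approx {g : ℝ → ℂ} (hg : Continuous g) (α : ℝ) {T : ℝ} (hT : 0 < T) {ε : ℝ}
    (hε : 0 < ε) : ∃ (s : Finset ℤ) (c : ℤ → ℂ), ∫ x in α..α + T,
      ‖g x - ∑ n ∈ s, c n * Complex.exp (2 * Real.pi * Complex.I * n * x / T)‖ ^ 2 < ε := by
  haveI := Fact.mk hT
  obtain ⟨C, hC⟩ := (isCompact_Icc (a := α) (b := α + T)).exists_bound_of_continuousOn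
    hg.continuousOn
  have hL2 : MemLp g 2 (volume.restrict (Set.Ioc α (α + T))) := by
    refine MemLp.of_bound hg.aestronglyMeasurable C ?_
    filter_upwards [ae_restrict_mem measurableSet_Ioc] with x hx
    exact hC x (Set.Ioc_subset_Icc_self hx)
  have h := hL2.memLp_liftIoc.haarAddCircle
  have hs := hasSum_fourier_series_L2 h.toLp
  have hδ : 0 < √(ε / T) := Real.sqrt_pos.2 (by positivity)
  obtain ⟨s, hs⟩ := (Metric.tendsto_nhds.1 hs _ hδ).exists
  set c : ℤ → ℂ := fourierCoeff h.toLp with hc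
  refine ⟨s, c, ?_⟩
  set P : C(AddCircle T, ℂ) := ∑ i ∈ s, c i • fourier i with hP
  have e1 : ∑ i ∈ s, c i • fourierLp 2 i =
      ContinuousMap.toLp (E := ℂ) 2 (AddCircle.haarAddCircle (T := T)) ℂ P := by
    rw [hP, map_sum]
    simp only [map_smul]
  rw [dist_comm, dist_eq_norm, e1] at hs
  set D := h.toLp - ContinuousMap.toLp (E := ℂ) 2 (AddCircle.haarAddCircle (T := T)) ℂ P with hD
  have e2 : ‖D‖ ^ 2 = ∫ t, ‖D t‖ ^ 2 ∂AddCircle.haarAddCircle := by
    have H₃ := congr_arg RCLike.re (@L2.inner_def (AddCircle T) ℂ ℂ _ _ _ _ _ D D)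
    rw [← integral_re (L2.integrable_inner D D)] at H₃
    simpa only [← norm_sq_eq_re_inner] using H₃
  have e3 : ∫ t, ‖D t‖ ^ 2 ∂AddCircle.haarAddCircle =
      ∫ t, ‖AddCircle.liftIoc T α g t - P t‖ ^ 2 ∂AddCircle.haarAddCircle := by
    refine integral_congr_ae ?_
    filter_upwards [Lp.coeFn_sub h.toLp
      (ContinuousMap.toLp (E := ℂ) 2 (AddCircle.haarAddCircle (T := T)) ℂ P), h.coeFn_toLp,
      ContinuousMap.coeFn_toLp (E := ℂ) (p := 2) (𝕜 := ℂ) (AddCircle.haarAddCircle (T := T)) P]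
      with x h1 h2 h3
    rw [hD, h1, Pi.sub_apply, h2, h3]
  have e4 : ∫ x in α..α + T,
      ‖g x - ∑ n ∈ s, c n * Complex.exp (2 * Real.pi * Complex.I * n * x / T)‖ ^ 2 =
      ∫ t : AddCircle T, ‖AddCircle.liftIoc T α g t - P t‖ ^ 2 := by
    rw [← AddCircle.intervalIntegral_preimage T α,
      intervalIntegral.integral_of_le (by linarith), intervalIntegral.integral_of_le (by linarith)]
    refine setIntegral_congr_fun measurableSet_Ioc fun x hx => ?_
    simp only [AddCircle.liftIoc_coe_apply hx, hP, ContinuousMap.coe_sum, Finset.sum_apply,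
      ContinuousMap.coe_smul, Pi.smul_apply, smul_eq_mul, fourier_coe_apply]
  rw [e4]
  rw [e3, AddCircle.integral_haarAddCircle, smul_eq_mul] at e2
  have h5 : ‖D‖ ^ 2 < ε / T := by
    rw [← Real.sq_sqrt (x := ε / T) (by positivity)]
    exact pow_lt_pow_left₀ hs (norm_nonneg _) two_ne_zero
  rw [e2, inv_mul_eq_div, div_lt_div_iff_of_pos_right hT] at h5
  exact h5

theorem Unif.n2_sq (h : Unif τ t) {f : ℝ → ℂ} (hf : Continuous f) :
    τ.n2 (fc f t) ^ 2 = 1 / (2 * Real.pi) * ∫ x in (-Real.pi)..Real.pi, ‖f x‖ ^ 2 := by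
  rw [τ.n2_sq, ← fc_star, ← fc_mul (by fun_prop) hf, h.law _ (by fun_prop)]
  have : ∀ x, conj (f x) * f x = ((‖f x‖ ^ 2 : ℝ) : ℂ) := fun x => by
    rw [Complex.conj_mul', Complex.ofReal_pow]
  simp only [this]
  rw [intervalIntegral.integral_ofReal, Complex.real_smul, ← Complex.ofReal_mul, Complex.ofReal_re]

theorem Unif.phi (h : Unif τ t) : τ.φ t = 0 := by
  have := h.law (fun x => (x : ℂ)) (by fun_prop)
  rw [fc_id h.sa, intervalIntegral.integral_ofReal, integral_id] at this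
  simpa using this

theorem Unif.ex_pow (h : Unif τ t) (n : ℕ) : τ.φ (ex t ^ (n + 1)) = 0 := by
  rw [ex_eq_fc h.sa, ← fc_pow h.sa (by fun_prop), h.law _ (by fun_prop)]
  have e : ∀ x : ℝ, Complex.exp (Complex.I * x) ^ (n + 1) =
      Complex.exp ((Complex.I * (n + 1 : ℕ)) * x) := fun x => by
    rw [← Complex.exp_nat_mul]; congr 1; ring
  simp only [e]
  have h0 : Complex.I * ((n + 1 : ℕ) : ℂ) ≠ 0 :=
    mul_ne_zero Complex.I_ne_zero (Nat.cast_ne_zero.2 n.succ_ne_zero)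
  rw [integral_exp_mul_complex h0]
  have : Complex.exp (Complex.I * ((n + 1 : ℕ) : ℂ) * (Real.pi : ℂ)) =
      Complex.exp (Complex.I * ((n + 1 : ℕ) : ℂ) * ((-Real.pi : ℝ) : ℂ)) := by
    rw [← Complex.exp_periodic.nat_mul (n + 1)
      (Complex.I * ((n + 1 : ℕ) : ℂ) * ((-Real.pi : ℝ) : ℂ))]
    congr 1
    push_cast
    ring
  rw [this, sub_self, zero_div, smul_zero]

/-- integer powers of a unitary -/
def zp (w : A) (n : ℤ) : A := if 0 ≤ n then w ^ n.natAbs else star w ^ n.natAbs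

theorem n2_pow_sub (τ : Tr A) {w u : A} (hw : w ∈ unitary A) (hu : u ∈ unitary A) :
    ∀ n : ℕ, τ.n2 (w ^ n - u ^ n) ≤ n * τ.n2 (w - u)
  | 0 => by simp [τ.n2_zero]
  | n + 1 => by
    have h1 := n2_pow_sub τ hw hu n
    have h2 := n2_mul_sub_le (τ := τ) (w ^ n) (u ^ n) w u
    rw [τ.norm_unitary hw, τ.norm_unitary (pow_mem hu n)] at h2
    rw [pow_succ, pow_succ]
    push_cast
    linarith

theorem n2_zp_sub (τ : Tr A) {w u : A} (hw : w ∈ unitary A) (hu : u ∈ unitary A) (n : ℤ) :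
    τ.n2 (zp w n - zp u n) ≤ n.natAbs * τ.n2 (w - u) := by
  unfold zp
  split_ifs
  · exact n2_pow_sub τ hw hu _
  · have := n2_pow_sub τ (Unitary.star_mem hw) (Unitary.star_mem hu) n.natAbs
    rwa [← star_sub, τ.n2_star] at this

theorem zp_mem (w : A) (n : ℤ) : zp w n ∈ StarAlgebra.adjoin ℂ {w} := by
  have : w ∈ StarAlgebra.adjoin ℂ {w} := StarAlgebra.subset_adjoin ℂ _ rfl
  unfold zp
  split_ifs
  · exact pow_mem this _
  · exact pow_mem (star_mem this) _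

theorem zp_ex (ht : IsSelfAdjoint t) (n : ℤ) :
    zp (ex t) n = fc (fun x => Complex.exp (Complex.I * n * x)) t := by
  unfold zp
  rw [ex_eq_fc ht]
  split_ifs with hn
  · rw [← fc_pow ht (by fun_prop)]
    congr 1
    funext x
    rw [← Complex.exp_nat_mul]
    congr 1
    have : ((n.natAbs : ℕ) : ℂ) = n := by
      rw [← Int.cast_natCast, Int.natAbs_of_nonneg hn]
    rw [this]; ring
  · rw [← fc_star, ← fc_pow ht (by fun_prop)]
    congr 1
    funext x
    rw [← Complex.exp_conj, ← Complex.exp_nat_mul]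
    congr 1
    have : ((n.natAbs : ℕ) : ℂ) = -n := by
      rw [← Int.cast_natCast, Int.ofNat_natAbs_of_nonpos (not_le.1 hn).le, Int.cast_neg]
    rw [this]
    simp only [map_mul, Complex.conj_I, Complex.conj_ofReal]
    ring

theorem Unif.approx (τ : Tr A) {g : ℝ → ℂ} (hg : Continuous g) {ε : ℝ} (hε : 0 < ε) :
    ∃ K : ℝ, 0 ≤ K ∧ ∀ t, Unif τ t → ∀ w ∈ unitary A, ∃ y ∈ StarAlgebra.adjoin ℂ {w},
      τ.n2 (fc g t - y) ≤ ε + K * τ.n2 (w - ex t) := by
  obtain ⟨s, c, hs⟩ := trig_approx hg (-Real.pi) (T := 2 * Real.pi) (by positivity)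
    (ε := 2 * Real.pi * ε ^ 2) (by positivity)
  have e : ∀ (n : ℤ) (x : ℝ), 2 * (Real.pi : ℂ) * Complex.I * n * x / ((2 * Real.pi : ℝ) : ℂ) =
      Complex.I * n * x := fun n x => by
    have : (Real.pi : ℂ) ≠ 0 := Complex.ofReal_ne_zero.2 Real.pi_ne_zero
    push_cast
    field_simp
  simp only [e] at hs
  rw [show -Real.pi + 2 * Real.pi = Real.pi by ring] at hs
  refine ⟨∑ n ∈ s, ‖c n‖ * n.natAbs, by positivity, fun t ht w hw =>
    ⟨∑ n ∈ s, c n • zp w n, sum_mem fun n _ => SMulMemClass.smul_mem _ (zp_mem w n), ?_⟩⟩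
  have h1 : τ.n2 (fc g t - ∑ n ∈ s, c n • zp (ex t) n) ≤ ε := by
    have e1 : ∑ n ∈ s, c n • zp (ex t) n =
        fc (fun x => ∑ n ∈ s, c n * Complex.exp (Complex.I * n * x)) t := by
      rw [fc_sum s (fun n _ => by fun_prop)]
      refine Finset.sum_congr rfl fun n _ => ?_
      rw [fc_const_mul _ (by fun_prop), zp_ex ht.sa]
    rw [e1, ← fc_sub hg (by fun_prop)]
    refine (pow_le_pow_iff_left₀ (τ.n2_nonneg _) hε.le two_ne_zero).1 ?_
    rw [ht.n2_sq (by fun_prop), one_div, inv_mul_le_iff₀ (by positivity)]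
    exact hs.le
  have h2 : τ.n2 (∑ n ∈ s, c n • zp (ex t) n - ∑ n ∈ s, c n • zp w n) ≤
      (∑ n ∈ s, ‖c n‖ * n.natAbs) * τ.n2 (w - ex t) := by
    rw [← Finset.sum_sub_distrib, Finset.sum_mul]
    refine (τ.n2_sum_le _ _).trans (Finset.sum_le_sum fun n _ => ?_)
    rw [← smul_sub, τ.n2_smul, mul_assoc, τ.n2_sub_comm]
    exact mul_le_mul_of_nonneg_left (n2_zp_sub τ hw (ex_unitary ht.sa) n) (norm_nonneg _)
  exact (τ.n2_triangle _ _ _).trans (add_le_add h1 h2)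

theorem Unif.mem (h : Unif τ t) : t ∈ W τ {ex t} := by
  intro ε hε
  obtain ⟨K, -, hK⟩ := Unif.approx τ (g := fun x => (x : ℂ)) (by fun_prop) (half_pos hε)
  obtain ⟨y, hy, h1⟩ := hK t h (ex t) (ex_unitary h.sa)
  rw [fc_id h.sa, sub_self, τ.n2_zero] at h1
  exact ⟨y, hy, by linarith⟩

theorem Semi.approx (τ : Tr A) {ε : ℝ} (hε : 0 < ε) :
    ∃ K : ℝ, 0 ≤ K ∧ ∀ X, Semi τ X → ∀ w ∈ unitary A, ∃ y ∈ StarAlgebra.adjoin ℂ {w},
      τ.n2 (X - y) ≤ ε + K * τ.n2 (w - hu X) := by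
  obtain ⟨G, hG, hG1, -⟩ := exists_GG
  obtain ⟨K, hK0, hK⟩ := Unif.approx τ (g := fun x => (G x : ℂ)) (by fun_prop) hε
  refine ⟨K, hK0, fun X hX w hw => ?_⟩
  obtain ⟨y, hy, h1⟩ := hK _ hX.unif w hw
  refine ⟨y, hy, ?_⟩
  have e : fc (fun x => (G x : ℂ)) (lg X) = X := by
    rw [lg, fc_cfc hX.sa (by fun_prop) continuous_FF]
    conv_rhs => rw [← fc_id hX.sa]
    exact fc_congr fun x hx => by rw [hG1 x (hx.trans hX.norm_le)]
  rwa [e] at h1

theorem Semi.mem (h : Semi τ X) : X ∈ W τ {hu X} := by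
  intro ε hε
  obtain ⟨K, -, hK⟩ := Semi.approx τ (half_pos hε)
  obtain ⟨y, hy, h1⟩ := hK X h (hu X) (hu_unitary X)
  rw [sub_self, τ.n2_zero] at h1
  exact ⟨y, hy, by linarith⟩

end Crest.Agent.R134
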